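import Vale.Agent.Lib.P028F.Rough
import Vale.Agent.Lib.P028F.BlockW

/-! The measure of a thin arc set in a cell. -/

open MeasureTheory Set Filter Topology
open Vale.Agent.Lib.P028 Vale.Agent.Lib.P028E

namespace Vale.Agent.Lib.P028F

open scoped Classical in
/-- Count of centres with the true density. From `MoebiusAux.cnt_bound`, as in `coprime_count`. -/
theorem coprime_count_dens (q : ℕ) (hq : 0 < q) (k m : ℤ) (hkm : IsCoprime k m) (X : ℤ) (H : ℕ) :
    (H : ℝ) * MoebiusAux.eul (Pk k q) - ((Nat.divisors q).card : ℝ)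
      ≤ (((Finset.Ico X (X + H)).filter (fun a : ℤ => IsCoprime (k * a - m) (q : ℤ))).card : ℝ) := by
  classical
  set P : Finset ℕ := Pk k q with hPdef
  have hP : ∀ p ∈ P, p.Prime ∧ ¬ ((p : ℤ) ∣ k) := by
    intro p hp
    simp only [hPdef, Pk, Finset.mem_filter, Nat.mem_primeFactors] at hp
    exact ⟨hp.1.1, hp.2⟩
  have hbound := MoebiusAux.cnt_bound k P hP m X H
  -- the sieved set is contained in the coprime set
  have hsub : MoebiusAux.cnt k m P X H
      ≤ ((Finset.Ico X (X + H)).filter (fun a : ℤ => IsCoprime (k * a - m) (q : ℤ))).card := by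
    unfold MoebiusAux.cnt
    apply Finset.card_le_card
    intro a ha
    simp only [Finset.mem_filter] at ha ⊢
    refine ⟨ha.1, ?_⟩
    rw [Int.isCoprime_iff_gcd_eq_one]
    by_contra hne
    obtain ⟨p, hp, hp1⟩ := Nat.exists_prime_and_dvd hne
    have hp2 : (p : ℤ) ∣ k * a - m := by
      have : (p : ℤ) ∣ ((Int.gcd (k * a - m) q : ℕ) : ℤ) := by exact_mod_cast hp1
      exact this.trans (Int.gcd_dvd_left ..)
    have hp3 : p ∣ q := by
      have h : (p : ℤ) ∣ (q : ℤ) := by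
        have : (p : ℤ) ∣ ((Int.gcd (k * a - m) q : ℕ) : ℤ) := by exact_mod_cast hp1
        exact this.trans (Int.gcd_dvd_right ..)
      exact_mod_cast h
    by_cases hpk : (p : ℤ) ∣ k
    · -- then p divides m, contradicting coprimality
      have hpm : (p : ℤ) ∣ m := by
        have : m = k * a - (k * a - m) := by ring
        rw [this]
        exact dvd_sub (Dvd.dvd.mul_right hpk a) hp2
      have hpi : Prime (p : ℤ) := Nat.prime_iff_prime_int.mp hp
      exact hpi.not_isUnit (hkm.isUnit_of_dvd' hpk hpm)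
    · have hpP : p ∈ P := by
        simp only [hPdef, Pk, Finset.mem_filter, Nat.mem_primeFactors]
        exact ⟨⟨hp, hp3, hq.ne'⟩, hpk⟩
      exact ha.2 p hpP hp2
  have hprimes : ∀ p ∈ q.primeFactors, p.Prime := fun p hp => Nat.prime_of_mem_primeFactors hp
  -- the divisor bound
  have hdiv : (2 : ℝ) ^ P.card ≤ ((Nat.divisors q).card : ℝ) := by
    have h1 : P.card ≤ q.primeFactors.card := Finset.card_le_card (Finset.filter_subset _ _)
    have h2 : 2 ^ q.primeFactors.card ≤ (Nat.divisors q).card := by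
      rw [Nat.card_divisors hq.ne']
      calc 2 ^ q.primeFactors.card = ∏ _x ∈ q.primeFactors, 2 := by simp
        _ ≤ _ := by
          apply Finset.prod_le_prod'
          intro p hp
          have := (Nat.Prime.factorization_pos_of_dvd (hprimes p hp) hq.ne'
            (Nat.dvd_of_mem_primeFactors hp))
          omega
    have h3 : (2 : ℕ) ^ P.card ≤ (Nat.divisors q).card :=
      le_trans (Nat.pow_le_pow_right (by norm_num) h1) h2
    exact_mod_cast h3
  have hb2 := (abs_le.mp hbound).1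
  have hsub' : (MoebiusAux.cnt k m P X H : ℝ)
      ≤ (((Finset.Ico X (X + H)).filter (fun a : ℤ => IsCoprime (k * a - m) (q : ℤ))).card : ℝ) := by
    exact_mod_cast hsub
  linarith

/-- The measure of a thin arc set in a cell. -/
theorem cell_dens (γ : ℝ) (ψ : ℕ → ℝ) (hL : ∀ q : ℕ, 1 ≤ q → (q : ℝ) * ψ q ≤ 1)
    (hφ : ∀ q : ℕ, 0 < ψ q → (q : ℝ) ^ 3 ≤ (Nat.totient q : ℝ) ^ 4) (N : ℕ) (hN : 0 < N) :
    ∃ q₁ : ℕ, ∀ q, q₁ ≤ q → 0 < ψ q → ∀ n : ℕ, n < N →
      1 / (N : ℝ) * (ψ q * dens γ (ψ q) q) ≤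
        (volume (EE γ ψ q ∩ Ioc ((n : ℝ) / N) (((n : ℝ) + 1) / N))).toReal := by
  classical
  have hN' : (0 : ℝ) < N := by exact_mod_cast hN
  refine ⟨max 2 (max (12 * N) ((64 * N ^ 2) ^ 2)), ?_⟩
  intro q hq hψ n hn
  have hq2 : 2 ≤ q := le_trans (le_max_left _ _) hq
  have hq12 : 12 * N ≤ q := le_trans (le_trans (le_max_left _ _) (le_max_right _ _)) hq
  have hq64 : (64 * N ^ 2) ^ 2 ≤ q := le_trans (le_trans (le_max_right _ _) (le_max_right _ _)) hq
  have hq0 : 0 < q := by omega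
  have hq' : (0 : ℝ) < q := by exact_mod_cast hq0
  have hq2' : (2 : ℝ) ≤ q := by exact_mod_cast hq2
  have hq12' : 12 * (N : ℝ) ≤ q := by exact_mod_cast hq12
  have hq64' : (64 * (N : ℝ) ^ 2) ^ 2 ≤ q := by exact_mod_cast hq64
  have hψ2 : ψ q ≤ 1 / 2 := by
    have := hL q (by omega)
    nlinarith
  set ρ : ℝ := dens γ (ψ q) q with hρ
  have hρ0 : 0 < ρ := by
    have h1 := dens_ge γ (ψ q) q
    have h2 : (0 : ℝ) < yc q := by exact_mod_cast yc_pos q
    exact lt_of_lt_of_le (div_pos cA_pos h2) h1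
  set τ : ℝ := ((Nat.divisors q).card : ℝ) with hτ
  have hA : ∀ (X : ℤ) (H : ℕ), ρ * H - τ ≤
      (((Finset.Ico X (X + H)).filter (· ∈ cop γ (ψ q) q)).card : ℝ) := by
    intro X H
    have h1 := coprime_count_dens q hq0 (sv γ (ψ q)).1 (sv γ (ψ q)).2 (sv_coprime γ (ψ q) hψ) X H
    have h4 : (Finset.Ico X (X + H)).filter (· ∈ cop γ (ψ q) q)
        = (Finset.Ico X (X + H)).filter
          (fun a : ℤ => IsCoprime ((sv γ (ψ q)).1 * a - (sv γ (ψ q)).2) (q : ℤ)) := by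
      ext a
      simp only [Finset.mem_filter]
      exact Iff.rfl
    rw [h4]
    have e : ρ * H = (H : ℝ) * MoebiusAux.eul (Pk (sv γ (ψ q)).1 q) := by
      rw [hρ]; unfold dens; ring
    rw [e]
    exact h1
  have hmain := cell_lower q hq0 γ (ψ q) hψ hψ2 (cop γ (ψ q) q) ρ τ hρ0.le hA
    ((n : ℝ) / N) (((n : ℝ) + 1) / N)
    (by
      apply div_le_div_of_nonneg_right _ hN'.le
      linarith)
  refine le_trans ?_ hmain
  have hvu : (q : ℝ) * (((n : ℝ) + 1) / N - (n : ℝ) / N) = q / N := by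
    field_simp
    ring
  rw [hvu]
  -- the divisor bound
  have hτ2 : τ ^ 2 ≤ 4 * q := card_divisors_sq_le q
  have hτ0 : 0 ≤ τ := Nat.cast_nonneg _
  set φ : ℝ := (Nat.totient q : ℝ) with hφdef
  have hφ0 : 0 ≤ φ := Nat.cast_nonneg _
  have hφρ : φ ≤ ρ * q := by
    have h1 := totient_le_dens γ (ψ q) q hq0
    rw [div_le_iff₀ hq'] at h1
    exact h1
  have hφ4 : (q : ℝ) ^ 3 ≤ φ ^ 4 := hφ q hψ
  -- `64 N² q ≤ φ²`
  have h64 : 64 * (N : ℝ) ^ 2 * q ≤ φ ^ 2 := by
    have h1 : (64 * (N : ℝ) ^ 2 * q) ^ 2 ≤ (φ ^ 2) ^ 2 := by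
      have h2 : (64 * (N : ℝ) ^ 2 * q) ^ 2 = (64 * (N : ℝ) ^ 2) ^ 2 * (q : ℝ) ^ 2 := by ring
      have h3 : (64 * (N : ℝ) ^ 2) ^ 2 * (q : ℝ) ^ 2 ≤ q * (q : ℝ) ^ 2 :=
        mul_le_mul_of_nonneg_right hq64' (by positivity)
      have h4 : (φ ^ 2) ^ 2 = φ ^ 4 := by ring
      rw [h2, h4]
      nlinarith
    exact le_of_pow_le_pow_left₀ two_ne_zero (by positivity) h1
  have hτle : τ ≤ ρ * q / (4 * N) := by
    rw [le_div_iff₀ (by positivity)]
    have h1 : (τ * (4 * N)) ^ 2 ≤ (ρ * q) ^ 2 := by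
      have h2 : (τ * (4 * N)) ^ 2 = τ ^ 2 * (16 * (N : ℝ) ^ 2) := by ring
      have h3 : τ ^ 2 * (16 * (N : ℝ) ^ 2) ≤ (4 * q) * (16 * (N : ℝ) ^ 2) :=
        mul_le_mul_of_nonneg_right hτ2 (by positivity)
      have h4 : φ ^ 2 ≤ (ρ * q) ^ 2 := pow_le_pow_left₀ hφ0 hφρ 2
      rw [h2]
      nlinarith
    exact le_of_pow_le_pow_left₀ two_ne_zero (by positivity) h1
  have h3ρ : 3 * ρ ≤ ρ * q / (4 * N) := by
    rw [le_div_iff₀ (by positivity)]
    nlinarith
  have hkey : ρ * q / N ≤ 2 * (ρ * (q / N - 3) - τ) := by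
    have e1 : ρ * q / N = 4 * (ρ * q / (4 * N)) := by
      field_simp
    have e2 : ρ * ((q : ℝ) / N - 3) = ρ * q / N - 3 * ρ := by
      ring
    rw [e2, e1]
    linarith
  have hψq : 0 < ψ q / q := by positivity
  have e3 : 1 / (N : ℝ) * (ψ q * ρ) = (ψ q / q) * (ρ * q / N) := by
    field_simp
  rw [e3]
  have := mul_le_mul_of_nonneg_left hkey hψq.le
  nlinarith

end Vale.Agent.Lib.P028F
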