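import Vale.Agent.Lib.P028F.SecondT
import Vale.Agent.Lib.P028F.CellT

/-! The moduli whose shortest vector is short. -/

open MeasureTheory Set Filter Topology
open Vale.Agent.Lib.P028 Vale.Agent.Lib.P028E

namespace Vale.Agent.Lib.P028F

/-- Full measure on the support of `BadOK`, from `ae_of_blocks_w`, `cell_dens`, `block_second`. -/
theorem bad_part (γ : ℝ) (ψ : ℕ → ℝ) (h0 : ∀ q, 0 ≤ ψ q) (hL : ∀ q : ℕ, 1 ≤ q → (q : ℝ) * ψ q ≤ 1)
    (hsupp : ∀ q, 0 < ψ q → BadOK γ ψ q ∧ (q : ℝ) ^ 3 ≤ (Nat.totient q : ℝ) ^ 4)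
    (hdiv : ¬ Summable (fun q => ψ q * dens γ (ψ q) q)) :
    ∀ᵐ x : ℝ, ∃ᶠ q : ℕ in atTop, ∃ a : ℤ, |(q : ℝ) * x - a - γ| < ψ q := by
  have hdens0 : ∀ s q, 0 ≤ dens γ s q := fun s q =>
    le_trans (div_nonneg cA_pos.le (Nat.cast_nonneg _)) (dens_ge γ s q)
  have hw0 : ∀ q, 0 ≤ ψ q * dens γ (ψ q) q := fun q => mul_nonneg (h0 q) (hdens0 _ _)
  have hpos : ∀ q, 0 < ψ q * dens γ (ψ q) q → 0 < ψ q := by
    intro q hq
    rcases (h0 q).lt_or_eq with h | h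
    · exact h
    · rw [← h, zero_mul] at hq
      exact absurd hq (lt_irrefl _)
  have hw1 : ∀ q : ℕ, 1 ≤ q → ψ q * dens γ (ψ q) q ≤ 1 := by
    intro q hq
    have hq' : (1 : ℝ) ≤ q := by exact_mod_cast hq
    have h1 : ψ q ≤ 1 := by
      have := hL q hq
      nlinarith [h0 q]
    calc ψ q * dens γ (ψ q) q ≤ 1 * 1 :=
          mul_le_mul h1 (dens_le_one γ (ψ q) q) (hdens0 _ _) zero_le_one
      _ = 1 := by norm_num
  obtain ⟨K, hK, hK'⟩ := block_second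
  refine ae_of_blocks_w γ ψ (fun q => ψ q * dens γ (ψ q) q) hw0 hw1 hdiv (EE γ ψ)
    (isOpen_EE γ ψ) (EE_subset γ ψ) 1 K one_pos hK ?_ ?_
  · intro N hN
    obtain ⟨q₁, hq₁⟩ := cell_dens γ ψ hL (fun q hq => (hsupp q hq).2) N hN
    exact ⟨q₁, fun q hq hwq n hn => hq₁ q hq (hpos q hwq) n hn⟩
  · refine ⟨2, fun B hB _ hm2 => ?_⟩
    have hBad : ∀ q ∈ B, BadOK γ ψ q := fun q hq => (hsupp q (hpos q (hB q hq).2)).1
    have hBOK : BlockOK ψ B := by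
      refine ⟨fun q hq => (hB q hq).1, fun q hq => (hBad q hq).pos, fun q hq => (hBad q hq).le⟩
    exact hK' γ ψ B hBOK hBad hm2

end Vale.Agent.Lib.P028F
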