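import Vale.Agent.Lib.P028F.Defs

/-! Rarity of large profiles. -/

open MeasureTheory Set Filter Topology
open Vale.Agent.Lib.P028 Vale.Agent.Lib.P028E

namespace Vale.Agent.Lib.P028F

/-- `exp (u / 2) ≤ 1 + u` on `[0, 1]`. -/
private lemma exp_half_le (u : ℝ) (h0 : 0 ≤ u) (h1 : u ≤ 1) : Real.exp (u / 2) ≤ 1 + u := by
  have h2 : 1 - u / 2 ≤ Real.exp (-(u / 2)) := by
    have := Real.add_one_le_exp (-(u / 2))
    linarith
  have h3 : 0 < 1 - u / 2 := by linarith
  have h4 : Real.exp (u / 2) * Real.exp (-(u / 2)) = 1 := by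
    rw [← Real.exp_add]; simp
  have h5 : Real.exp (u / 2) * (1 - u / 2) ≤ 1 := by
    calc Real.exp (u / 2) * (1 - u / 2) ≤ Real.exp (u / 2) * Real.exp (-(u / 2)) :=
          mul_le_mul_of_nonneg_left h2 (Real.exp_pos _).le
      _ = 1 := h4
  have h6 : 1 ≤ (1 + u) * (1 - u / 2) := by nlinarith
  by_contra hcon
  push Not at hcon
  have h7 : (1 + u) * (1 - u / 2) < Real.exp (u / 2) * (1 - u / 2) :=
    mul_lt_mul_of_pos_right hcon h3
  linarith

open scoped Classical in
/-- The moment generating product summed over a level. -/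
private lemma sum_prod_le (i y : ℕ) (hy : 1 ≤ y) :
    ∑ q ∈ (Finset.Ico (16 ^ i) (16 ^ (i + 1)) : Finset ℕ),
        ∏ p ∈ q.primeFactors.filter (fun p : ℕ => y < p), (1 + (y : ℝ) / (p : ℝ))
      ≤ 31 * Real.exp 2 * pw i := by
  set L := Finset.Ico (16 ^ i) (16 ^ (i + 1)) with hL
  set S : Finset ℕ := (Finset.Ico 2 (16 ^ (i + 1))).filter (fun p : ℕ => p.Prime ∧ y < p) with hS
  have hy0 : (0 : ℝ) < y := by exact_mod_cast hy
  have hQ : 0 < pw i := pw_pos i
  -- expansion of a product
  have hexp : ∀ q ∈ L, ∏ p ∈ q.primeFactors.filter (fun p : ℕ => y < p), (1 + (y : ℝ) / (p : ℝ)) =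
      ∑ T ∈ S.powerset, if T ⊆ q.primeFactors.filter (fun p : ℕ => y < p)
        then ∏ p ∈ T, ((y : ℝ) / (p : ℝ)) else 0 := by
    intro q hq
    rw [Finset.prod_one_add]
    have hsub : q.primeFactors.filter (fun p : ℕ => y < p) ⊆ S := by
      intro p hp
      have hp' := Finset.mem_filter.mp hp
      have hpp := Nat.mem_primeFactors.mp hp'.1
      have hqL := Finset.mem_Ico.mp hq
      have hqpos : 0 < q := lt_of_lt_of_le (by positivity) hqL.1
      have hple : p ≤ q := Nat.le_of_dvd hqpos hpp.2.1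
      refine Finset.mem_filter.mpr ⟨Finset.mem_Ico.mpr ⟨hpp.1.two_le, by omega⟩, hpp.1, hp'.2⟩
    rw [← Finset.sum_filter]
    apply Finset.sum_congr _ (fun _ _ => rfl)
    ext T
    simp only [Finset.mem_powerset, Finset.mem_filter]
    constructor
    · intro h; exact ⟨h.trans hsub, h⟩
    · intro h; exact h.2
  -- count for a fixed T
  have hcount : ∀ T ∈ S.powerset,
      ((L.filter fun q => T ⊆ q.primeFactors.filter (fun p : ℕ => y < p)).card : ℝ) ≤
        31 * pw i / ((∏ p ∈ T, p : ℕ) : ℝ) := by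
    intro T hT
    have hTS := Finset.mem_powerset.mp hT
    set e : ℕ := ∏ p ∈ T, p with he
    have hprime : ∀ p ∈ T, Nat.Prime p := fun p hp => (Finset.mem_filter.mp (hTS hp)).2.1
    have hepos : 0 < e := Finset.prod_pos (fun p hp => (hprime p hp).pos)
    have hsub : (L.filter fun q => T ⊆ q.primeFactors.filter (fun p : ℕ => y < p)) ⊆
        L.filter fun q => e ∣ q := by
      intro q hq
      have hq' := Finset.mem_filter.mp hq
      refine Finset.mem_filter.mpr ⟨hq'.1, ?_⟩
      apply Finset.prod_primes_dvd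
      · intro p hp; exact (hprime p hp).prime
      · intro p hp
        have := (Finset.mem_filter.mp (hq'.2 hp)).1
        exact (Nat.mem_primeFactors.mp this).2.1
    have hc := Finset.card_le_card hsub
    have hc' : ((L.filter fun q => T ⊆ q.primeFactors.filter (fun p : ℕ => y < p)).card : ℝ) ≤
        ((L.filter fun q => e ∣ q).card : ℝ) := by exact_mod_cast hc
    refine le_trans hc' ?_
    by_cases hlt : e < 16 ^ (i + 1)
    · exact card_multiples_level i e hepos hlt
    · have hemp : (L.filter fun q => e ∣ q) = ∅ := by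
        apply Finset.filter_eq_empty_iff.mpr
        intro q hq hd
        have hqL := Finset.mem_Ico.mp hq
        have hqpos : 0 < q := lt_of_lt_of_le (by positivity) hqL.1
        have := Nat.le_of_dvd hqpos hd
        omega
      rw [hemp]
      simp only [Finset.card_empty, Nat.cast_zero]
      positivity
  -- main computation
  have hf0 : ∀ T : Finset ℕ, 0 ≤ ∏ p ∈ T, ((y : ℝ) / (p : ℝ)) :=
    fun T => Finset.prod_nonneg (fun p _ => by positivity)
  calc ∑ q ∈ L, ∏ p ∈ q.primeFactors.filter (fun p : ℕ => y < p), (1 + (y : ℝ) / (p : ℝ))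
      = ∑ q ∈ L, ∑ T ∈ S.powerset, if T ⊆ q.primeFactors.filter (fun p : ℕ => y < p)
          then ∏ p ∈ T, ((y : ℝ) / (p : ℝ)) else 0 := Finset.sum_congr rfl hexp
    _ = ∑ T ∈ S.powerset, ∑ q ∈ L, if T ⊆ q.primeFactors.filter (fun p : ℕ => y < p)
          then ∏ p ∈ T, ((y : ℝ) / (p : ℝ)) else 0 := Finset.sum_comm
    _ = ∑ T ∈ S.powerset, ((L.filter fun q => T ⊆ q.primeFactors.filter (fun p : ℕ => y < p)).card : ℝ)
          * ∏ p ∈ T, ((y : ℝ) / (p : ℝ)) := by
        apply Finset.sum_congr rfl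
        intro T _
        rw [← Finset.sum_filter, Finset.sum_const, nsmul_eq_mul]
    _ ≤ ∑ T ∈ S.powerset, (31 * pw i / ((∏ p ∈ T, p : ℕ) : ℝ)) * ∏ p ∈ T, ((y : ℝ) / (p : ℝ)) :=
        Finset.sum_le_sum (fun T hT => mul_le_mul_of_nonneg_right (hcount T hT) (hf0 T))
    _ = ∑ T ∈ S.powerset, (31 * pw i) * ∏ p ∈ T, ((y : ℝ) * (1 / (p : ℝ)) ^ 2) := by
        apply Finset.sum_congr rfl
        intro T _
        rw [div_mul_eq_mul_div, mul_div_assoc]
        congr 1
        push_cast
        rw [← Finset.prod_div_distrib]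
        apply Finset.prod_congr rfl
        intro p _
        by_cases hp0 : (p : ℝ) = 0
        · simp [hp0]
        · field_simp
    _ = (31 * pw i) * ∏ p ∈ S, (1 + (y : ℝ) * (1 / (p : ℝ)) ^ 2) := by
        rw [← Finset.mul_sum, Finset.prod_one_add]
    _ ≤ (31 * pw i) * Real.exp 2 := by
        apply mul_le_mul_of_nonneg_left _ (by positivity)
        have h1 : ∏ p ∈ S, (1 + (y : ℝ) * (1 / (p : ℝ)) ^ 2) ≤
            ∏ p ∈ S, Real.exp ((y : ℝ) * (1 / (p : ℝ)) ^ 2) := by
          apply Finset.prod_le_prod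
          · intro p _; positivity
          · intro p _
            have := Real.add_one_le_exp ((y : ℝ) * (1 / (p : ℝ)) ^ 2)
            linarith
        refine le_trans h1 ?_
        rw [← Real.exp_sum]
        apply Real.exp_le_exp.mpr
        rw [← Finset.mul_sum]
        have h2 := sum_inv_sq_le_of_ge S (y : ℝ) hy0 (fun p hp => by
          have := (Finset.mem_filter.mp hp).2.2
          exact_mod_cast this.le)
        calc (y : ℝ) * ∑ p ∈ S, (1 / (p : ℝ)) ^ 2 ≤ (y : ℝ) * (2 / y) :=
              mul_le_mul_of_nonneg_left h2 hy0.le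
          _ = 2 := by field_simp
    _ = 31 * Real.exp 2 * pw i := by ring

open scoped Classical in
/-- Chernoff bound for the tail sum over the level `i`. -/
theorem chernoff (i y : ℕ) (hy : 1 ≤ y) :
    (((Finset.Ico (16 ^ i) (16 ^ (i + 1))).filter (fun q => 66 < tailsum q y)).card : ℝ)
        * Real.exp (33 * y) ≤ 31 * Real.exp 2 * pw i := by
  set L := Finset.Ico (16 ^ i) (16 ^ (i + 1)) with hL
  have hy0 : (0 : ℝ) < y := by exact_mod_cast hy
  have hPos : ∀ q : ℕ, 0 ≤ ∏ p ∈ q.primeFactors.filter (fun p : ℕ => y < p),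
      (1 + (y : ℝ) / (p : ℝ)) := fun q => Finset.prod_nonneg (fun p _ => by positivity)
  have hbig : ∀ q ∈ L.filter (fun q => 66 < tailsum q y), Real.exp (33 * y) ≤
      ∏ p ∈ q.primeFactors.filter (fun p : ℕ => y < p), (1 + (y : ℝ) / (p : ℝ)) := by
    intro q hq
    have hq' := (Finset.mem_filter.mp hq).2
    have h1 : ∏ p ∈ q.primeFactors.filter (fun p : ℕ => y < p), Real.exp (((y : ℝ) / (p : ℝ)) / 2) ≤
        ∏ p ∈ q.primeFactors.filter (fun p : ℕ => y < p), (1 + (y : ℝ) / (p : ℝ)) := by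
      apply Finset.prod_le_prod
      · intro p _; exact (Real.exp_pos _).le
      · intro p hp
        have hyp : y < p := (Finset.mem_filter.mp hp).2
        have hp0 : (0 : ℝ) < p := by
          have : 0 < p := by omega
          exact_mod_cast this
        apply exp_half_le _ (by positivity)
        rw [div_le_one hp0]
        exact_mod_cast hyp.le
    refine le_trans ?_ h1
    rw [← Real.exp_sum]
    apply Real.exp_le_exp.mpr
    have h2 : ∑ p ∈ q.primeFactors.filter (fun p : ℕ => y < p), (((y : ℝ) / (p : ℝ)) / 2) =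
        (y / 2) * tailsum q y := by
      unfold tailsum
      rw [Finset.mul_sum]
      apply Finset.sum_congr rfl
      intro p _
      ring
    rw [h2]
    nlinarith
  calc ((L.filter (fun q => 66 < tailsum q y)).card : ℝ) * Real.exp (33 * y)
      = ∑ _q ∈ L.filter (fun q => 66 < tailsum q y), Real.exp (33 * y) := by simp
    _ ≤ ∑ q ∈ L.filter (fun q => 66 < tailsum q y),
        ∏ p ∈ q.primeFactors.filter (fun p : ℕ => y < p), (1 + (y : ℝ) / (p : ℝ)) :=
        Finset.sum_le_sum hbig
    _ ≤ ∑ q ∈ L, ∏ p ∈ q.primeFactors.filter (fun p : ℕ => y < p), (1 + (y : ℝ) / (p : ℝ)) :=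
        Finset.sum_le_sum_of_subset_of_nonneg (Finset.filter_subset _ _)
          (fun q _ _ => hPos q)
    _ ≤ 31 * Real.exp 2 * pw i := sum_prod_le i y hy

open scoped Classical in
/-- Rarity of a given profile. -/
theorem class_cap (i y : ℕ) (hy : 1 ≤ y) :
    (((Finset.Ico (16 ^ i) (16 ^ (i + 1))).filter (fun q => yc q = y)).card : ℝ)
      ≤ 240 * pw i * (1 / 2 : ℝ) ^ (33 * (y - 1)) := by
  have hQ : 0 < pw i := pw_pos i
  rcases Nat.lt_or_ge y 2 with h1 | h2
  · have hy1 : y = 1 := by omega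
    subst hy1
    have hc : (((Finset.Ico (16 ^ i) (16 ^ (i + 1))).filter (fun q => yc q = 1)).card : ℝ) ≤
        ((Finset.Ico (16 ^ i) (16 ^ (i + 1))).card : ℝ) := by
      exact_mod_cast Finset.card_filter_le _ _
    refine le_trans hc ?_
    rw [Nat.card_Ico]
    have h3 : 16 ^ i ≤ 16 ^ (i + 1) := Nat.pow_le_pow_right (by norm_num) (by omega)
    rw [Nat.cast_sub h3]
    push_cast
    simp only [pow_zero, mul_one]
    unfold pw
    rw [pow_succ]
    have : (0 : ℝ) < 16 ^ i := by positivity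
    linarith
  · have hsub : (Finset.Ico (16 ^ i) (16 ^ (i + 1))).filter (fun q => yc q = y) ⊆
        (Finset.Ico (16 ^ i) (16 ^ (i + 1))).filter (fun q => 66 < tailsum q (y - 1)) := by
      intro q hq
      have hq' := Finset.mem_filter.mp hq
      refine Finset.mem_filter.mpr ⟨hq'.1, ?_⟩
      have := tailsum_prev q (by omega)
      rwa [hq'.2] at this
    have hc : (((Finset.Ico (16 ^ i) (16 ^ (i + 1))).filter (fun q => yc q = y)).card : ℝ) ≤
        (((Finset.Ico (16 ^ i) (16 ^ (i + 1))).filter (fun q => 66 < tailsum q (y - 1))).card : ℝ) := by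
      exact_mod_cast Finset.card_le_card hsub
    have hch := chernoff i (y - 1) (by omega)
    set m := y - 1 with hm
    have hexp : ((1 / 2 : ℝ) ^ (33 * m)) * Real.exp (33 * (m : ℝ)) ≥ 1 := by
      have h2e : (2 : ℝ) ≤ Real.exp 1 := by
        have := Real.add_one_le_exp (1 : ℝ)
        linarith
      have : Real.exp (33 * (m : ℝ)) = (Real.exp 1) ^ (33 * m) := by
        rw [← Real.exp_nat_mul]
        push_cast
        ring_nf
      rw [this, ← mul_pow]
      apply one_le_pow₀
      linarith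
    have h31 : 31 * Real.exp 2 ≤ 240 := by
      have h1 : Real.exp 2 = Real.exp 1 * Real.exp 1 := by
        rw [← Real.exp_add]; norm_num
      have h2 : Real.exp 1 < 2.7182818286 := Real.exp_one_lt_d9
      have h3 : 0 < Real.exp 1 := Real.exp_pos 1
      rw [h1]
      nlinarith
    have hpow : (0 : ℝ) < (1 / 2 : ℝ) ^ (33 * m) := by positivity
    have hEp : 0 < Real.exp (33 * (m : ℝ)) := Real.exp_pos _
    set N := (((Finset.Ico (16 ^ i) (16 ^ (i + 1))).filter (fun q => 66 < tailsum q m)).card : ℝ)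
      with hN
    have hN0 : 0 ≤ N := by positivity
    have key : N ≤ N * (Real.exp (33 * (m : ℝ)) * (1 / 2 : ℝ) ^ (33 * m)) := by
      apply le_mul_of_one_le_right hN0
      linarith [hexp, mul_comm ((1 / 2 : ℝ) ^ (33 * m)) (Real.exp (33 * (m : ℝ)))]
    calc _ ≤ N := hc
      _ ≤ N * (Real.exp (33 * (m : ℝ)) * (1 / 2 : ℝ) ^ (33 * m)) := key
      _ = (N * Real.exp (33 * (m : ℝ))) * (1 / 2 : ℝ) ^ (33 * m) := by ring
      _ ≤ (31 * Real.exp 2 * pw i) * (1 / 2 : ℝ) ^ (33 * m) :=
          mul_le_mul_of_nonneg_right hch hpow.le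
      _ ≤ (240 * pw i) * (1 / 2 : ℝ) ^ (33 * m) := by
          apply mul_le_mul_of_nonneg_right _ hpow.le
          nlinarith

end Vale.Agent.Lib.P028F
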