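import Vale.Agent.Lib.P028F.Kernel

/-! The arithmetic condition for the kernel. -/

open MeasureTheory Set Filter Topology
open Vale.Agent.Lib.P028 Vale.Agent.Lib.P028E

namespace Vale.Agent.Lib.P028F

/-- The seventh power of the weight. -/
private lemma Wt_seven (C₁ : ℝ) (i l₁ y₁ j l₂ y₂ : ℕ) :
    (Wt C₁ (i, l₁, y₁) (j, l₂, y₂)) ^ 7 =
      C₁ ^ 7 * (1 / 2 : ℝ) ^ (l₁ + l₂ + (j - i)) * (1 / ((2 : ℝ) ^ y₁ * (2 : ℝ) ^ y₂)) ^ 7 := by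
  unfold Wt
  simp only
  have h1 : (w₀ ^ (l₁ + l₂ + (j - i))) ^ 7 = (1 / 2 : ℝ) ^ (l₁ + l₂ + (j - i)) := by
    rw [← pow_mul, mul_comm, pow_mul, w₀_pow]
  have h2 : (1 / 2 : ℝ) ^ (y₁ + y₂) = 1 / ((2 : ℝ) ^ y₁ * (2 : ℝ) ^ y₂) := by
    rw [one_div_pow, pow_add]
  rw [mul_pow, mul_pow, h1, h2]

/-- Reduction of the power of `1/2` in the class cap. -/
private lemma half_pow_33 (y : ℕ) (hy : 1 ≤ y) :
    (1 / 2 : ℝ) ^ (33 * (y - 1)) = 2 ^ 33 / ((2 : ℝ) ^ y) ^ 33 := by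
  obtain ⟨z, rfl⟩ : ∃ z, y = z + 1 := ⟨y - 1, by omega⟩
  have : z + 1 - 1 = z := by omega
  rw [this, pow_mul, ← pow_mul (2 : ℝ) (z + 1), mul_comm (z + 1) 33, pow_mul (2 : ℝ) 33 (z + 1),
    pow_succ ((2 : ℝ) ^ 33) z]
  have h : ((1 / 2 : ℝ) ^ 33) ^ z = 1 / ((2 : ℝ) ^ 33) ^ z := by
    rw [one_div, inv_pow, inv_pow, one_div]
  rw [h]
  have h3 : ((2 : ℝ) ^ 33) ^ z ≠ 0 := by positivity
  have h4 : ((2 : ℝ) ^ 33) ≠ 0 := by positivity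
  field_simp

/-- The common numerical step. All quantities are abstract: `X = 2^y₁`, `Y = 2^y₂`. -/
private lemma final_step {K0 C₁ cA E X Y : ℝ} {a b c d : ℕ} (hC₁ : 1 ≤ C₁)
    (hcA : 0 < cA) (hE : 0 ≤ E) (hX : 0 < X) (hY : 0 < Y) (hKC : K0 ≤ C₁ * cA ^ 7)
    (hexp : K0 * (X ^ 6 * Y ^ 6) * (X ^ (7 + a) * Y ^ (7 + b))
      ≤ K0 * (X ^ c * Y ^ d)) :
    K0 * (X ^ 6 * Y ^ 6) * E / (X ^ c * Y ^ d)
      ≤ C₁ ^ 7 * E * (1 / (X * Y)) ^ 7 * cA ^ 7 / (X ^ a * Y ^ b) := by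
  have hC7 : C₁ ≤ C₁ ^ 7 := by
    calc C₁ = C₁ ^ 1 := (pow_one _).symm
      _ ≤ C₁ ^ 7 := pow_le_pow_right₀ hC₁ (by norm_num)
  have hKC' : K0 ≤ C₁ ^ 7 * cA ^ 7 := hKC.trans (mul_le_mul_of_nonneg_right hC7 (by positivity))
  have hpos1 : 0 < X ^ c * Y ^ d := by positivity
  have hpos2 : 0 < X ^ a * Y ^ b := by positivity
  have e1 : C₁ ^ 7 * E * (1 / (X * Y)) ^ 7 * cA ^ 7 / (X ^ a * Y ^ b)
      = (C₁ ^ 7 * cA ^ 7) * E / (X ^ (7 + a) * Y ^ (7 + b)) := by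
    rw [pow_add, pow_add, one_div, inv_pow, mul_pow]
    field_simp
  rw [e1, div_le_div_iff₀ hpos1 (by positivity)]
  have hstep : K0 * (X ^ 6 * Y ^ 6) * (X ^ (7 + a) * Y ^ (7 + b)) ≤ (C₁ ^ 7 * cA ^ 7) * (X ^ c * Y ^ d) :=
    hexp.trans (mul_le_mul_of_nonneg_right hKC' hpos1.le)
  calc K0 * (X ^ 6 * Y ^ 6) * E * (X ^ (7 + a) * Y ^ (7 + b))
      = (K0 * (X ^ 6 * Y ^ 6) * (X ^ (7 + a) * Y ^ (7 + b))) * E := by ring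
    _ ≤ ((C₁ ^ 7 * cA ^ 7) * (X ^ c * Y ^ d)) * E := mul_le_mul_of_nonneg_right hstep hE
    _ = C₁ ^ 7 * cA ^ 7 * E * (X ^ c * Y ^ d) := by ring

/-- The arithmetic condition of `kernel_alg`, for the classes `a = (i, l₁, y₁)`, `b = (j, l₂, y₂)`.
Here `S, T` are the masses of the classes, with the bounds from `class_cap`. -/
theorem kernel_cond (C₂ C₁ : ℝ) (hC₂ : 0 < C₂) (hC₁ : 1 ≤ C₁)
    (hC : C₂ * 786432 ^ 3 * 240 * 2 ^ 33 / cA ^ 7 ≤ C₁) (i l₁ y₁ j l₂ y₂ : ℕ)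
    (hy₁ : 1 ≤ y₁) (hy₂ : 1 ≤ y₂) (S T : ℝ) (hS0 : 0 ≤ S) (hT0 : 0 ≤ T)
    (hS : S ≤ 240 * lam l₁ * (1 / 2 : ℝ) ^ (33 * (y₁ - 1)))
    (hT : T ≤ 240 * lam l₂ * (1 / 2 : ℝ) ^ (33 * (y₂ - 1))) :
    (C₂ * (lam l₁ ^ 2 * lam l₂ ^ 4)
        * (786432 * (4 : ℝ) ^ (y₁ + y₂) * kap i l₁ j l₂ / (lam l₁ * lam l₂)) ^ 3 * S
      ≤ (Wt C₁ (i, l₁, y₁) (j, l₂, y₂)) ^ 7 * (cA / y₁) ^ 4 * (cA / y₂) ^ 3) ∨
    (C₂ * (lam l₁ ^ 2 * lam l₂ ^ 4)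
        * (786432 * (4 : ℝ) ^ (y₁ + y₂) * kap i l₁ j l₂ / (lam l₁ * lam l₂)) ^ 3 * T
      ≤ 16 * (Wt C₁ (i, l₁, y₁) (j, l₂, y₂)) ^ 7 * (cA / y₁) ^ 5 * (cA / y₂) ^ 2) := by
  have hcA : 0 < cA := cA_pos
  set A1 := lam l₁ with hA1
  set A2 := lam l₂ with hA2
  have A1pos : 0 < A1 := lam_pos _
  have A2pos : 0 < A2 := lam_pos _
  set κ := kap i l₁ j l₂ with hκ
  have κpos : 0 < κ := kap_pos _ _ _ _
  set E : ℝ := (1 / 2 : ℝ) ^ (l₁ + l₂ + (j - i)) with hE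
  have Epos : 0 < E := by positivity
  set X : ℝ := (2 : ℝ) ^ y₁ with hX
  set Y : ℝ := (2 : ℝ) ^ y₂ with hY
  have Xpos : 0 < X := by positivity
  have Ypos : 0 < Y := by positivity
  have hy₁pos : (0 : ℝ) < y₁ := by exact_mod_cast hy₁
  have hy₂pos : (0 : ℝ) < y₂ := by exact_mod_cast hy₂
  have hy₁X : (y₁ : ℝ) ≤ X := nat_le_two_pow y₁
  have hy₂Y : (y₂ : ℝ) ≤ Y := nat_le_two_pow y₂
  set K0 : ℝ := C₂ * 786432 ^ 3 * 240 * 2 ^ 33 with hK0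
  have K0pos : 0 < K0 := by positivity
  have hKC : K0 ≤ C₁ * cA ^ 7 := by
    have := hC
    rwa [div_le_iff₀ (by positivity)] at this
  have hF : (4 : ℝ) ^ (y₁ + y₂) = X ^ 2 * Y ^ 2 := by
    have h4 : ∀ y : ℕ, (4 : ℝ) ^ y = ((2 : ℝ) ^ y) ^ 2 := by
      intro y
      rw [← pow_mul, mul_comm, pow_mul]; norm_num
    rw [pow_add, h4, h4]
  have hW : (Wt C₁ (i, l₁, y₁) (j, l₂, y₂)) ^ 7 = C₁ ^ 7 * E * (1 / (X * Y)) ^ 7 :=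
    Wt_seven C₁ i l₁ y₁ j l₂ y₂
  have hXpow : (1 / 2 : ℝ) ^ (33 * (y₁ - 1)) = 2 ^ 33 / X ^ 33 := half_pow_33 y₁ hy₁
  have hYpow : (1 / 2 : ℝ) ^ (33 * (y₂ - 1)) = 2 ^ 33 / Y ^ 33 := half_pow_33 y₂ hy₂
  rcases le_total y₂ y₁ with hyy | hyy
  · -- first alternative
    left
    have hYX : Y ≤ X := pow_le_pow_right₀ (by norm_num) hyy
    have hcube := kap_cube_one i l₁ j l₂
    rw [← hA2, ← hκ, ← hE] at hcube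
    have hSA : S / A1 ≤ 240 * (2 ^ 33 / X ^ 33) := by
      rw [div_le_iff₀ A1pos]
      calc S ≤ 240 * A1 * (1 / 2 : ℝ) ^ (33 * (y₁ - 1)) := hS
        _ = 240 * (2 ^ 33 / X ^ 33) * A1 := by rw [hXpow]; ring
    have hL : C₂ * (A1 ^ 2 * A2 ^ 4)
        * (786432 * (4 : ℝ) ^ (y₁ + y₂) * κ / (A1 * A2)) ^ 3 * S
        = C₂ * 786432 ^ 3 * (X ^ 6 * Y ^ 6) * (A2 * κ ^ 3) * (S / A1) := by
      rw [hF]; field_simp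
    have hL2 : C₂ * 786432 ^ 3 * (X ^ 6 * Y ^ 6) * (A2 * κ ^ 3) * (S / A1)
        ≤ K0 * (X ^ 6 * Y ^ 6) * E / (X ^ 33 * Y ^ 0) := by
      have h1 : C₂ * 786432 ^ 3 * (X ^ 6 * Y ^ 6) * (A2 * κ ^ 3) * (S / A1)
          ≤ C₂ * 786432 ^ 3 * (X ^ 6 * Y ^ 6) * E * (240 * (2 ^ 33 / X ^ 33)) := by
        apply mul_le_mul (mul_le_mul_of_nonneg_left hcube (by positivity)) hSA
          (div_nonneg hS0 A1pos.le) (by positivity)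
      refine h1.trans (le_of_eq ?_)
      rw [hK0]; field_simp
    have hR : C₁ ^ 7 * E * (1 / (X * Y)) ^ 7 * cA ^ 7 / (X ^ 4 * Y ^ 3)
        ≤ (Wt C₁ (i, l₁, y₁) (j, l₂, y₂)) ^ 7 * (cA / y₁) ^ 4 * (cA / y₂) ^ 3 := by
      have e : (Wt C₁ (i, l₁, y₁) (j, l₂, y₂)) ^ 7 * (cA / y₁) ^ 4 * (cA / y₂) ^ 3
          = C₁ ^ 7 * E * (1 / (X * Y)) ^ 7 * cA ^ 7 / ((y₁ : ℝ) ^ 4 * (y₂ : ℝ) ^ 3) := by
        rw [hW]; field_simp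
      rw [e]
      apply div_le_div_of_nonneg_left (by positivity) (by positivity)
      exact mul_le_mul (pow_le_pow_left₀ hy₁pos.le hy₁X 4) (pow_le_pow_left₀ hy₂pos.le hy₂Y 3)
        (by positivity) (by positivity)
    have hfin : K0 * (X ^ 6 * Y ^ 6) * E / (X ^ 33 * Y ^ 0)
        ≤ C₁ ^ 7 * E * (1 / (X * Y)) ^ 7 * cA ^ 7 / (X ^ 4 * Y ^ 3) := by
      apply final_step (a := 4) (b := 3) (c := 33) (d := 0) hC₁ hcA Epos.le Xpos Ypos hKC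
      have : Y ^ 16 ≤ X ^ 16 := pow_le_pow_left₀ Ypos.le hYX 16
      have h2 : K0 * (X ^ 6 * Y ^ 6) * (X ^ (7 + 4) * Y ^ (7 + 3)) = K0 * X ^ 17 * Y ^ 16 := by ring
      have h3 : K0 * (X ^ 33 * Y ^ 0) = K0 * X ^ 17 * X ^ 16 := by ring
      rw [h2, h3]
      exact mul_le_mul_of_nonneg_left this (by positivity)
    rw [hL]
    exact hL2.trans (hfin.trans hR)
  · right
    have hXY : X ≤ Y := pow_le_pow_right₀ (by norm_num) hyy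
    have hcube := kap_cube_two i l₁ j l₂
    rw [← hA1, ← hA2, ← hκ, ← hE] at hcube
    have hTA : T / A2 ≤ 240 * (2 ^ 33 / Y ^ 33) := by
      rw [div_le_iff₀ A2pos]
      calc T ≤ 240 * A2 * (1 / 2 : ℝ) ^ (33 * (y₂ - 1)) := hT
        _ = 240 * (2 ^ 33 / Y ^ 33) * A2 := by rw [hYpow]; ring
    have hL : C₂ * (A1 ^ 2 * A2 ^ 4)
        * (786432 * (4 : ℝ) ^ (y₁ + y₂) * κ / (A1 * A2)) ^ 3 * T
        = C₂ * 786432 ^ 3 * (X ^ 6 * Y ^ 6) * (A2 ^ 2 * κ ^ 3 / A1) * (T / A2) := by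
      rw [hF]; field_simp
    have hL2 : C₂ * 786432 ^ 3 * (X ^ 6 * Y ^ 6) * (A2 ^ 2 * κ ^ 3 / A1) * (T / A2)
        ≤ K0 * (X ^ 6 * Y ^ 6) * E / (X ^ 0 * Y ^ 33) := by
      have h1 : C₂ * 786432 ^ 3 * (X ^ 6 * Y ^ 6) * (A2 ^ 2 * κ ^ 3 / A1) * (T / A2)
          ≤ C₂ * 786432 ^ 3 * (X ^ 6 * Y ^ 6) * E * (240 * (2 ^ 33 / Y ^ 33)) := by
        apply mul_le_mul (mul_le_mul_of_nonneg_left hcube (by positivity)) hTA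
          (div_nonneg hT0 A2pos.le) (by positivity)
      refine h1.trans (le_of_eq ?_)
      rw [hK0]; field_simp
    have hR : C₁ ^ 7 * E * (1 / (X * Y)) ^ 7 * cA ^ 7 / (X ^ 5 * Y ^ 2)
        ≤ 16 * (Wt C₁ (i, l₁, y₁) (j, l₂, y₂)) ^ 7 * (cA / y₁) ^ 5 * (cA / y₂) ^ 2 := by
      have e : 16 * (Wt C₁ (i, l₁, y₁) (j, l₂, y₂)) ^ 7 * (cA / y₁) ^ 5 * (cA / y₂) ^ 2
          = 16 * (C₁ ^ 7 * E * (1 / (X * Y)) ^ 7 * cA ^ 7 / ((y₁ : ℝ) ^ 5 * (y₂ : ℝ) ^ 2)) := by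
        rw [hW]; field_simp
      rw [e]
      have h5 : C₁ ^ 7 * E * (1 / (X * Y)) ^ 7 * cA ^ 7 / (X ^ 5 * Y ^ 2)
          ≤ C₁ ^ 7 * E * (1 / (X * Y)) ^ 7 * cA ^ 7 / ((y₁ : ℝ) ^ 5 * (y₂ : ℝ) ^ 2) := by
        apply div_le_div_of_nonneg_left (by positivity) (by positivity)
        exact mul_le_mul (pow_le_pow_left₀ hy₁pos.le hy₁X 5) (pow_le_pow_left₀ hy₂pos.le hy₂Y 2)
          (by positivity) (by positivity)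
      have h6 : 0 ≤ C₁ ^ 7 * E * (1 / (X * Y)) ^ 7 * cA ^ 7 / ((y₁ : ℝ) ^ 5 * (y₂ : ℝ) ^ 2) := by
        positivity
      linarith
    have hfin : K0 * (X ^ 6 * Y ^ 6) * E / (X ^ 0 * Y ^ 33)
        ≤ C₁ ^ 7 * E * (1 / (X * Y)) ^ 7 * cA ^ 7 / (X ^ 5 * Y ^ 2) := by
      apply final_step (a := 5) (b := 2) (c := 0) (d := 33) hC₁ hcA Epos.le Xpos Ypos hKC
      have : X ^ 18 ≤ Y ^ 18 := pow_le_pow_left₀ Xpos.le hXY 18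
      have h2 : K0 * (X ^ 6 * Y ^ 6) * (X ^ (7 + 5) * Y ^ (7 + 2)) = K0 * Y ^ 15 * X ^ 18 := by ring
      have h3 : K0 * (X ^ 0 * Y ^ 33) = K0 * Y ^ 15 * Y ^ 18 := by ring
      rw [h2, h3]
      exact mul_le_mul_of_nonneg_left this (by positivity)
    rw [hL]
    exact hL2.trans (hfin.trans hR)

end Vale.Agent.Lib.P028F
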