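import Vale.Agent.Lib.P028F.ClassSplit
import Vale.Agent.Lib.P028F.KernelCond

/-! One pair of classes: the kernel bound. -/

open MeasureTheory Set Filter Topology
open Vale.Agent.Lib.P028 Vale.Agent.Lib.P028E

namespace Vale.Agent.Lib.P028F

/-- The bound for a pair of classes. `C₁` is any constant above the threshold of `kernel_cond`
with `C₂ = 61812 ^ 4 * 65536 * Cm`. The density weights are `cA / y`. Both classes are nonempty. -/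
theorem class_bound (Cm : ℝ) (hCm : ∀ (i : ℕ) (D : ℝ), 0 < D →
      (∑ q ∈ Finset.Ico (16 ^ i) (16 ^ (i + 1)), (gD D q) ^ 2) ^ 2 * D ^ 3 ≤ Cm * (pw i) ^ 2)
    (hCm0 : 0 < Cm) (C₁ : ℝ) (hC₁ : 1 ≤ C₁)
    (hC : (61812 ^ 4 * 65536 * Cm) * 786432 ^ 3 * 240 * 2 ^ 33 / cA ^ 7 ≤ C₁)
    (γ : ℝ) (ψ : ℕ → ℝ) (B : Finset ℕ) (hB : BlockOK ψ B) (hBad : ∀ q ∈ B, BadOK γ ψ q)
    (a b : ℕ × ℕ × ℕ) (hij : a.1 ≤ b.1) (ha : (Xc ψ B a).Nonempty) (hb : (Xc ψ B b).Nonempty) :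
    Tc γ ψ B a b ≤ 2 * Wt C₁ a b *
      ((cA / (a.2.2 : ℝ)) * Sc ψ B a + (cA / (b.2.2 : ℝ)) * Sc ψ B b) := by
  have hmem : ∀ {c : ℕ × ℕ × ℕ} {q : ℕ}, q ∈ Xc ψ B c → q ∈ B := fun hq =>
    (Xc_facts (γ := γ) hB hq).1
  have hpos : ∀ {c : ℕ × ℕ × ℕ}, (Xc ψ B c).Nonempty → 0 < Sc ψ B c := fun hc =>
    Finset.sum_pos (fun q hq => (hBad q (hmem hq)).pos) hc
  have hy : ∀ {c : ℕ × ℕ × ℕ}, (Xc ψ B c).Nonempty → 1 ≤ c.2.2 := by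
    rintro c ⟨q, hq⟩
    have h := (Xc_facts (γ := γ) hB hq).2.2.1
    rw [← h]
    exact yc_pos q
  have hS := hpos ha
  have hT := hpos hb
  have hya := hy ha
  have hyb := hy hb
  have hC₁0 : 0 < C₁ := by linarith
  have hW : 0 < Wt C₁ a b := by
    unfold Wt
    have := w₀_pos
    positivity
  have hρa : 0 < cA / (a.2.2 : ℝ) := by
    have : (0 : ℝ) < (a.2.2 : ℝ) := by exact_mod_cast hya
    exact div_pos cA_pos this
  have hρb : 0 < cA / (b.2.2 : ℝ) := by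
    have : (0 : ℝ) < (b.2.2 : ℝ) := by exact_mod_cast hyb
    exact div_pos cA_pos this
  have hA : 0 < 786432 * (4 : ℝ) ^ (a.2.2 + b.2.2) * kap a.1 a.2.1 b.1 b.2.1
      / (lam a.2.1 * lam b.2.1) := by
    have h1 := kap_pos a.1 a.2.1 b.1 b.2.1
    have h2 := lam_pos a.2.1
    have h3 := lam_pos b.2.1
    positivity
  refine kernel_alg (Tc γ ψ B a b) (Sc ψ B a) (Sc ψ B b)
    (786432 * (4 : ℝ) ^ (a.2.2 + b.2.2) * kap a.1 a.2.1 b.1 b.2.1 / (lam a.2.1 * lam b.2.1))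
    ((61812 ^ 4 * 65536 * Cm) * (lam a.2.1 ^ 2 * lam b.2.1 ^ 4))
    (Wt C₁ a b) (cA / (a.2.2 : ℝ)) (cA / (b.2.2 : ℝ)) hS hT hA hW hρa hρb
    (fun D => 61812 * (lam a.2.1 * lam b.2.1) / pw a.1 * ∑ q ∈ Xc ψ B a, gD D q)
    ?_ ?_ ?_ ?_
  · intro D _
    have h1 := lam_pos a.2.1
    have h2 := lam_pos b.2.1
    have h3 := pw_pos a.1
    have h4 : 0 ≤ ∑ q ∈ Xc ψ B a, gD D q := Finset.sum_nonneg (fun q _ => gD_nonneg D q)
    positivity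
  · intro D hD
    exact class_split γ ψ B hB hBad a b hij D hD
  · intro D hD
    exact large_fourth Cm hCm hCm0 ψ B hB a b D hD
  · have hC₂ : 0 < (61812 ^ 4 * 65536 * Cm : ℝ) := by positivity
    have hS' := Sc_cap ψ B hB a hya
    have hT' := Sc_cap ψ B hB b hyb
    obtain ⟨i, l₁, y₁⟩ := a
    obtain ⟨j, l₂, y₂⟩ := b
    exact kernel_cond (61812 ^ 4 * 65536 * Cm) C₁ hC₂ hC₁ hC i l₁ y₁ j l₂ y₂ hya hyb
      (Sc ψ B (i, l₁, y₁)) (Sc ψ B (j, l₂, y₂)) hS.le hT.le hS' hT'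

end Vale.Agent.Lib.P028F
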