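import Vale.Agent.Lib.P028F.ClassT

/-! One pair of classes: splitting by the size of the gcd. -/

open MeasureTheory Set Filter Topology
open Vale.Agent.Lib.P028 Vale.Agent.Lib.P028E

namespace Vale.Agent.Lib.P028F

/-- Splitting by the size of the gcd. -/
theorem class_split (γ : ℝ) (ψ : ℕ → ℝ) (B : Finset ℕ) (hB : BlockOK ψ B)
    (hBad : ∀ q ∈ B, BadOK γ ψ q) (a b : ℕ × ℕ × ℕ) (hij : a.1 ≤ b.1) (D : ℝ) (hD : 0 < D) :
    Tc γ ψ B a b ≤
      (786432 * (4 : ℝ) ^ (a.2.2 + b.2.2) * kap a.1 a.2.1 b.1 b.2.1 / (lam a.2.1 * lam b.2.1))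
          * D * Sc ψ B a * Sc ψ B b
        + 61812 * (lam a.2.1 * lam b.2.1) / pw a.1 * ∑ q ∈ Xc ψ B a, gD D q := by
  classical
  obtain ⟨i, l₁, y₁⟩ := a
  obtain ⟨j, l₂, y₂⟩ := b
  change i ≤ j at hij
  change Tc γ ψ B (i, l₁, y₁) (j, l₂, y₂) ≤
      (786432 * (4 : ℝ) ^ (y₁ + y₂) * kap i l₁ j l₂ / (lam l₁ * lam l₂))
          * D * Sc ψ B (i, l₁, y₁) * Sc ψ B (j, l₂, y₂)
        + 61812 * (lam l₁ * lam l₂) / pw i * ∑ q ∈ Xc ψ B (i, l₁, y₁), gD D q
  have hc1 : ((Xc ψ B (i, l₁, y₁)).card : ℝ) ≤ 256 * pw i * Sc ψ B (i, l₁, y₁) / lam l₁ :=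
    Xc_card ψ B hB (i, l₁, y₁)
  have hc2 : ((Xc ψ B (j, l₂, y₂)).card : ℝ) ≤ 256 * pw j * Sc ψ B (j, l₂, y₂) / lam l₂ :=
    Xc_card ψ B hB (j, l₂, y₂)
  set X₁ := Xc ψ B (i, l₁, y₁) with hX₁
  set X₂ := Xc ψ B (j, l₂, y₂) with hX₂
  set S₁ := Sc ψ B (i, l₁, y₁) with hS₁
  set S₂ := Sc ψ B (j, l₂, y₂) with hS₂
  have hQ := pw_pos i
  have hR := pw_pos j
  have hA₁ := lam_pos l₁
  have hA₂ := lam_pos l₂
  have hS₁0 : 0 ≤ S₁ := Finset.sum_nonneg
    (fun q hq => (hB.psi_pos q (Finset.mem_filter.mp hq).1).le)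
  have hS₂0 : 0 ≤ S₂ := Finset.sum_nonneg
    (fun q hq => (hB.psi_pos q (Finset.mem_filter.mp hq).1).le)
  set m := min (lam l₁ / pw i ^ 2) (lam l₂ / pw j ^ 2) with hm
  have hm0 : 0 ≤ m := le_min (by positivity) (by positivity)
  have hQRm : pw i * pw j * m = kap i l₁ j l₂ := kap_eq_min i l₁ j l₂ hij
  set T0 : ℝ := (4 : ℝ) ^ (y₁ + y₂) with hT0
  have hT00 : 0 < T0 := by positivity
  have hone : ∀ q ∈ X₁,
      ∑ r ∈ B.filter (fun r => cl3 ψ r = (j, l₂, y₂) ∧ q < r ∧ Near ψ q r), Ovl (EE γ ψ) q r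
      ≤ (X₂.card : ℝ) * (12 * T0 * (D * m)) + 61812 * (lam l₁ * lam l₂) / pw i * gD D q := by
    intro q hq
    obtain ⟨hqB, hqcl, hqy, hqI⟩ := Xc_facts (γ := γ) hB hq
    have h2 := hB.two_le q hqB
    have hq0 : 0 < q := by omega
    have hqcl1 : lev q = i := congrArg Prod.fst hqcl
    have hqcl2 : ell ((q : ℝ) * ψ q) = l₁ := congrArg Prod.snd hqcl
    rw [← Finset.sum_filter_add_sum_filter_not
      (B.filter (fun r => cl3 ψ r = (j, l₂, y₂) ∧ q < r ∧ Near ψ q r))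
      (fun r => D ≤ (Nat.gcd q r : ℝ))]
    -- small gcd
    have hsmall : ∑ r ∈ (B.filter (fun r => cl3 ψ r = (j, l₂, y₂) ∧ q < r ∧ Near ψ q r)).filter
          (fun r => ¬ D ≤ (Nat.gcd q r : ℝ)), Ovl (EE γ ψ) q r
        ≤ (X₂.card : ℝ) * (12 * T0 * (D * m)) := by
      set F := (B.filter (fun r => cl3 ψ r = (j, l₂, y₂) ∧ q < r ∧ Near ψ q r)).filter
          (fun r => ¬ D ≤ (Nat.gcd q r : ℝ)) with hF
      have hFsub : F ⊆ X₂ := by
        intro r hr
        obtain ⟨hr1, -⟩ := Finset.mem_filter.mp hr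
        obtain ⟨hr2, hr3, -, -⟩ := Finset.mem_filter.mp hr1
        exact Finset.mem_filter.mpr ⟨hr2, hr3⟩
      have hpt : ∀ r ∈ F, Ovl (EE γ ψ) q r ≤ 12 * T0 * (D * m) := by
        intro r hr
        obtain ⟨hr1, hr2⟩ := Finset.mem_filter.mp hr
        obtain ⟨hr3, hr4, hr5, hr6⟩ := Finset.mem_filter.mp hr1
        have hrX : r ∈ X₂ := hFsub hr
        obtain ⟨hrB, hrcl, hry, hrI⟩ := Xc_facts (γ := γ) hB hrX
        have h2r := hB.two_le r hrB
        have hr0 : 0 < r := by omega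
        have h1 := near_O γ ψ q r hq0 hr0 (hB.psi_pos q hqB).le (hB.psi_le_half hqB)
          (hB.psi_pos r hrB).le (hB.psi_le_half hrB) hr6
        have hTz : Tz q r = T0 := by
          unfold Tz
          rw [hqy, hry]
        rw [hTz] at h1
        have h2' : (Nat.gcd q r : ℝ) ≤ D := (not_le.mp hr2).le
        have h3 : min (ψ q / q) (ψ r / r) ≤ m := by
          apply min_le_min
          · exact (class_facts hB hqB hqcl).2.1
          · exact (class_facts hB hrB hrcl).2.1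
        have h4 : 0 ≤ min (ψ q / q) (ψ r / r) := by
          have h5 := hB.psi_pos q hqB
          have h6 := hB.psi_pos r hrB
          exact le_min (by positivity) (by positivity)
        have h7 : (Nat.gcd q r : ℝ) * min (ψ q / q) (ψ r / r) ≤ D * m :=
          mul_le_mul h2' h3 h4 hD.le
        have h8 : 12 * T0 * ((Nat.gcd q r : ℝ) * min (ψ q / q) (ψ r / r)) ≤ 12 * T0 * (D * m) :=
          mul_le_mul_of_nonneg_left h7 (by positivity)
        linarith
      have h1 : ∑ r ∈ F, Ovl (EE γ ψ) q r ≤ (F.card : ℝ) * (12 * T0 * (D * m)) := by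
        have := Finset.sum_le_card_nsmul F (fun r => Ovl (EE γ ψ) q r) (12 * T0 * (D * m)) hpt
        simpa [nsmul_eq_mul] using this
      have h2' : (F.card : ℝ) ≤ (X₂.card : ℝ) := by
        exact_mod_cast Finset.card_le_card hFsub
      have h3 : (F.card : ℝ) * (12 * T0 * (D * m)) ≤ (X₂.card : ℝ) * (12 * T0 * (D * m)) :=
        mul_le_mul_of_nonneg_right h2' (by positivity)
      linarith
    -- large gcd
    have hlarge : ∑ r ∈ (B.filter (fun r => cl3 ψ r = (j, l₂, y₂) ∧ q < r ∧ Near ψ q r)).filter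
          (fun r => D ≤ (Nat.gcd q r : ℝ)), Ovl (EE γ ψ) q r
        ≤ 61812 * (lam l₁ * lam l₂) / pw i * gD D q := by
      set G := (B.filter (fun r => cl3 ψ r = (j, l₂, y₂) ∧ q < r ∧ Near ψ q r)).filter
          (fun r => D ≤ (Nat.gcd q r : ℝ)) with hG
      set Dq := (Nat.divisors q).filter (fun d : ℕ => D ≤ (d : ℝ)) with hDq
      have hmaps : ∀ r ∈ G, Nat.gcd q r ∈ Dq := by
        intro r hr
        have hr' := (Finset.mem_filter.mp hr).2
        refine Finset.mem_filter.mpr ⟨?_, hr'⟩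
        exact Nat.mem_divisors.mpr ⟨Nat.gcd_dvd_left q r, by omega⟩
      have hsplit : ∑ r ∈ G, Ovl (EE γ ψ) q r
          = ∑ d ∈ Dq, ∑ r ∈ G.filter (fun r => Nat.gcd q r = d), Ovl (EE γ ψ) q r :=
        (Finset.sum_fiberwise_of_maps_to hmaps _).symm
      have hbound : ∀ d ∈ Dq, ∑ r ∈ G.filter (fun r => Nat.gcd q r = d), Ovl (EE γ ψ) q r
          ≤ 61812 * (lam l₁ * lam l₂) / pw i * (1 / (d : ℝ)) := by
        intro d hd
        have hd0 : 0 < d := Nat.pos_of_mem_divisors (Finset.mem_filter.mp hd).1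
        have h1 := near_count γ ψ B hB hBad q hqB d hd0 j l₂ y₂ (by rw [hqcl1]; exact hij)
        rw [hqcl1, hqcl2] at h1
        have hsub : G.filter (fun r => Nat.gcd q r = d) ⊆
            B.filter (fun r => cl3 ψ r = (j, l₂, y₂) ∧ q < r ∧ Nat.gcd q r = d ∧ Near ψ q r) := by
          intro r hr
          obtain ⟨hr1, hr2⟩ := Finset.mem_filter.mp hr
          obtain ⟨hr3, -⟩ := Finset.mem_filter.mp hr1
          obtain ⟨hr4, hr5, hr6, hr7⟩ := Finset.mem_filter.mp hr3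
          exact Finset.mem_filter.mpr ⟨hr4, hr5, hr6, hr2, hr7⟩
        have h3 := Finset.sum_le_sum_of_subset_of_nonneg hsub
          (f := fun r => Ovl (EE γ ψ) q r) (fun r _ _ => Ovl_nonneg (EE γ ψ) q r)
        have hd' : (0 : ℝ) < d := by exact_mod_cast hd0
        have h4 : 61812 * (lam l₁ * lam l₂) / (pw i * d)
            = 61812 * (lam l₁ * lam l₂) / pw i * (1 / (d : ℝ)) := by
          field_simp
        have h5 : ∑ r ∈ B.filter
            (fun r => cl3 ψ r = (j, l₂, y₂) ∧ q < r ∧ Nat.gcd q r = d ∧ Near ψ q r),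
            Ovl (EE γ ψ) q r ≤ 61812 * (lam l₁ * lam l₂) / (pw i * d) := by
          convert h1
        linarith
      rw [hsplit]
      refine (Finset.sum_le_sum hbound).trans ?_
      rw [← Finset.mul_sum]
      exact le_of_eq (by unfold gD; rfl)
    linarith
  -- sum over `q`
  have hsum := Finset.sum_le_sum hone
  rw [Finset.sum_add_distrib, Finset.sum_const, nsmul_eq_mul, ← Finset.mul_sum] at hsum
  have hTc : Tc γ ψ B (i, l₁, y₁) (j, l₂, y₂) = ∑ q ∈ X₁,
      ∑ r ∈ B.filter (fun r => cl3 ψ r = (j, l₂, y₂) ∧ q < r ∧ Near ψ q r), Ovl (EE γ ψ) q r := by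
    unfold Tc
    apply Finset.sum_congr rfl
    intro q _
    apply Finset.sum_congr _ (fun _ _ => rfl)
    ext r
    simp only [Finset.mem_filter]
  rw [hTc]
  refine hsum.trans ?_
  have hpart1 : (X₁.card : ℝ) * ((X₂.card : ℝ) * (12 * T0 * (D * m)))
      ≤ 786432 * T0 * kap i l₁ j l₂ / (lam l₁ * lam l₂) * D * S₁ * S₂ := by
    have h1 : (X₁.card : ℝ) * ((X₂.card : ℝ) * (12 * T0 * (D * m)))
        ≤ (256 * pw i * S₁ / lam l₁) * ((256 * pw j * S₂ / lam l₂) * (12 * T0 * (D * m))) := by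
      apply mul_le_mul hc1 _ (by positivity) (by positivity)
      exact mul_le_mul_of_nonneg_right hc2 (by positivity)
    have h2 : (256 * pw i * S₁ / lam l₁) * ((256 * pw j * S₂ / lam l₂) * (12 * T0 * (D * m)))
        = 786432 * T0 * (pw i * pw j * m) / (lam l₁ * lam l₂) * D * S₁ * S₂ := by
      field_simp
      ring
    rw [h2, hQRm] at h1
    exact h1
  linarith

end Vale.Agent.Lib.P028F
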