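import Vale.Agent.Lib.P028F.Defs

/-! Second moment of the tail of the divisor sum. -/

open MeasureTheory Set Filter Topology
open Vale.Agent.Lib.P028 Vale.Agent.Lib.P028E

namespace Vale.Agent.Lib.P028F

open scoped Classical in
/-- The sum of `1/d` over the divisors `d ≥ D` of `q`. -/
noncomputable def gD (D : ℝ) (q : ℕ) : ℝ :=
  ∑ d ∈ (Nat.divisors q).filter (fun d : ℕ => D ≤ (d : ℝ)), (1 / (d : ℝ))

theorem gD_nonneg (D : ℝ) (q : ℕ) : 0 ≤ gD D q :=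
  Finset.sum_nonneg (fun _ _ => by positivity)

/-- The multiples of `e` among a finite set of integers `≥ D`: the sum of inverse squares. -/
theorem sum_multiples_inv_sq (R : Finset ℕ) (D : ℝ) (e : ℕ) (he : 0 < e)
    (hR : ∀ d ∈ R, D ≤ (d : ℝ) ∧ 0 < d ∧ e ∣ d) :
    ∑ d ∈ R, (1 / (d : ℝ)) ^ 2 ≤ 2 / ((e : ℝ) * max (e : ℝ) D) := by
  have heR : (0 : ℝ) < e := by exact_mod_cast he
  set L : ℝ := max 1 (D / e) with hL
  have hLpos : 0 < L := lt_of_lt_of_le one_pos (le_max_left _ _)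
  have hmax : (e : ℝ) * L = max (e : ℝ) D := by
    rw [hL, mul_max_of_nonneg _ _ heR.le, mul_one, mul_div_cancel₀ _ heR.ne']
  have himg : ∀ d ∈ R.image (fun d => d / e), L ≤ (d : ℝ) := by
    intro u hu
    obtain ⟨d, hd, rfl⟩ := Finset.mem_image.mp hu
    obtain ⟨h1, h2, h3⟩ := hR d hd
    obtain ⟨c, rfl⟩ := h3
    have hc : 0 < c := Nat.pos_of_mul_pos_left (by simpa [mul_comm] using h2) |> fun h => by
      rcases Nat.eq_zero_or_pos c with h0 | h0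
      · subst h0; simp at h2
      · exact h0
    rw [Nat.mul_div_cancel_left _ he]
    apply max_le
    · exact_mod_cast hc
    · rw [div_le_iff₀ heR]
      push_cast at h1
      linarith
  have h1 := sum_inv_sq_le_of_ge (R.image (fun d => d / e)) L hLpos himg
  rw [Finset.sum_image] at h1
  · have h2 : ∑ d ∈ R, (1 / (d : ℝ)) ^ 2
        = (1 / (e : ℝ) ^ 2) * ∑ d ∈ R, (1 / ((d / e : ℕ) : ℝ)) ^ 2 := by
      rw [Finset.mul_sum]
      apply Finset.sum_congr rfl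
      intro d hd
      obtain ⟨_, h2, c, rfl⟩ := hR d hd
      rw [Nat.mul_div_cancel_left _ he]
      push_cast
      rcases Nat.eq_zero_or_pos c with h0 | h0
      · subst h0; simp at h2
      · have : (0 : ℝ) < c := by exact_mod_cast h0
        field_simp
    rw [h2]
    have h3 : (1 / (e : ℝ) ^ 2) * ∑ d ∈ R, (1 / ((d / e : ℕ) : ℝ)) ^ 2 ≤ (1 / (e : ℝ) ^ 2) * (2 / L) :=
      mul_le_mul_of_nonneg_left h1 (by positivity)
    refine h3.trans (le_of_eq ?_)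
    rw [← hmax]
    field_simp
  · intro a ha b hb hab
    obtain ⟨_, _, c1, rfl⟩ := hR a ha
    obtain ⟨_, _, c2, rfl⟩ := hR b hb
    simp only [Nat.mul_div_cancel_left _ he] at hab
    rw [hab]

/-- The count of common multiples in a level. -/
theorem pair_count (i d1 d2 : ℕ) (h1 : 0 < d1) (h2 : 0 < d2) :
    ∑ q ∈ Finset.Ico (16 ^ i) (16 ^ (i + 1)),
        ((if d1 ∣ q then (1 / (d1 : ℝ)) else 0) * (if d2 ∣ q then (1 / (d2 : ℝ)) else 0))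
      ≤ 31 * pw i * ((Nat.gcd d1 d2 : ℝ) * (1 / (d1 : ℝ)) ^ 2 * (1 / (d2 : ℝ)) ^ 2) := by
  have hpw := pw_pos i
  have hd1 : (0 : ℝ) < d1 := by exact_mod_cast h1
  have hd2 : (0 : ℝ) < d2 := by exact_mod_cast h2
  set l : ℕ := Nat.lcm d1 d2 with hl
  have hlpos : 0 < l := Nat.lcm_pos h1 h2
  have hlR : (0 : ℝ) < l := by exact_mod_cast hlpos
  have hgl : (Nat.gcd d1 d2 : ℝ) * l = d1 * d2 := by
    have := Nat.gcd_mul_lcm d1 d2
    exact_mod_cast this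
  have hpt : ∀ q : ℕ, ((if d1 ∣ q then (1 / (d1 : ℝ)) else 0) * (if d2 ∣ q then (1 / (d2 : ℝ)) else 0))
      = if l ∣ q then (1 / (d1 : ℝ)) * (1 / (d2 : ℝ)) else 0 := by
    intro q
    by_cases h : l ∣ q
    · have h3 : d1 ∣ q := (Nat.dvd_lcm_left d1 d2).trans h
      have h4 : d2 ∣ q := (Nat.dvd_lcm_right d1 d2).trans h
      simp [h, h3, h4]
    · have h5 : ¬ (d1 ∣ q ∧ d2 ∣ q) := fun hh => h (Nat.lcm_dvd hh.1 hh.2)
      rw [if_neg h]
      by_cases h3 : d1 ∣ q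
      · have h4 : ¬ d2 ∣ q := fun h4 => h5 ⟨h3, h4⟩
        simp [h4]
      · simp [h3]
  simp_rw [hpt]
  rw [← Finset.sum_filter, Finset.sum_const, nsmul_eq_mul]
  have hcard : (((Finset.Ico (16 ^ i) (16 ^ (i + 1))).filter (fun q => l ∣ q)).card : ℝ)
      ≤ 31 * pw i / l := by
    by_cases hlt : l < 16 ^ (i + 1)
    · exact card_multiples_level i l hlpos hlt
    · have : (Finset.Ico (16 ^ i) (16 ^ (i + 1))).filter (fun q => l ∣ q) = ∅ := by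
        apply Finset.filter_eq_empty_iff.mpr
        intro q hq hdvd
        rw [Finset.mem_Ico] at hq
        have hq0 : 0 < q := lt_of_lt_of_le (Nat.pow_pos (by norm_num)) hq.1
        have := Nat.le_of_dvd hq0 hdvd
        omega
      rw [this]
      simp only [Finset.card_empty, Nat.cast_zero]
      positivity
  calc _ ≤ (31 * pw i / l) * ((1 / (d1 : ℝ)) * (1 / (d2 : ℝ))) :=
        mul_le_mul_of_nonneg_right hcard (by positivity)
    _ = _ := by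
      have hg : (Nat.gcd d1 d2 : ℝ) = d1 * d2 / l := by
        rw [eq_div_iff hlR.ne']; exact hgl
      rw [hg]
      field_simp

/-- An elementary inequality behind the exponent `3/2`. -/
theorem one_div_mul_max_sq_le (e : ℕ) (he : 0 < e) (D : ℝ) (hD : 0 < D) :
    1 / ((e : ℝ) * (max (e : ℝ) D) ^ 2)
      ≤ (1 / (e : ℝ) ^ (3 / 2 : ℝ)) * (1 / (Real.sqrt D) ^ 3) := by
  have heR : (0 : ℝ) < e := by exact_mod_cast he
  set x : ℝ := Real.sqrt e with hx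
  set y : ℝ := Real.sqrt D with hy
  have hxpos : 0 < x := Real.sqrt_pos.mpr heR
  have hypos : 0 < y := Real.sqrt_pos.mpr hD
  have hx2 : x ^ 2 = e := Real.sq_sqrt heR.le
  have hy2 : y ^ 2 = D := Real.sq_sqrt hD.le
  have hpow : (e : ℝ) ^ (3 / 2 : ℝ) = x ^ 3 := by
    rw [hx, Real.sqrt_eq_rpow, ← Real.rpow_natCast, ← Real.rpow_mul heR.le]
    norm_num
  rw [hpow, div_mul_div_comm, one_mul]
  apply div_le_div_of_nonneg_left (by norm_num) (by positivity)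
  set M : ℝ := max (e : ℝ) D with hM
  have hMe : x ^ 2 ≤ M := by rw [hx2]; exact le_max_left _ _
  have hMD : y ^ 2 ≤ M := by rw [hy2]; exact le_max_right _ _
  have hM0 : 0 ≤ M := le_trans (by positivity) hMe
  have h1 : x * y ^ 3 ≤ M ^ 2 := by
    rcases le_total x y with h | h
    · have h2 : y ^ 4 ≤ M ^ 2 := by
        have := pow_le_pow_left₀ (by positivity) hMD 2
        calc y ^ 4 = (y ^ 2) ^ 2 := by ring
          _ ≤ _ := this
      have h3 : x * y ^ 3 ≤ y * y ^ 3 := mul_le_mul_of_nonneg_right h (by positivity)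
      calc x * y ^ 3 ≤ y * y ^ 3 := h3
        _ = y ^ 4 := by ring
        _ ≤ _ := h2
    · have h2 : x ^ 4 ≤ M ^ 2 := by
        have := pow_le_pow_left₀ (by positivity) hMe 2
        calc x ^ 4 = (x ^ 2) ^ 2 := by ring
          _ ≤ _ := this
      have h3 : x * y ^ 3 ≤ x * x ^ 3 :=
        mul_le_mul_of_nonneg_left (pow_le_pow_left₀ hypos.le h 3) hxpos.le
      calc x * y ^ 3 ≤ x * x ^ 3 := h3
        _ = x ^ 4 := by ring
        _ ≤ _ := h2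
  calc x ^ 3 * y ^ 3 = x ^ 2 * (x * y ^ 3) := by ring
    _ ≤ x ^ 2 * M ^ 2 := mul_le_mul_of_nonneg_left h1 (by positivity)
    _ = _ := by rw [hx2]

open scoped Classical in
/-- The second moment, with the square root explicit. -/
theorem moment2_aux (i : ℕ) (D : ℝ) (hD : 0 < D) :
    (∑ q ∈ Finset.Ico (16 ^ i) (16 ^ (i + 1)), (gD D q) ^ 2)
      ≤ 124 * pw i * (∑' e : ℕ, 1 / (e : ℝ) ^ (3 / 2 : ℝ)) * (1 / (Real.sqrt D) ^ 3) := by
  have hpw := pw_pos i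
  set L := Finset.Ico (16 ^ i) (16 ^ (i + 1)) with hL
  set E := Finset.Ico 1 (16 ^ (i + 1)) with hE
  set R := E.filter (fun d : ℕ => D ≤ (d : ℝ)) with hR
  have hRpos : ∀ d ∈ R, 0 < d ∧ d < 16 ^ (i + 1) := by
    intro d hd
    simp only [hR, hE, Finset.mem_filter, Finset.mem_Ico] at hd
    exact ⟨by omega, hd.1.2⟩
  -- expansion of `gD`
  have hg : ∀ q ∈ L, gD D q = ∑ d ∈ R, (if d ∣ q then (1 / (d : ℝ)) else 0) := by
    intro q hq
    rw [hL, Finset.mem_Ico] at hq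
    have hq0 : 0 < q := lt_of_lt_of_le (Nat.pow_pos (by norm_num)) hq.1
    rw [← Finset.sum_filter]
    unfold gD
    apply Finset.sum_congr _ (fun _ _ => rfl)
    ext d
    simp only [hR, hE, Finset.mem_filter, Finset.mem_Ico, Nat.mem_divisors]
    constructor
    · rintro ⟨⟨h1, h2⟩, h3⟩
      have hdle := Nat.le_of_dvd hq0 h1
      have hdpos := Nat.pos_of_dvd_of_pos h1 hq0
      exact ⟨⟨⟨hdpos, by omega⟩, h3⟩, h1⟩
    · rintro ⟨⟨_, h3⟩, h1⟩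
      exact ⟨⟨h1, by omega⟩, h3⟩
  have hsq : ∀ q ∈ L, (gD D q) ^ 2 = ∑ d1 ∈ R, ∑ d2 ∈ R,
      ((if d1 ∣ q then (1 / (d1 : ℝ)) else 0) * (if d2 ∣ q then (1 / (d2 : ℝ)) else 0)) := by
    intro q hq
    rw [hg q hq, pow_two, Finset.sum_mul_sum]
  rw [Finset.sum_congr rfl hsq]
  -- exchange
  have hswap : ∑ q ∈ L, ∑ d1 ∈ R, ∑ d2 ∈ R,
      ((if d1 ∣ q then (1 / (d1 : ℝ)) else 0) * (if d2 ∣ q then (1 / (d2 : ℝ)) else 0))
      = ∑ d1 ∈ R, ∑ d2 ∈ R, ∑ q ∈ L,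
      ((if d1 ∣ q then (1 / (d1 : ℝ)) else 0) * (if d2 ∣ q then (1 / (d2 : ℝ)) else 0)) := by
    rw [Finset.sum_comm]
    apply Finset.sum_congr rfl
    intro d1 _
    rw [Finset.sum_comm]
  rw [hswap]
  -- the gcd as a sum over common divisors
  have hgcd : ∀ d1 ∈ R, ∀ d2 ∈ R,
      ((Nat.gcd d1 d2 : ℝ) * (1 / (d1 : ℝ)) ^ 2 * (1 / (d2 : ℝ)) ^ 2)
        ≤ ∑ e ∈ E, (e : ℝ) * ((if e ∣ d1 then (1 / (d1 : ℝ)) ^ 2 else 0)
            * (if e ∣ d2 then (1 / (d2 : ℝ)) ^ 2 else 0)) := by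
    intro d1 h1 d2 h2
    have hmem : Nat.gcd d1 d2 ∈ E := by
      rw [hE, Finset.mem_Ico]
      have h3 := Nat.gcd_pos_of_pos_left d2 (hRpos d1 h1).1
      have h4 := Nat.le_of_dvd (hRpos d1 h1).1 (Nat.gcd_dvd_left d1 d2)
      have h5 := (hRpos d1 h1).2
      exact ⟨h3, by omega⟩
    have hnn : ∀ e ∈ E, 0 ≤ (e : ℝ) * ((if e ∣ d1 then (1 / (d1 : ℝ)) ^ 2 else 0)
            * (if e ∣ d2 then (1 / (d2 : ℝ)) ^ 2 else 0)) := by
      intro e _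
      apply mul_nonneg (by positivity)
      apply mul_nonneg <;> split_ifs <;> positivity
    have h6 := Finset.single_le_sum hnn hmem
    simp only [Nat.gcd_dvd_left, Nat.gcd_dvd_right, if_true] at h6
    calc _ = (Nat.gcd d1 d2 : ℝ) * ((1 / (d1 : ℝ)) ^ 2 * (1 / (d2 : ℝ)) ^ 2) := by ring
      _ ≤ _ := h6
  have h1 : ∑ d1 ∈ R, ∑ d2 ∈ R, ∑ q ∈ L,
      ((if d1 ∣ q then (1 / (d1 : ℝ)) else 0) * (if d2 ∣ q then (1 / (d2 : ℝ)) else 0))
      ≤ ∑ d1 ∈ R, ∑ d2 ∈ R, 31 * pw i * ∑ e ∈ E, (e : ℝ) *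
          ((if e ∣ d1 then (1 / (d1 : ℝ)) ^ 2 else 0)
            * (if e ∣ d2 then (1 / (d2 : ℝ)) ^ 2 else 0)) := by
    apply Finset.sum_le_sum
    intro d1 h1
    apply Finset.sum_le_sum
    intro d2 h2
    refine (pair_count i d1 d2 (hRpos d1 h1).1 (hRpos d2 h2).1).trans ?_
    exact mul_le_mul_of_nonneg_left (hgcd d1 h1 d2 h2) (by positivity)
  refine h1.trans ?_
  -- sum over `e`
  set T : ℕ → ℝ := fun e => ∑ d ∈ R, (if e ∣ d then (1 / (d : ℝ)) ^ 2 else 0) with hT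
  have h2 : ∑ d1 ∈ R, ∑ d2 ∈ R, 31 * pw i * ∑ e ∈ E, (e : ℝ) *
          ((if e ∣ d1 then (1 / (d1 : ℝ)) ^ 2 else 0)
            * (if e ∣ d2 then (1 / (d2 : ℝ)) ^ 2 else 0))
      = 31 * pw i * ∑ e ∈ E, (e : ℝ) * (T e) ^ 2 := by
    simp_rw [← Finset.mul_sum]
    congr 1
    have h3 : ∀ e ∈ E, (e : ℝ) * (T e) ^ 2 = ∑ d1 ∈ R, ∑ d2 ∈ R, (e : ℝ) *
        ((if e ∣ d1 then (1 / (d1 : ℝ)) ^ 2 else 0)
          * (if e ∣ d2 then (1 / (d2 : ℝ)) ^ 2 else 0)) := by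
      intro e _
      simp only [hT]
      rw [pow_two, Finset.sum_mul_sum, Finset.mul_sum]
      apply Finset.sum_congr rfl
      intro d1 _
      rw [Finset.mul_sum]
    rw [Finset.sum_congr rfl h3]
    symm
    rw [Finset.sum_comm]
    apply Finset.sum_congr rfl
    intro d1 _
    rw [Finset.sum_comm]
  rw [h2]
  -- bound for `T`
  have hTb : ∀ e ∈ E, T e ≤ 2 / ((e : ℝ) * max (e : ℝ) D) := by
    intro e he
    rw [hE, Finset.mem_Ico] at he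
    simp only [hT]
    rw [← Finset.sum_filter]
    apply sum_multiples_inv_sq _ D e (by omega)
    intro d hd
    rw [Finset.mem_filter] at hd
    have h3 := hd.1
    simp only [hR, Finset.mem_filter] at h3
    exact ⟨h3.2, (hRpos d hd.1).1, hd.2⟩
  have hT0 : ∀ e, 0 ≤ T e := by
    intro e
    apply Finset.sum_nonneg
    intro d _
    split_ifs <;> positivity
  have hsum : Summable (fun e : ℕ => 1 / (e : ℝ) ^ (3 / 2 : ℝ)) :=
    Real.summable_one_div_nat_rpow.mpr (by norm_num)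
  have hterm : ∀ e ∈ E, (e : ℝ) * (T e) ^ 2
      ≤ 4 * (1 / (Real.sqrt D) ^ 3) * (1 / (e : ℝ) ^ (3 / 2 : ℝ)) := by
    intro e he
    have he' := he
    rw [hE, Finset.mem_Ico] at he'
    have heR : (0 : ℝ) < e := by exact_mod_cast (show 0 < e by omega)
    have hM : 0 < max (e : ℝ) D := lt_max_of_lt_left heR
    have h3 := pow_le_pow_left₀ (hT0 e) (hTb e he) 2
    have h4 := one_div_mul_max_sq_le e (by omega) D hD
    have h5 : (e : ℝ) * (2 / ((e : ℝ) * max (e : ℝ) D)) ^ 2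
        = 4 * (1 / ((e : ℝ) * (max (e : ℝ) D) ^ 2)) := by
      field_simp
      ring
    calc (e : ℝ) * (T e) ^ 2 ≤ (e : ℝ) * (2 / ((e : ℝ) * max (e : ℝ) D)) ^ 2 :=
          mul_le_mul_of_nonneg_left h3 heR.le
      _ = 4 * (1 / ((e : ℝ) * (max (e : ℝ) D) ^ 2)) := h5
      _ ≤ 4 * ((1 / (e : ℝ) ^ (3 / 2 : ℝ)) * (1 / (Real.sqrt D) ^ 3)) :=
          mul_le_mul_of_nonneg_left h4 (by norm_num)
      _ = _ := by ring
  have hfin : ∑ e ∈ E, 1 / (e : ℝ) ^ (3 / 2 : ℝ) ≤ ∑' e : ℕ, 1 / (e : ℝ) ^ (3 / 2 : ℝ) :=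
    hsum.sum_le_tsum E (fun e _ => by positivity)
  have hy : 0 ≤ 1 / (Real.sqrt D) ^ 3 := by positivity
  calc 31 * pw i * ∑ e ∈ E, (e : ℝ) * (T e) ^ 2
      ≤ 31 * pw i * ∑ e ∈ E, 4 * (1 / (Real.sqrt D) ^ 3) * (1 / (e : ℝ) ^ (3 / 2 : ℝ)) :=
        mul_le_mul_of_nonneg_left (Finset.sum_le_sum hterm) (by positivity)
    _ = 31 * pw i * (4 * (1 / (Real.sqrt D) ^ 3) * ∑ e ∈ E, 1 / (e : ℝ) ^ (3 / 2 : ℝ)) := by
        congr 1
        rw [Finset.mul_sum]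
    _ ≤ 31 * pw i * (4 * (1 / (Real.sqrt D) ^ 3) * ∑' e : ℕ, 1 / (e : ℝ) ^ (3 / 2 : ℝ)) := by
        apply mul_le_mul_of_nonneg_left _ (by positivity)
        exact mul_le_mul_of_nonneg_left hfin (by positivity)
    _ = _ := by ring

/-- The second moment of `gD` over a level. -/
theorem moment2 : ∃ Cm : ℝ, 0 < Cm ∧ ∀ (i : ℕ) (D : ℝ), 0 < D →
    (∑ q ∈ Finset.Ico (16 ^ i) (16 ^ (i + 1)), (gD D q) ^ 2) ^ 2 * D ^ 3 ≤ Cm * (pw i) ^ 2 := by
  set Z : ℝ := ∑' e : ℕ, 1 / (e : ℝ) ^ (3 / 2 : ℝ) with hZ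
  have hZ0 : 0 ≤ Z := tsum_nonneg (fun e => by positivity)
  refine ⟨(124 * Z) ^ 2 + 1, by positivity, ?_⟩
  intro i D hD
  have hpw := pw_pos i
  have h := moment2_aux i D hD
  rw [← hZ] at h
  set S := ∑ q ∈ Finset.Ico (16 ^ i) (16 ^ (i + 1)), (gD D q) ^ 2 with hS
  have hS0 : 0 ≤ S := Finset.sum_nonneg (fun _ _ => by positivity)
  set y : ℝ := Real.sqrt D with hy
  have hypos : 0 < y := Real.sqrt_pos.mpr hD
  have hy2 : y ^ 2 = D := Real.sq_sqrt hD.le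
  have h1 : S * y ^ 3 ≤ 124 * pw i * Z := by
    have h2 := mul_le_mul_of_nonneg_right h (by positivity : (0 : ℝ) ≤ y ^ 3)
    refine h2.trans (le_of_eq ?_)
    field_simp
  have h3 := pow_le_pow_left₀ (by positivity) h1 2
  calc S ^ 2 * D ^ 3 = (S * y ^ 3) ^ 2 := by rw [← hy2]; ring
    _ ≤ (124 * pw i * Z) ^ 2 := h3
    _ = (124 * Z) ^ 2 * (pw i) ^ 2 := by ring
    _ ≤ _ := by nlinarith [sq_nonneg (pw i)]

/-- Consequence by Cauchy and Schwarz: for a subset of a level. -/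
theorem sum_gD_fourth (Cm : ℝ) (hCm : ∀ (i : ℕ) (D : ℝ), 0 < D →
      (∑ q ∈ Finset.Ico (16 ^ i) (16 ^ (i + 1)), (gD D q) ^ 2) ^ 2 * D ^ 3 ≤ Cm * (pw i) ^ 2)
    (i : ℕ) (D : ℝ) (hD : 0 < D) (X : Finset ℕ) (hX : X ⊆ Finset.Ico (16 ^ i) (16 ^ (i + 1))) :
    (∑ q ∈ X, gD D q) ^ 4 * D ^ 3 ≤ (X.card : ℝ) ^ 2 * (Cm * (pw i) ^ 2) := by
  have h0 : (∑ q ∈ X, gD D q) ^ 2 ≤ (X.card : ℝ) * ∑ q ∈ X, (gD D q) ^ 2 :=
    sq_sum_le_card_mul_sum_sq
  have h1 : ∑ q ∈ X, (gD D q) ^ 2 ≤ ∑ q ∈ Finset.Ico (16 ^ i) (16 ^ (i + 1)), (gD D q) ^ 2 :=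
    Finset.sum_le_sum_of_subset_of_nonneg hX (fun _ _ _ => by positivity)
  set S := ∑ q ∈ Finset.Ico (16 ^ i) (16 ^ (i + 1)), (gD D q) ^ 2 with hS
  have h2 : (∑ q ∈ X, gD D q) ^ 2 ≤ (X.card : ℝ) * S :=
    h0.trans (mul_le_mul_of_nonneg_left h1 (by positivity))
  have h3 := pow_le_pow_left₀ (by positivity) h2 2
  have hD3 : (0 : ℝ) < D ^ 3 := by positivity
  calc (∑ q ∈ X, gD D q) ^ 4 * D ^ 3 = ((∑ q ∈ X, gD D q) ^ 2) ^ 2 * D ^ 3 := by ring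
    _ ≤ ((X.card : ℝ) * S) ^ 2 * D ^ 3 := mul_le_mul_of_nonneg_right h3 hD3.le
    _ = (X.card : ℝ) ^ 2 * (S ^ 2 * D ^ 3) := by ring
    _ ≤ _ := mul_le_mul_of_nonneg_left (hCm i D hD) (by positivity)

end Vale.Agent.Lib.P028F
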