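import Vale.Agent.Lib.P028F.NearCount
import Vale.Agent.Lib.P028F.Moment
import Vale.Agent.Lib.P028F.Chernoff

/-! Classes of moduli: membership, mass, and the fourth power bound. -/

open MeasureTheory Set Filter Topology
open Vale.Agent.Lib.P028 Vale.Agent.Lib.P028E

namespace Vale.Agent.Lib.P028F

open scoped Classical in
/-- The members of a class in a block. -/
noncomputable def Xc (ψ : ℕ → ℝ) (B : Finset ℕ) (a : ℕ × ℕ × ℕ) : Finset ℕ :=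
  B.filter (fun q => cl3 ψ q = a)

/-- The mass of a class. -/
noncomputable def Sc (ψ : ℕ → ℝ) (B : Finset ℕ) (a : ℕ × ℕ × ℕ) : ℝ := ∑ q ∈ Xc ψ B a, ψ q

open scoped Classical in
/-- The near overlaps between two classes. -/
noncomputable def Tc (γ : ℝ) (ψ : ℕ → ℝ) (B : Finset ℕ) (a b : ℕ × ℕ × ℕ) : ℝ :=
  ∑ q ∈ Xc ψ B a, ∑ r ∈ B.filter (fun r => cl3 ψ r = b ∧ q < r ∧ Near ψ q r), Ovl (EE γ ψ) q r

/-- Members of a class: the data of `class_facts`. -/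
theorem Xc_facts {γ : ℝ} {ψ : ℕ → ℝ} {B : Finset ℕ} (hB : BlockOK ψ B) {a : ℕ × ℕ × ℕ} {q : ℕ}
    (hq : q ∈ Xc ψ B a) :
    q ∈ B ∧ cl ψ q = (a.1, a.2.1) ∧ yc q = a.2.2 ∧ q ∈ Finset.Ico (16 ^ a.1) (16 ^ (a.1 + 1)) := by
  classical
  obtain ⟨hqB, hcl⟩ := Finset.mem_filter.mp hq
  have h1 : lev q = a.1 := congrArg Prod.fst hcl
  have h2 : ell ((q : ℝ) * ψ q) = a.2.1 := congrArg (fun x => x.2.1) hcl
  have h3 : yc q = a.2.2 := congrArg (fun x => x.2.2) hcl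
  have h4 : cl ψ q = (a.1, a.2.1) := by
    unfold cl
    rw [h1, h2]
  exact ⟨hqB, h4, h3, class_level hB hqB h4⟩

/-- Number of members from the mass. -/
theorem Xc_card (ψ : ℕ → ℝ) (B : Finset ℕ) (hB : BlockOK ψ B) (a : ℕ × ℕ × ℕ) :
    ((Xc ψ B a).card : ℝ) ≤ 256 * pw a.1 * Sc ψ B a / lam a.2.1 := by
  classical
  refine class_card hB a.1 a.2.1 (Xc ψ B a) (fun q hq => ?_)
  obtain ⟨h1, h2, -, -⟩ := Xc_facts (γ := 0) hB hq
  exact ⟨h1, h2⟩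

/-- The mass is small when the profile is large. -/
theorem Sc_cap (ψ : ℕ → ℝ) (B : Finset ℕ) (hB : BlockOK ψ B) (a : ℕ × ℕ × ℕ) (ha : 1 ≤ a.2.2) :
    Sc ψ B a ≤ 240 * lam a.2.1 * (1 / 2 : ℝ) ^ (33 * (a.2.2 - 1)) := by
  classical
  have hQ := pw_pos a.1
  have hA := lam_pos a.2.1
  -- each term
  have hterm : ∀ q ∈ Xc ψ B a, ψ q ≤ lam a.2.1 / pw a.1 := by
    intro q hq
    obtain ⟨h1, h2, -, -⟩ := Xc_facts (γ := 0) hB hq
    obtain ⟨-, h4, h5, -⟩ := class_facts hB h1 h2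
    have hψ := hB.psi_pos q h1
    have hq0 : (0 : ℝ) < q := by
      have := hB.q_pos h1
      exact_mod_cast this
    -- ψ q / q ≤ lam / Q², q ≥ Q
    have h6 : (q : ℝ) * ψ q ≤ lam a.2.1 := by
      have h7 := ell_spec ((q : ℝ) * ψ q) (mul_pos hq0 hψ) (hB.psi_le q h1)
      have h8 : ell ((q : ℝ) * ψ q) = a.2.1 := congrArg Prod.snd h2
      rw [h8] at h7
      exact h7.2
    rw [le_div_iff₀ hQ]
    have h9 : ψ q * pw a.1 ≤ ψ q * q := mul_le_mul_of_nonneg_left h5 hψ.le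
    linarith
  have hcount : ((Xc ψ B a).card : ℝ) ≤ 240 * pw a.1 * (1 / 2 : ℝ) ^ (33 * (a.2.2 - 1)) := by
    refine le_trans ?_ (class_cap a.1 a.2.2 ha)
    have : Xc ψ B a ⊆ (Finset.Ico (16 ^ a.1) (16 ^ (a.1 + 1))).filter (fun q => yc q = a.2.2) := by
      intro q hq
      obtain ⟨-, -, h3, h4⟩ := Xc_facts (γ := 0) hB hq
      exact Finset.mem_filter.mpr ⟨h4, h3⟩
    exact_mod_cast Finset.card_le_card this
  have h1 : Sc ψ B a ≤ ((Xc ψ B a).card : ℝ) * (lam a.2.1 / pw a.1) := by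
    have := Finset.sum_le_card_nsmul (Xc ψ B a) ψ (lam a.2.1 / pw a.1) hterm
    simpa [nsmul_eq_mul, Sc] using this
  refine h1.trans ?_
  calc ((Xc ψ B a).card : ℝ) * (lam a.2.1 / pw a.1)
      ≤ (240 * pw a.1 * (1 / 2 : ℝ) ^ (33 * (a.2.2 - 1))) * (lam a.2.1 / pw a.1) :=
        mul_le_mul_of_nonneg_right hcount (by positivity)
    _ = 240 * lam a.2.1 * (1 / 2 : ℝ) ^ (33 * (a.2.2 - 1)) := by
        field_simp

/-- The second term of `class_split`: a fourth power bound. -/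
theorem large_fourth (Cm : ℝ) (hCm : ∀ (i : ℕ) (D : ℝ), 0 < D →
      (∑ q ∈ Finset.Ico (16 ^ i) (16 ^ (i + 1)), (gD D q) ^ 2) ^ 2 * D ^ 3 ≤ Cm * (pw i) ^ 2)
    (hCm0 : 0 < Cm) (ψ : ℕ → ℝ) (B : Finset ℕ) (hB : BlockOK ψ B) (a b : ℕ × ℕ × ℕ) (D : ℝ)
    (hD : 0 < D) :
    (61812 * (lam a.2.1 * lam b.2.1) / pw a.1 * ∑ q ∈ Xc ψ B a, gD D q) ^ 4 * D ^ 3
      ≤ (61812 ^ 4 * 65536 * Cm) * (lam a.2.1 ^ 2 * lam b.2.1 ^ 4) * Sc ψ B a ^ 2 := by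
  classical
  have hQ := pw_pos a.1
  have hA₁ := lam_pos a.2.1
  have hA₂ := lam_pos b.2.1
  have hS0 : 0 ≤ Sc ψ B a := Finset.sum_nonneg (fun q hq =>
    (hB.psi_pos q (Xc_facts (γ := 0) hB hq).1).le)
  have hsub : Xc ψ B a ⊆ Finset.Ico (16 ^ a.1) (16 ^ (a.1 + 1)) := fun q hq =>
    (Xc_facts (γ := 0) hB hq).2.2.2
  have h1 := sum_gD_fourth Cm hCm a.1 D hD (Xc ψ B a) hsub
  have h2 := Xc_card ψ B hB a
  have h3 : ((Xc ψ B a).card : ℝ) ^ 2 ≤ (256 * pw a.1 * Sc ψ B a / lam a.2.1) ^ 2 :=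
    pow_le_pow_left₀ (Nat.cast_nonneg _) h2 2
  set G := ∑ q ∈ Xc ψ B a, gD D q with hG
  set S := Sc ψ B a with hS
  have hkey : G ^ 4 * D ^ 3 ≤ (256 * pw a.1 * S / lam a.2.1) ^ 2 * (Cm * (pw a.1) ^ 2) :=
    le_trans h1 (mul_le_mul_of_nonneg_right h3 (by positivity))
  have e1 : (61812 * (lam a.2.1 * lam b.2.1) / pw a.1 * G) ^ 4 * D ^ 3
      = (61812 * (lam a.2.1 * lam b.2.1) / pw a.1) ^ 4 * (G ^ 4 * D ^ 3) := by ring
  rw [e1]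
  calc (61812 * (lam a.2.1 * lam b.2.1) / pw a.1) ^ 4 * (G ^ 4 * D ^ 3)
      ≤ (61812 * (lam a.2.1 * lam b.2.1) / pw a.1) ^ 4
          * ((256 * pw a.1 * S / lam a.2.1) ^ 2 * (Cm * (pw a.1) ^ 2)) :=
        mul_le_mul_of_nonneg_left hkey (by positivity)
    _ = (61812 ^ 4 * 65536 * Cm) * (lam a.2.1 ^ 2 * lam b.2.1 ^ 4) * S ^ 2 := by
        field_simp
        ring

end Vale.Agent.Lib.P028F
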