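import Vale.Agent.Lib.P028E.Final

/-! Definitions for the weighted theorem: all shifts, `ψ(q) = O(1/q)`, weight `φ(q)/q`. -/

open MeasureTheory Set Filter Topology
open Vale.Agent.Lib.P028 Vale.Agent.Lib.P028E

namespace Vale.Agent.Lib.P028F

open scoped Classical in
/-- Primes dividing `q` and not dividing `k`. -/
noncomputable def Pk (k : ℤ) (q : ℕ) : Finset ℕ :=
  q.primeFactors.filter (fun p : ℕ => ¬ ((p : ℤ) ∣ k))

/-- The density of the centres of the thin arc set of `q` at scale `s`. -/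
noncomputable def dens (γ s : ℝ) (q : ℕ) : ℝ := MoebiusAux.eul (Pk (sv γ s).1 q)

open scoped Classical in
/-- The sum of `1/p` over the primes `p > y` dividing `q`. -/
noncomputable def tailsum (q y : ℕ) : ℝ :=
  ∑ p ∈ q.primeFactors.filter (fun p : ℕ => y < p), (1 / (p : ℝ))

theorem exists_y (q : ℕ) : ∃ y : ℕ, 1 ≤ y ∧ tailsum q y ≤ 66 := by
  classical
  refine ⟨q + 1, by omega, ?_⟩
  have : q.primeFactors.filter (fun p : ℕ => q + 1 < p) = ∅ := by
    apply Finset.filter_eq_empty_iff.mpr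
    intro p hp hlt
    have hp' := Nat.mem_primeFactors.mp hp
    have := Nat.le_of_dvd (Nat.pos_of_ne_zero hp'.2.2) hp'.2.1
    omega
  unfold tailsum
  rw [this]
  norm_num

open scoped Classical in
/-- The profile of `q`: the least `y ≥ 1` with `tailsum q y ≤ 66`. -/
noncomputable def yc (q : ℕ) : ℕ := Nat.find (exists_y q)

theorem yc_pos (q : ℕ) : 1 ≤ yc q := by
  classical
  exact (Nat.find_spec (exists_y q)).1

theorem tailsum_yc (q : ℕ) : tailsum q (yc q) ≤ 66 := by
  classical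
  exact (Nat.find_spec (exists_y q)).2

theorem tailsum_prev (q : ℕ) (h : 2 ≤ yc q) : 66 < tailsum q (yc q - 1) := by
  classical
  have hmin := Nat.find_min (exists_y q) (m := yc q - 1) (by
    have : yc q = Nat.find (exists_y q) := rfl
    omega)
  push Not at hmin
  exact hmin (by omega)

open scoped Classical in
/-- The primes of `Pk` up to the profile of `q`. -/
noncomputable def smallP (γ s : ℝ) (q : ℕ) : Finset ℕ :=
  (Pk (sv γ s).1 q).filter (fun p : ℕ => p ≤ yc q)

/-- A small constant. -/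
noncomputable def cA : ℝ := Real.exp (-132)

theorem cA_pos : 0 < cA := Real.exp_pos _

/-- The class of a modulus: its level, the class of `q ψ(q)`, its profile. -/
noncomputable def cl3 (ψ : ℕ → ℝ) (q : ℕ) : ℕ × ℕ × ℕ := (lev q, ell ((q : ℝ) * ψ q), yc q)

/-- The threshold separating near pairs from far pairs. -/
noncomputable def Tz (q r : ℕ) : ℝ := (4 : ℝ) ^ (yc q + yc r)

theorem Tz_pos (q r : ℕ) : 0 < Tz q r := by unfold Tz; positivity

/-- Near pairs. -/
def Near (ψ : ℕ → ℝ) (q r : ℕ) : Prop := tt q r (ψ q) (ψ r) < Tz q r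

/-- The thin arc sets: centres `a` with `k a - m` coprime to `q`, `(k, m)` the shortest vector. -/
def EE (γ : ℝ) (ψ : ℕ → ℝ) (q : ℕ) : Set ℝ := thinSet q γ (ψ q) (cop γ (ψ q) q)

theorem isOpen_EE (γ : ℝ) (ψ : ℕ → ℝ) (q : ℕ) : IsOpen (EE γ ψ q) := isOpen_thinSet _ _ _ _

theorem EE_subset (γ : ℝ) (ψ : ℕ → ℝ) (q : ℕ) : EE γ ψ q ⊆ arcSet q γ (ψ q) := thinSet_subset _ _ _ _

/-- The threshold for the length of the shortest vector. -/
noncomputable def LamB (i : ℕ) : ℝ := ((i : ℝ) + 1) ^ 3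

theorem LamB_pos (i : ℕ) : 0 < LamB i := by unfold LamB; positivity

theorem LamB_mono {i j : ℕ} (h : i ≤ j) : LamB i ≤ LamB j := by
  unfold LamB
  have : (i : ℝ) ≤ j := by exact_mod_cast h
  exact pow_le_pow_left₀ (by positivity) (by linarith) 3

/-- What is assumed on the support in the main part of the proof. -/
structure BadOK (γ : ℝ) (ψ : ℕ → ℝ) (q : ℕ) : Prop where
  large : 16 ^ 8 ≤ q
  pos : 0 < ψ q
  le : (q : ℝ) * ψ q ≤ 1
  short : nrm γ (ψ q) (sv γ (ψ q)) < LamB (lev q)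
  thick : 1 ≤ ((q : ℝ) * ψ q) ^ 4 * q

end Vale.Agent.Lib.P028F
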