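import Vale.Agent.Lib.P028F.NoLine

/-! Near pairs: the bound for one overlap, and the bound per (modulus, gcd, class). -/

open MeasureTheory Set Filter Topology
open Vale.Agent.Lib.P028 Vale.Agent.Lib.P028E

namespace Vale.Agent.Lib.P028F

/-- `ψ_q ψ_r ≤ t d min(ψ_q/q, ψ_r/r)` and `t d min(ψ_q/q, ψ_r/r) ≤ 2 ψ_q ψ_r`. -/
theorem tt_mul_min (q r : ℕ) (hq : 0 < q) (hr : 0 < r) (s t : ℝ) (hs : 0 ≤ s) (ht : 0 ≤ t) :
    s * t ≤ tt q r s t * ((Nat.gcd q r : ℝ) * min (s / q) (t / r)) ∧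
    tt q r s t * ((Nat.gcd q r : ℝ) * min (s / q) (t / r)) ≤ 2 * (s * t) := by
  have hqR : (0 : ℝ) < (q : ℝ) := by exact_mod_cast hq
  have hrR : (0 : ℝ) < (r : ℝ) := by exact_mod_cast hr
  have e : tt q r s t * ((Nat.gcd q r : ℝ) * min (s / q) (t / r))
      = ((r : ℝ) * s + (q : ℝ) * t) * min (s / q) (t / r) := by
    unfold tt
    have e1 : (r : ℝ) = (Nat.gcd q r : ℝ) * (rp q r : ℝ) := real_r_eq q r
    have e2 : (q : ℝ) = (Nat.gcd q r : ℝ) * (qp q r : ℝ) := real_q_eq q r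
    have : ((r : ℝ) * s + (q : ℝ) * t) = ((rp q r : ℝ) * s + (qp q r : ℝ) * t) * (Nat.gcd q r : ℝ) := by
      nth_rewrite 1 [e1]
      nth_rewrite 1 [e2]
      ring
    rw [this]
    ring
  rw [e]
  have h1 : 0 ≤ s / (q : ℝ) := div_nonneg hs hqR.le
  have h2 : 0 ≤ t / (r : ℝ) := div_nonneg ht hrR.le
  have hm0 : 0 ≤ min (s / (q : ℝ)) (t / (r : ℝ)) := le_min h1 h2
  have a1 : (r : ℝ) * s * min (s / (q : ℝ)) (t / (r : ℝ)) ≤ s * t := by
    calc (r : ℝ) * s * min (s / (q : ℝ)) (t / (r : ℝ)) ≤ (r : ℝ) * s * (t / r) :=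
          mul_le_mul_of_nonneg_left (min_le_right _ _) (by positivity)
      _ = s * t := by field_simp
  have a2 : (q : ℝ) * t * min (s / (q : ℝ)) (t / (r : ℝ)) ≤ s * t := by
    calc (q : ℝ) * t * min (s / (q : ℝ)) (t / (r : ℝ)) ≤ (q : ℝ) * t * (s / q) :=
          mul_le_mul_of_nonneg_left (min_le_left _ _) (by positivity)
      _ = s * t := by field_simp
  constructor
  · rcases min_choice (s / (q : ℝ)) (t / (r : ℝ)) with h | h
    · rw [h]
      have : ((r : ℝ) * s + (q : ℝ) * t) * (s / q) = (r : ℝ) * s * (s / q) + s * t := by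
        field_simp
      rw [this]
      have : 0 ≤ (r : ℝ) * s * (s / q) := by positivity
      linarith
    · rw [h]
      have : ((r : ℝ) * s + (q : ℝ) * t) * (t / r) = s * t + (q : ℝ) * t * (t / r) := by
        field_simp
      rw [this]
      have : 0 ≤ (q : ℝ) * t * (t / r) := by positivity
      linarith
  · have : ((r : ℝ) * s + (q : ℝ) * t) * min (s / (q : ℝ)) (t / (r : ℝ))
        = (r : ℝ) * s * min (s / (q : ℝ)) (t / (r : ℝ))
          + (q : ℝ) * t * min (s / (q : ℝ)) (t / (r : ℝ)) := by ring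
    rw [this]
    linarith

theorem one_le_Tz (q r : ℕ) : 1 ≤ Tz q r := by
  unfold Tz
  exact one_le_pow₀ (by norm_num)

/-- One near overlap. -/
theorem near_O (γ : ℝ) (ψ : ℕ → ℝ) (q r : ℕ) (hq : 0 < q) (hr : 0 < r) (hq0 : 0 ≤ ψ q)
    (hq1 : ψ q ≤ 1 / 2) (hr0 : 0 ≤ ψ r) (hr1 : ψ r ≤ 1 / 2) (hn : Near ψ q r) :
    Ovl (EE γ ψ) q r ≤ 12 * Tz q r * ((Nat.gcd q r : ℝ) * min (ψ q / q) (ψ r / r)) := by
  have hle := Ovl_le γ ψ (EE γ ψ) (isOpen_EE γ ψ) (EE_subset γ ψ) q r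
  have hqR : (0 : ℝ) < (q : ℝ) := by exact_mod_cast hq
  have hrR : (0 : ℝ) < (r : ℝ) := by exact_mod_cast hr
  have hm0 : 0 ≤ (Nat.gcd q r : ℝ) * min (ψ q / q) (ψ r / r) :=
    mul_nonneg (Nat.cast_nonneg _) (le_min (div_nonneg hq0 hqR.le) (div_nonneg hr0 hrR.le))
  have hT := one_le_Tz q r
  rcases lt_or_ge (tt q r (ψ q) (ψ r)) (1 / 2) with ht | ht
  · have h1 := overlap_le (γ := γ) hq hr hq0 hq1 hr0 hr1 ht.le
    calc Ovl (EE γ ψ) q r ≤ 2 * (Nat.gcd q r : ℝ) * min (ψ q / q) (ψ r / r) := hle.trans h1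
      _ = 2 * ((Nat.gcd q r : ℝ) * min (ψ q / q) (ψ r / r)) := by ring
      _ ≤ 12 * Tz q r * ((Nat.gcd q r : ℝ) * min (ψ q / q) (ψ r / r)) :=
          mul_le_mul_of_nonneg_right (by linarith) hm0
  · have h1 := typeI_le (γ := γ) hq hr hq0 hq1 hr0 hr1 ht
    have h2 := (tt_mul_min q r hq hr (ψ q) (ψ r) hq0 hr0).1
    have hn' : tt q r (ψ q) (ψ r) < Tz q r := hn
    calc Ovl (EE γ ψ) q r ≤ 12 * ψ q * ψ r := hle.trans h1
      _ = 12 * (ψ q * ψ r) := by ring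
      _ ≤ 12 * (tt q r (ψ q) (ψ r) * ((Nat.gcd q r : ℝ) * min (ψ q / q) (ψ r / r))) := by linarith
      _ ≤ 12 * (Tz q r * ((Nat.gcd q r : ℝ) * min (ψ q / q) (ψ r / r))) :=
          mul_le_mul_of_nonneg_left (mul_le_mul_of_nonneg_right hn'.le hm0) (by norm_num)
      _ = 12 * Tz q r * ((Nat.gcd q r : ℝ) * min (ψ q / q) (ψ r / r)) := by ring

/-- The pairs handled by the lattice dichotomy. -/
def GoodPair (γ : ℝ) (ψ : ℕ → ℝ) (y q r : ℕ) : Prop :=
  tt q r (ψ q) (ψ r) < 1 / 2 ∧ (EE γ ψ q ∩ EE γ ψ r).Nonempty ∧ yc r = y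

open scoped Classical in
/-- The bound per (modulus, gcd, class). Pairs with `t < 1/2` come from `hS_of_lines`, with an
arbitrarily large `Lam`, since by `no_line_N` and `no_line_T` its line hypotheses are vacuous.
Pairs with `t ≥ 1/2` come from `typeI_le` and `card_multiples_level`. -/
theorem near_count (γ : ℝ) (ψ : ℕ → ℝ) (B : Finset ℕ) (hB : BlockOK ψ B)
    (hBad : ∀ q ∈ B, BadOK γ ψ q) :
    ∀ q ∈ B, ∀ d : ℕ, 0 < d → ∀ j l y : ℕ, lev q ≤ j →
      ∑ r ∈ B.filter (fun r => cl3 ψ r = (j, l, y) ∧ q < r ∧ Nat.gcd q r = d ∧ Near ψ q r),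
          Ovl (EE γ ψ) q r
        ≤ 61812 * (lam (ell ((q : ℝ) * ψ q)) * lam l) / (pw (lev q) * d) := by
  intro q hq d hd j l y hj
  set F := B.filter (fun r => cl3 ψ r = (j, l, y) ∧ q < r ∧ Nat.gcd q r = d ∧ Near ψ q r) with hF
  set Q := pw (lev q) with hQdef
  set R := pw j with hRdef
  set A₁ := lam (ell ((q : ℝ) * ψ q)) with hA₁
  set A₂ := lam l with hA₂
  have hQ : 0 < Q := pw_pos _
  have hR : 0 < R := pw_pos _
  have hA₁p : 0 < A₁ := lam_pos _
  have hA₂p : 0 < A₂ := lam_pos _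
  have hdR : (0 : ℝ) < d := by exact_mod_cast hd
  -- facts for members of the family
  have hfacts : ∀ r ∈ F, r ∈ B ∧ lev r = j ∧ ell ((r : ℝ) * ψ r) = l ∧ yc r = y ∧ q < r
      ∧ Nat.gcd q r = d := by
    intro r hr
    obtain ⟨hrB, hcl, hqr, hg, -⟩ := Finset.mem_filter.mp hr
    have h1 : lev r = j := congrArg Prod.fst hcl
    have h2 : ell ((r : ℝ) * ψ r) = l := congrArg (fun z => z.2.1) hcl
    have h3 : yc r = y := congrArg (fun z => z.2.2) hcl
    exact ⟨hrB, h1, h2, h3, hqr, hg⟩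
  -- the size of psi
  have hψ_le : ∀ r ∈ B, ψ r ≤ lam (ell ((r : ℝ) * ψ r)) / pw (lev r) := by
    intro r hr
    have h2 := hB.two_le r hr
    have hr0 : 0 < r := by omega
    have hrR : (0 : ℝ) < r := by exact_mod_cast hr0
    have hψ := hB.psi_pos r hr
    have hl := (ell_spec ((r : ℝ) * ψ r) (mul_pos hrR hψ) (hB.psi_le r hr)).2
    have hlev := (lev_spec r hr0).1
    rw [le_div_iff₀ (pw_pos _)]
    calc ψ r * pw (lev r) ≤ ψ r * r := mul_le_mul_of_nonneg_left hlev hψ.le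
      _ = (r : ℝ) * ψ r := by ring
      _ ≤ _ := hl
  have hψ_half : ∀ r ∈ B, ψ r ≤ 1 / 2 := by
    intro r hr
    have h2 : (2 : ℝ) ≤ r := by exact_mod_cast hB.two_le r hr
    have hψ := hB.psi_pos r hr
    have hle := hB.psi_le r hr
    nlinarith
  -- split by the size of t
  have hsplit := Finset.sum_filter_add_sum_filter_not F
    (fun r => tt q r (ψ q) (ψ r) < 1 / 2) (fun r => Ovl (EE γ ψ) q r)
  -- first part
  have hpart1 : ∑ r ∈ F.filter (fun r => tt q r (ψ q) (ψ r) < 1 / 2), Ovl (EE γ ψ) q r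
      ≤ 61440 * (A₁ * A₂) / (Q * d) := by
    have key : ∀ L : ℝ, 0 < L →
        ∑ r ∈ F.filter (fun r => tt q r (ψ q) (ψ r) < 1 / 2), Ovl (EE γ ψ) q r
          ≤ 61440 * (A₁ * A₂) / (Q * d) + 128 * kap (lev q) (ell ((q : ℝ) * ψ q)) j l / (Q * L) := by
      intro L hL
      have hS := hS_of_lines γ ψ B hB (EE γ ψ) (isOpen_EE γ ψ) (EE_subset γ ψ) (GoodPair γ ψ y) (fun _ => L)
        (fun _ => hL) (fun q r h => ⟨h.1, h.2.1⟩)
        (fun q hq r hr hqr hG _ u hz =>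
          (no_line_N γ ψ q r (hBad q hq) (hBad r hr) hqr hG.1 hG.2.1 u hz).elim)
        (fun q hq r hr hqr hG _ u hz =>
          (no_line_T γ ψ q r (hBad q hq) (hBad r hr) hqr hG.1 hG.2.1 u hz).elim)
        q hq d hd j l hj
      refine le_trans ?_ hS
      -- drop the pairs that do not meet
      have h0 : ∑ r ∈ F.filter (fun r => tt q r (ψ q) (ψ r) < 1 / 2), Ovl (EE γ ψ) q r
          = ∑ r ∈ (F.filter (fun r => tt q r (ψ q) (ψ r) < 1 / 2)).filter
              (fun r => (EE γ ψ q ∩ EE γ ψ r).Nonempty), Ovl (EE γ ψ) q r := by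
        symm
        apply Finset.sum_filter_of_ne
        intro r _ hne
        by_contra hcon
        exact hne (Ovl_eq_zero _ _ _ hcon)
      rw [h0]
      refine Finset.sum_le_sum_of_subset_of_nonneg ?_ (fun _ _ _ => Ovl_nonneg _ _ _)
      intro r hr
      obtain ⟨hr1, hmeet⟩ := Finset.mem_filter.mp hr
      obtain ⟨hr2, htt⟩ := Finset.mem_filter.mp hr1
      obtain ⟨hrB, h1, h2, h3, hqr, hg⟩ := hfacts r hr2
      exact Finset.mem_filter.mpr ⟨hrB, Prod.ext h1 h2, hqr, hg, htt, hmeet, h3⟩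
    refine le_of_forall_pos_le_add fun ε hε => ?_
    set K := kap (lev q) (ell ((q : ℝ) * ψ q)) j l with hK
    have hKp : 0 < K := kap_pos _ _ _ _
    have hLpos : 0 < 128 * K / (Q * ε) := by positivity
    refine (key _ hLpos).trans (le_of_eq ?_)
    congr 1
    field_simp
  -- second part
  have hpart2 : ∑ r ∈ F.filter (fun r => ¬ tt q r (ψ q) (ψ r) < 1 / 2), Ovl (EE γ ψ) q r
      ≤ 372 * (A₁ * A₂) / (Q * d) := by
    set G := F.filter (fun r => ¬ tt q r (ψ q) (ψ r) < 1 / 2) with hG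
    rcases G.eq_empty_or_nonempty with hempty | ⟨r0, hr0⟩
    · rw [hempty]
      simp only [Finset.sum_empty]
      positivity
    have hψq := hψ_le q hq
    have hq2 := hB.two_le q hq
    have hq0 : 0 < q := by omega
    have hterm : ∀ r ∈ G, Ovl (EE γ ψ) q r ≤ 12 * ((A₁ / Q) * (A₂ / R)) := by
      intro r hr
      obtain ⟨hr2, htt⟩ := Finset.mem_filter.mp hr
      obtain ⟨hrB, h1, h2, h3, hqr, hg⟩ := hfacts r hr2
      have hr0' : 0 < r := by omega
      have hle := Ovl_le γ ψ (EE γ ψ) (isOpen_EE γ ψ) (EE_subset γ ψ) q r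
      have hty := typeI_le (γ := γ) hq0 hr0' (hB.psi_pos q hq).le (hψ_half q hq)
        (hB.psi_pos r hrB).le (hψ_half r hrB) (not_lt.mp htt)
      have hψr := hψ_le r hrB
      rw [h1, h2] at hψr
      have hprod : ψ q * ψ r ≤ (A₁ / Q) * (A₂ / R) :=
        mul_le_mul hψq hψr (hB.psi_pos r hrB).le (by positivity)
      calc Ovl (EE γ ψ) q r ≤ 12 * ψ q * ψ r := hle.trans hty
        _ = 12 * (ψ q * ψ r) := by ring
        _ ≤ _ := mul_le_mul_of_nonneg_left hprod (by norm_num)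
    obtain ⟨hr02, -⟩ := Finset.mem_filter.mp hr0
    obtain ⟨_, h01, _, _, hqr0, hg0⟩ := hfacts r0 hr02
    have hd16 : d < 16 ^ (j + 1) := by
      have hr0pos : r0 ≠ 0 := by omega
      have h1 : r0 < 16 ^ (Nat.log 16 r0 + 1) := Nat.lt_pow_succ_log_self (by norm_num) r0
      have h2 : Nat.log 16 r0 = j := h01
      rw [h2] at h1
      have h3 : d ≤ q := by
        rw [← hg0]
        exact Nat.le_of_dvd hq0 (Nat.gcd_dvd_left q r0)
      omega
    have hcard : (G.card : ℝ) ≤ 31 * R / d := by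
      refine le_trans ?_ (card_multiples_level j d hd hd16)
      have hsub : G ⊆ (Finset.Ico (16 ^ j) (16 ^ (j + 1))).filter (fun q => d ∣ q) := by
        intro r hr
        obtain ⟨hr2, htt⟩ := Finset.mem_filter.mp hr
        obtain ⟨hrB, h1, h2, h3, hqr, hg⟩ := hfacts r hr2
        have hrne : r ≠ 0 := by omega
        have h4 : 16 ^ Nat.log 16 r ≤ r := Nat.pow_log_le_self 16 hrne
        have h5 : r < 16 ^ (Nat.log 16 r + 1) := Nat.lt_pow_succ_log_self (by norm_num) r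
        have h6 : Nat.log 16 r = j := h1
        rw [h6] at h4 h5
        refine Finset.mem_filter.mpr ⟨Finset.mem_Ico.mpr ⟨h4, h5⟩, ?_⟩
        rw [← hg]
        exact Nat.gcd_dvd_right q r
      exact_mod_cast Finset.card_le_card hsub
    calc ∑ r ∈ G, Ovl (EE γ ψ) q r ≤ ∑ _r ∈ G, 12 * ((A₁ / Q) * (A₂ / R)) :=
          Finset.sum_le_sum hterm
      _ = (G.card : ℝ) * (12 * ((A₁ / Q) * (A₂ / R))) := by
          rw [Finset.sum_const, nsmul_eq_mul]
      _ ≤ (31 * R / d) * (12 * ((A₁ / Q) * (A₂ / R))) :=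
          mul_le_mul_of_nonneg_right hcard (by positivity)
      _ = 372 * (A₁ * A₂) / (Q * d) := by
          field_simp
          ring
  rw [← hsplit]
  have e : 61812 * (A₁ * A₂) / (Q * (d : ℝ))
      = 61440 * (A₁ * A₂) / (Q * d) + 372 * (A₁ * A₂) / (Q * d) := by
    field_simp
    ring
  rw [e]
  exact add_le_add hpart1 hpart2

end Vale.Agent.Lib.P028F
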