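import Vale.Agent.Lib.P028F.Defs

/-! Bounds for the density in terms of the profile, and the rarity of large profiles. -/

open MeasureTheory Set Filter Topology
open Vale.Agent.Lib.P028 Vale.Agent.Lib.P028E

namespace Vale.Agent.Lib.P028F

private lemma eul_factor_nonneg {p : ℕ} (hp : 1 ≤ p) : 0 ≤ 1 - ((p : ℝ))⁻¹ := by
  have h1 : (1 : ℝ) ≤ p := by exact_mod_cast hp
  have := inv_le_one_of_one_le₀ h1
  linarith

private lemma eul_factor_le_one (p : ℕ) : 1 - ((p : ℝ))⁻¹ ≤ 1 := by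
  have : (0 : ℝ) ≤ (p : ℝ)⁻¹ := by positivity
  linarith

private lemma eul_Icc (y : ℕ) (hy : 1 ≤ y) : MoebiusAux.eul (Finset.Icc 2 y) = (1 : ℝ) / y := by
  induction y, hy using Nat.le_induction with
  | base => simp [MoebiusAux.eul]
  | succ y hy ih =>
    have hins : Finset.Icc 2 (y + 1) = insert (y + 1) (Finset.Icc 2 y) := by
      ext a
      simp only [Finset.mem_Icc, Finset.mem_insert]
      omega
    have hnot : (y + 1) ∉ Finset.Icc 2 y := by
      simp only [Finset.mem_Icc]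
      omega
    have h0 : MoebiusAux.eul (insert (y + 1) (Finset.Icc 2 y))
        = (1 - (((y + 1 : ℕ) : ℝ))⁻¹) * MoebiusAux.eul (Finset.Icc 2 y) := by
      unfold MoebiusAux.eul
      rw [Finset.prod_insert hnot]
    rw [hins, h0, ih]
    have hy0 : (0 : ℝ) < y := by exact_mod_cast hy
    push_cast
    field_simp
    ring

private lemma eul_mono {E F : Finset ℕ} (hEF : E ⊆ F) (hF : ∀ p ∈ F, 1 ≤ p) :
    MoebiusAux.eul F ≤ MoebiusAux.eul E := by
  unfold MoebiusAux.eul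
  rw [← Finset.prod_sdiff hEF]
  have hE : 0 ≤ ∏ p ∈ E, (1 - ((p : ℝ))⁻¹) :=
    Finset.prod_nonneg fun p hp => eul_factor_nonneg (hF p (hEF hp))
  have hsd : ∏ p ∈ F \ E, (1 - ((p : ℝ))⁻¹) ≤ 1 :=
    Finset.prod_le_one (fun p hp => eul_factor_nonneg (hF p (Finset.sdiff_subset hp)))
      (fun p _ => eul_factor_le_one p)
  nlinarith

/-- `∏_{p ∈ E} (1 - 1/p) ≥ 1/y` when `E ⊆ [2, y]`. -/
theorem eul_ge_of_le (E : Finset ℕ) (y : ℕ) (hy : 1 ≤ y) (hE : ∀ p ∈ E, 2 ≤ p ∧ p ≤ y) :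
    (1 : ℝ) / y ≤ MoebiusAux.eul E := by
  rw [← eul_Icc y hy]
  apply eul_mono
  · intro p hp
    exact Finset.mem_Icc.mpr (hE p hp)
  · intro p hp
    have := (Finset.mem_Icc.mp hp).1
    omega

/-- `∏_{p ∈ T} (1 - 1/p) ≥ exp (-2 ∑_{p ∈ T} 1/p)`. -/
theorem eul_tail_ge (T : Finset ℕ) (hT : ∀ p ∈ T, 2 ≤ p) :
    Real.exp (-2 * ∑ p ∈ T, (1 / (p : ℝ))) ≤ MoebiusAux.eul T := by
  have h1 : Real.exp (-2 * ∑ p ∈ T, (1 / (p : ℝ))) = ∏ p ∈ T, Real.exp (-2 * (1 / (p : ℝ))) := by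
    rw [Finset.mul_sum, Real.exp_sum]
  rw [h1]
  unfold MoebiusAux.eul
  apply Finset.prod_le_prod
  · intro p _
    exact (Real.exp_pos _).le
  · intro p hp
    have hp2 : (2 : ℝ) ≤ p := by exact_mod_cast hT p hp
    set u : ℝ := 1 / (p : ℝ) with hu
    have hu0 : 0 < u := by positivity
    have hu2 : u ≤ 1 / 2 := by
      rw [hu]
      exact one_div_le_one_div_of_le (by norm_num) hp2
    have hinv : ((p : ℝ))⁻¹ = u := by rw [hu, one_div]
    rw [hinv]
    have h2 : 1 + 2 * u ≤ Real.exp (2 * u) := by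
      have := Real.add_one_le_exp (2 * u)
      linarith
    have h3 : Real.exp (-2 * u) = (Real.exp (2 * u))⁻¹ := by
      rw [← Real.exp_neg]
      congr 1
      ring
    rw [h3]
    have hpos : 0 < 1 + 2 * u := by linarith
    have h4 : (Real.exp (2 * u))⁻¹ ≤ (1 + 2 * u)⁻¹ := inv_anti₀ hpos h2
    have h5 : (1 + 2 * u)⁻¹ ≤ 1 - u := by
      rw [inv_le_iff_one_le_mul₀ hpos]
      nlinarith
    linarith

theorem smallP_spec (γ s : ℝ) (q : ℕ) :
    ∀ p ∈ smallP γ s q, p.Prime ∧ p ∣ q ∧ ¬ ((p : ℤ) ∣ (sv γ s).1) ∧ p ≤ yc q := by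
  classical
  intro p hp
  simp only [smallP, Pk, Finset.mem_filter, Nat.mem_primeFactors] at hp
  exact ⟨hp.1.1.1, hp.1.1.2.1, hp.1.2, hp.2⟩

theorem smallP_card (γ s : ℝ) (q : ℕ) : (smallP γ s q).card ≤ yc q := by
  classical
  have hsub : smallP γ s q ⊆ Finset.Icc 1 (yc q) := by
    intro p hp
    have h := smallP_spec γ s q p hp
    exact Finset.mem_Icc.mpr ⟨h.1.one_lt.le, h.2.2.2⟩
  calc (smallP γ s q).card ≤ (Finset.Icc 1 (yc q)).card := Finset.card_le_card hsub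
    _ = yc q := by simp

private lemma Pk_prime (k : ℤ) (q : ℕ) : ∀ p ∈ Pk k q, p.Prime := by
  classical
  intro p hp
  simp only [Pk, Finset.mem_filter, Nat.mem_primeFactors] at hp
  exact hp.1.1

/-- The density is `≥ cA` times the Euler factor of the small primes. -/
theorem eul_small_le (γ s : ℝ) (q : ℕ) :
    MoebiusAux.eul (smallP γ s q) ≤ dens γ s q / cA := by
  classical
  set P := Pk (sv γ s).1 q with hP
  have hPprime : ∀ p ∈ P, p.Prime := Pk_prime _ _
  have hsmall : smallP γ s q ⊆ P := Finset.filter_subset _ _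
  set T := P \ smallP γ s q with hT
  have hsplit : dens γ s q = MoebiusAux.eul (smallP γ s q) * MoebiusAux.eul T := by
    unfold dens MoebiusAux.eul
    rw [mul_comm, Finset.prod_sdiff hsmall]
  have hT2 : ∀ p ∈ T, 2 ≤ p := fun p hp => (hPprime p (Finset.sdiff_subset hp)).two_le
  have htail := eul_tail_ge T hT2
  have hsub : T ⊆ q.primeFactors.filter (fun p : ℕ => yc q < p) := by
    intro p hp
    have hp' := Finset.mem_sdiff.mp hp
    have h1 : p ∈ q.primeFactors := (Finset.mem_filter.mp hp'.1).1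
    refine Finset.mem_filter.mpr ⟨h1, ?_⟩
    by_contra hle
    apply hp'.2
    exact Finset.mem_filter.mpr ⟨hp'.1, by omega⟩
  have hsum : ∑ p ∈ T, (1 / (p : ℝ)) ≤ 66 := by
    calc ∑ p ∈ T, (1 / (p : ℝ)) ≤ ∑ p ∈ q.primeFactors.filter (fun p : ℕ => yc q < p), (1 / (p : ℝ)) :=
          Finset.sum_le_sum_of_subset_of_nonneg hsub (fun _ _ _ => by positivity)
      _ ≤ 66 := tailsum_yc q
  have hcA : cA ≤ MoebiusAux.eul T := by
    refine le_trans ?_ htail
    unfold cA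
    apply Real.exp_le_exp.mpr
    linarith
  have hsm0 : 0 ≤ MoebiusAux.eul (smallP γ s q) :=
    MoebiusAux.eul_nonneg _ (fun p hp => hPprime p (hsmall hp))
  rw [le_div_iff₀ cA_pos, hsplit]
  exact mul_le_mul_of_nonneg_left hcA hsm0

/-- The density is at least `cA / yc q`. -/
theorem dens_ge (γ s : ℝ) (q : ℕ) : cA / (yc q : ℝ) ≤ dens γ s q := by
  classical
  have h1 : (1 : ℝ) / (yc q) ≤ MoebiusAux.eul (smallP γ s q) := by
    apply eul_ge_of_le _ _ (yc_pos q)
    intro p hp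
    have h := smallP_spec γ s q p hp
    exact ⟨h.1.two_le, h.2.2.2⟩
  have h2 := eul_small_le γ s q
  have h3 : (1 : ℝ) / (yc q) ≤ dens γ s q / cA := le_trans h1 h2
  rw [le_div_iff₀ cA_pos] at h3
  calc cA / (yc q : ℝ) = 1 / (yc q : ℝ) * cA := by ring
    _ ≤ dens γ s q := h3

theorem dens_le_one (γ s : ℝ) (q : ℕ) : dens γ s q ≤ 1 := by
  classical
  exact MoebiusAux.eul_le_one _ (Pk_prime _ _)

/-- The density is at least `φ(q)/q`. -/
theorem totient_le_dens (γ s : ℝ) (q : ℕ) (hq : 0 < q) :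
    (Nat.totient q : ℝ) / q ≤ dens γ s q := by
  classical
  have hq0 : (0 : ℝ) < q := by exact_mod_cast hq
  have htot : (Nat.totient q : ℝ) / q = MoebiusAux.eul q.primeFactors := by
    have h := Nat.totient_eq_mul_prod_factors q
    have h' : (Nat.totient q : ℝ) = q * ∏ p ∈ q.primeFactors, (1 - ((p : ℝ))⁻¹) := by
      have h2 := congrArg (fun x : ℚ => (x : ℝ)) h
      simp only [Rat.cast_natCast, Rat.cast_mul, Rat.cast_prod, Rat.cast_sub, Rat.cast_one,
        Rat.cast_inv] at h2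
      exact h2
    rw [h']
    unfold MoebiusAux.eul
    field_simp
  rw [htot]
  unfold dens
  apply eul_mono
  · exact Finset.filter_subset _ _
  · intro p hp
    exact (Nat.prime_of_mem_primeFactors hp).one_lt.le

end Vale.Agent.Lib.P028F
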