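import Vale.Agent.Lib.P028F.Sieve
import Vale.Agent.Lib.P028F.Rough
import Vale.Agent.Lib.P028F.NearCount

/-! Far pairs and the diagonal, through the sieved arc sets. -/

open MeasureTheory Set Filter Topology
open Vale.Agent.Lib.P028 Vale.Agent.Lib.P028E

namespace Vale.Agent.Lib.P028F

/-- The thin set lies in the sieved set of the small primes. -/
theorem EE_subset_sieve (γ : ℝ) (ψ : ℕ → ℝ) (q : ℕ) :
    EE γ ψ q ⊆ sieveSet q γ (ψ q) (sv γ (ψ q)).1 (sv γ (ψ q)).2 (smallP γ (ψ q) q) := by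
  rintro x ⟨a, ha, hx⟩
  refine ⟨a, hx, ?_⟩
  intro p hp hdvd
  obtain ⟨hpp, hpq, -, -⟩ := smallP_spec γ (ψ q) q p hp
  have hcop : IsCoprime ((sv γ (ψ q)).1 * a - (sv γ (ψ q)).2) (q : ℤ) := ha
  have hpq' : (p : ℤ) ∣ (q : ℤ) := by exact_mod_cast hpq
  have hu : IsUnit (p : ℤ) := hcop.isUnit_of_dvd' hdvd hpq'
  have hne : ¬ IsUnit (p : ℤ) := by
    rw [Int.isUnit_iff_natAbs_eq]
    simpa using hpp.one_lt.ne'
  exact hne hu

private theorem ind_mono {S T : Set ℝ} (h : S ⊆ T) (x : ℝ) : ind S x ≤ ind T x := by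
  unfold ind
  exact Set.indicator_le_indicator_of_subset h (fun _ => zero_le_one) x

private theorem ind_le_one (S : Set ℝ) (x : ℝ) : ind S x ≤ 1 := by
  unfold ind
  exact Set.indicator_le_self' (fun _ _ => zero_le_one) x

private theorem ind_meas {S : Set ℝ} (hS : MeasurableSet S) : Measurable (ind S) := by
  unfold ind
  exact measurable_const.indicator hS

private theorem ii_ind {S : Set ℝ} (hS : MeasurableSet S) :
    IntervalIntegrable (ind S) volume 0 1 := by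
  refine intervalIntegrable_of_bdd (ind_meas hS) 1 (fun x => ?_) 0 1
  rw [abs_of_nonneg (ind_nonneg S x)]
  exact ind_le_one S x

private theorem ii_ind_mul {S T : Set ℝ} (hS : MeasurableSet S) (hT : MeasurableSet T) :
    IntervalIntegrable (fun x => ind S x * ind T x) volume 0 1 := by
  refine intervalIntegrable_of_bdd ((ind_meas hS).mul (ind_meas hT)) 1 (fun x => ?_) 0 1
  have h0 : (ind S * ind T) x = ind S x * ind T x := rfl
  rw [h0, abs_of_nonneg (mul_nonneg (ind_nonneg S x) (ind_nonneg T x))]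
  exact mul_le_one₀ (ind_le_one S x) (ind_nonneg T x) (ind_le_one T x)

private theorem eul_small_nonneg (γ s : ℝ) (q : ℕ) : 0 ≤ MoebiusAux.eul (smallP γ s q) :=
  MoebiusAux.eul_nonneg _ (fun p hp => (smallP_spec γ s q p hp).1)

/-- The diagonal. -/
theorem diag_le (γ : ℝ) (ψ : ℕ → ℝ) (q : ℕ) (hq : 0 < q) (h0 : 0 ≤ ψ q) (h1 : ψ q ≤ 1 / 2) :
    Ovl (EE γ ψ) q q ≤ 2 / cA * (ψ q * dens γ (ψ q) q) := by
  set S := sieveSet q γ (ψ q) (sv γ (ψ q)).1 (sv γ (ψ q)).2 (smallP γ (ψ q) q) with hS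
  have hSo : MeasurableSet S := (isOpen_sieveSet _ _ _ _ _ _).measurableSet
  have hEo : MeasurableSet (EE γ ψ q) := (isOpen_EE γ ψ q).measurableSet
  have hsub : EE γ ψ q ⊆ S := EE_subset_sieve γ ψ q
  have hE : ∀ p ∈ smallP γ (ψ q) q, p.Prime ∧ p ∣ q ∧ ¬ ((p : ℤ) ∣ (sv γ (ψ q)).1) :=
    fun p hp => ⟨(smallP_spec γ (ψ q) q p hp).1, (smallP_spec γ (ψ q) q p hp).2.1,
      (smallP_spec γ (ψ q) q p hp).2.2.1⟩
  have h2 : Ovl (EE γ ψ) q q ≤ ∫ x in (0:ℝ)..1, ind S x := by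
    unfold Ovl
    apply intervalIntegral.integral_mono_on (by norm_num) (ii_ind_mul hEo hEo) (ii_ind hSo)
    intro x _
    calc ind (EE γ ψ q) x * ind (EE γ ψ q) x
        ≤ 1 * ind (EE γ ψ q) x :=
          mul_le_mul_of_nonneg_right (ind_le_one _ x) (ind_nonneg _ x)
      _ = ind (EE γ ψ q) x := one_mul _
      _ ≤ ind S x := ind_mono hsub x
  have h3 := sieve_measure q hq γ (ψ q) h0 h1 (sv γ (ψ q)).1 (sv γ (ψ q)).2
    (smallP γ (ψ q) q) hE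
  rw [← hS] at h3
  have h4 := eul_small_le γ (ψ q) q
  have h5 : 2 * ψ q * MoebiusAux.eul (smallP γ (ψ q) q) ≤ 2 * ψ q * (dens γ (ψ q) q / cA) :=
    mul_le_mul_of_nonneg_left h4 (by positivity)
  calc Ovl (EE γ ψ) q q ≤ ∫ x in (0:ℝ)..1, ind S x := h2
    _ = 2 * ψ q * MoebiusAux.eul (smallP γ (ψ q) q) := h3
    _ ≤ 2 * ψ q * (dens γ (ψ q) q / cA) := h5
    _ = 2 / cA * (ψ q * dens γ (ψ q) q) := by ring

private theorem half_pow_le_inv (y : ℕ) (hy : 1 ≤ y) : (1 / 2 : ℝ) ^ y ≤ 1 / (y : ℝ) := by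
  have hlt : (y : ℝ) ≤ (2 : ℝ) ^ y := by
    exact_mod_cast (Nat.lt_two_pow_self (n := y)).le
  have hy0 : (0 : ℝ) < y := by exact_mod_cast hy
  rw [one_div_pow]
  exact one_div_le_one_div_of_le hy0 hlt

private theorem half_pow_le_dens (γ s : ℝ) (q : ℕ) :
    (1 / 2 : ℝ) ^ yc q ≤ dens γ s q / cA := by
  have h1 := half_pow_le_inv (yc q) (yc_pos q)
  have h2 := dens_ge γ s q
  have hc := cA_pos
  have h3 : 1 / (yc q : ℝ) ≤ dens γ s q / cA := by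
    rw [le_div_iff₀ hc]
    calc 1 / (yc q : ℝ) * cA = cA / (yc q : ℝ) := by ring
      _ ≤ dens γ s q := h2
  exact h1.trans h3

/-- A far pair. -/
theorem far_pair (γ : ℝ) (ψ : ℕ → ℝ) (q r : ℕ) (hq : 0 < q) (hr : 0 < r) (hq0 : 0 ≤ ψ q)
    (hq1 : ψ q ≤ 1 / 2) (hr0 : 0 ≤ ψ r) (hr1 : ψ r ≤ 1 / 2) (hfar : ¬ Near ψ q r) :
    Ovl (EE γ ψ) q r ≤ 8 / cA ^ 2 * ((ψ q * dens γ (ψ q) q) * (ψ r * dens γ (ψ r) r)) := by
  set S₁ := sieveSet q γ (ψ q) (sv γ (ψ q)).1 (sv γ (ψ q)).2 (smallP γ (ψ q) q) with hS₁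
  set S₂ := sieveSet r γ (ψ r) (sv γ (ψ r)).1 (sv γ (ψ r)).2 (smallP γ (ψ r) r) with hS₂
  have hS₁o : MeasurableSet S₁ := (isOpen_sieveSet _ _ _ _ _ _).measurableSet
  have hS₂o : MeasurableSet S₂ := (isOpen_sieveSet _ _ _ _ _ _).measurableSet
  have hE₁o : MeasurableSet (EE γ ψ q) := (isOpen_EE γ ψ q).measurableSet
  have hE₂o : MeasurableSet (EE γ ψ r) := (isOpen_EE γ ψ r).measurableSet
  have hsub₁ : EE γ ψ q ⊆ S₁ := EE_subset_sieve γ ψ q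
  have hsub₂ : EE γ ψ r ⊆ S₂ := EE_subset_sieve γ ψ r
  have hE₁ : ∀ p ∈ smallP γ (ψ q) q, p.Prime ∧ p ∣ q ∧ ¬ ((p : ℤ) ∣ (sv γ (ψ q)).1) :=
    fun p hp => ⟨(smallP_spec γ (ψ q) q p hp).1, (smallP_spec γ (ψ q) q p hp).2.1,
      (smallP_spec γ (ψ q) q p hp).2.2.1⟩
  have hE₂ : ∀ p ∈ smallP γ (ψ r) r, p.Prime ∧ p ∣ r ∧ ¬ ((p : ℤ) ∣ (sv γ (ψ r)).1) :=
    fun p hp => ⟨(smallP_spec γ (ψ r) r p hp).1, (smallP_spec γ (ψ r) r p hp).2.1,
      (smallP_spec γ (ψ r) r p hp).2.2.1⟩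
  have h2 : Ovl (EE γ ψ) q r ≤ ∫ x in (0:ℝ)..1, ind S₁ x * ind S₂ x := by
    unfold Ovl
    apply intervalIntegral.integral_mono_on (by norm_num) (ii_ind_mul hE₁o hE₂o)
      (ii_ind_mul hS₁o hS₂o)
    intro x _
    exact mul_le_mul (ind_mono hsub₁ x) (ind_mono hsub₂ x) (ind_nonneg _ x) (ind_nonneg _ x)
  have h3 := sieve_overlap q r hq hr γ (ψ q) (ψ r) hq0 hq1 hr0 hr1 (sv γ (ψ q)).1 (sv γ (ψ q)).2
    (sv γ (ψ r)).1 (sv γ (ψ r)).2 (smallP γ (ψ q) q) (smallP γ (ψ r) r) hE₁ hE₂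
  rw [← hS₁, ← hS₂] at h3
  have hc := cA_pos
  set a := dens γ (ψ q) q / cA with ha
  set b := dens γ (ψ r) r / cA with hb
  have hε₁ := eul_small_le γ (ψ q) q
  have hε₂ := eul_small_le γ (ψ r) r
  have hε₁0 := eul_small_nonneg γ (ψ q) q
  have hε₂0 := eul_small_nonneg γ (ψ r) r
  have ha0 : 0 ≤ a := hε₁0.trans hε₁
  have hb0 : 0 ≤ b := hε₂0.trans hε₂
  have hst : 0 ≤ ψ q * ψ r := mul_nonneg hq0 hr0
  -- the main term
  have hmain : 4 * ψ q * ψ r * MoebiusAux.eul (smallP γ (ψ q) q) *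
      MoebiusAux.eul (smallP γ (ψ r) r) ≤ 4 * (ψ q * ψ r) * (a * b) := by
    have : MoebiusAux.eul (smallP γ (ψ q) q) * MoebiusAux.eul (smallP γ (ψ r) r) ≤ a * b :=
      mul_le_mul hε₁ hε₂ hε₂0 ha0
    calc 4 * ψ q * ψ r * MoebiusAux.eul (smallP γ (ψ q) q) * MoebiusAux.eul (smallP γ (ψ r) r)
        = 4 * (ψ q * ψ r) * (MoebiusAux.eul (smallP γ (ψ q) q) *
            MoebiusAux.eul (smallP γ (ψ r) r)) := by ring
      _ ≤ 4 * (ψ q * ψ r) * (a * b) := mul_le_mul_of_nonneg_left this (by positivity)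
  -- the error term
  set m := (Nat.gcd q r : ℝ) * min (ψ q / q) (ψ r / r) with hm
  have hq' : (0 : ℝ) < q := by exact_mod_cast hq
  have hr' : (0 : ℝ) < r := by exact_mod_cast hr
  have hg0 : (0 : ℝ) ≤ (Nat.gcd q r : ℝ) := by positivity
  have hm0 : 0 ≤ m := mul_nonneg hg0 (le_min (by positivity) (by positivity))
  have hT : Tz q r ≤ tt q r (ψ q) (ψ r) := not_lt.mp hfar
  have hTpos := Tz_pos q r
  have htm := (tt_mul_min q r hq hr (ψ q) (ψ r) hq0 hr0).2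
  rw [← hm] at htm
  have hTm : Tz q r * m ≤ 2 * (ψ q * ψ r) :=
    (mul_le_mul_of_nonneg_right hT hm0).trans htm
  have hcard₁ : (2 : ℝ) ^ (smallP γ (ψ q) q).card ≤ (2 : ℝ) ^ yc q :=
    pow_le_pow_right₀ (by norm_num) (smallP_card γ (ψ q) q)
  have hcard₂ : (2 : ℝ) ^ (smallP γ (ψ r) r).card ≤ (2 : ℝ) ^ yc r :=
    pow_le_pow_right₀ (by norm_num) (smallP_card γ (ψ r) r)
  have herr : (2 : ℝ) ^ (smallP γ (ψ q) q).card * (2 : ℝ) ^ (smallP γ (ψ r) r).card * (2 * m)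
      ≤ 4 * (ψ q * ψ r) * (a * b) := by
    have hpowa : (1 / 2 : ℝ) ^ yc q ≤ a := half_pow_le_dens γ (ψ q) q
    have hpowb : (1 / 2 : ℝ) ^ yc r ≤ b := half_pow_le_dens γ (ψ r) r
    have hprod : (1 / 2 : ℝ) ^ yc q * (1 / 2 : ℝ) ^ yc r ≤ a * b :=
      mul_le_mul hpowa hpowb (by positivity) ha0
    have h4 : (2 : ℝ) ^ yc q * (2 : ℝ) ^ yc r * (2 * m)
        = 2 * ((1 / 2 : ℝ) ^ yc q * (1 / 2 : ℝ) ^ yc r) * (Tz q r * m) := by
      have e1 : (2 : ℝ) ^ yc q = (1 / 2 : ℝ) ^ yc q * (4 : ℝ) ^ yc q := by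
        rw [← mul_pow]; norm_num
      have e2 : (2 : ℝ) ^ yc r = (1 / 2 : ℝ) ^ yc r * (4 : ℝ) ^ yc r := by
        rw [← mul_pow]; norm_num
      unfold Tz
      rw [pow_add, e1, e2]
      ring
    calc (2 : ℝ) ^ (smallP γ (ψ q) q).card * (2 : ℝ) ^ (smallP γ (ψ r) r).card * (2 * m)
        ≤ (2 : ℝ) ^ yc q * (2 : ℝ) ^ yc r * (2 * m) := by
          apply mul_le_mul_of_nonneg_right _ (by positivity)
          exact mul_le_mul hcard₁ hcard₂ (by positivity) (by positivity)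
      _ = 2 * ((1 / 2 : ℝ) ^ yc q * (1 / 2 : ℝ) ^ yc r) * (Tz q r * m) := h4
      _ ≤ 2 * (a * b) * (2 * (ψ q * ψ r)) := by
          apply mul_le_mul _ hTm (mul_nonneg hTpos.le hm0) (by positivity)
          exact mul_le_mul_of_nonneg_left hprod (by norm_num)
      _ = 4 * (ψ q * ψ r) * (a * b) := by ring
  have hfinal : 4 * (ψ q * ψ r) * (a * b) + 4 * (ψ q * ψ r) * (a * b)
      = 8 / cA ^ 2 * ((ψ q * dens γ (ψ q) q) * (ψ r * dens γ (ψ r) r)) := by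
    rw [ha, hb]
    field_simp
    ring
  calc Ovl (EE γ ψ) q r ≤ ∫ x in (0:ℝ)..1, ind S₁ x * ind S₂ x := h2
    _ ≤ 4 * ψ q * ψ r * MoebiusAux.eul (smallP γ (ψ q) q) * MoebiusAux.eul (smallP γ (ψ r) r)
        + (2 : ℝ) ^ (smallP γ (ψ q) q).card * (2 : ℝ) ^ (smallP γ (ψ r) r).card *
            (2 * (Nat.gcd q r : ℝ) * min (ψ q / q) (ψ r / r)) := h3
    _ = 4 * ψ q * ψ r * MoebiusAux.eul (smallP γ (ψ q) q) * MoebiusAux.eul (smallP γ (ψ r) r)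
        + (2 : ℝ) ^ (smallP γ (ψ q) q).card * (2 : ℝ) ^ (smallP γ (ψ r) r).card * (2 * m) := by
          rw [hm]; ring
    _ ≤ 4 * (ψ q * ψ r) * (a * b) + 4 * (ψ q * ψ r) * (a * b) := add_le_add hmain herr
    _ = _ := hfinal

end Vale.Agent.Lib.P028F
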