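import Vale.Agent.Lib.P028F.Defs

/-! The moduli whose shortest vector is long: no thinning, no weight. -/

open MeasureTheory Set Filter Topology
open Vale.Agent.Lib.P028 Vale.Agent.Lib.P028E

namespace Vale.Agent.Lib.P028F

/-- A larger scale decreases the norm by at most the ratio. -/
theorem nrm_scale (γ s s' : ℝ) (hs : 0 < s) (hs' : 0 < s') (h : s' ≤ 256 * s) (z : ℤ × ℤ) :
    nrm γ s z ≤ 256 * nrm γ s' z := by
  have h0 := nrm_nonneg γ s' z
  rw [nrm_le_iff γ s (256 * nrm γ s' z) hs z]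
  obtain ⟨h1, h2⟩ := (nrm_le_iff γ s' (nrm γ s' z) hs' z).mp le_rfl
  constructor
  · linarith
  · calc |yv γ z| ≤ 2 * s' * nrm γ s' z := h2
      _ ≤ 2 * (256 * s) * nrm γ s' z := by
          apply mul_le_mul_of_nonneg_right _ h0
          linarith
      _ = 2 * s * (256 * nrm γ s' z) := by ring

theorem summable_LamB : Summable (fun i : ℕ => ((i : ℝ) + 1) / (LamB i / 256)) := by
  have h1 : Summable (fun n : ℕ => 1 / ((n : ℝ) + 1) ^ 2) := by
    have := (summable_nat_add_iff 1).mpr (Real.summable_one_div_nat_pow.mpr (by norm_num : 1 < 2))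
    simpa using this
  refine (h1.mul_left 256).congr (fun i => ?_)
  have : (0 : ℝ) < (i : ℝ) + 1 := by positivity
  unfold LamB
  field_simp

/-- If `ψ` lives on moduli whose shortest vector is long and `∑ ψ = ∞`, then full measure. -/
theorem good_part (γ : ℝ) (ψ : ℕ → ℝ) (h0 : ∀ q, 0 ≤ ψ q) (hL : ∀ q : ℕ, 1 ≤ q → (q : ℝ) * ψ q ≤ 1)
    (hG : ∀ q, 0 < ψ q → LamB (lev q) ≤ nrm γ (ψ q) (sv γ (ψ q))) (hdiv : ¬ Summable ψ) :
    ∀ᵐ x : ℝ, ∃ᶠ q : ℕ in atTop, ∃ a : ℤ, |(q : ℝ) * x - a - γ| < ψ q := by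
  refine family_ae γ ψ h0 hL hdiv (fun q => arcSet q γ (ψ q))
    (fun q => isOpen_arcSet q γ (ψ q)) (fun q => Subset.rfl) (fun _ _ => False)
    (fun i => LamB i / 256) (fun i => div_pos (LamB_pos i) (by norm_num)) summable_LamB 1 0
    one_pos le_rfl (fun N hN => ?_) (fun B hB => ?_) ?_ ?_
  · obtain ⟨q₁, hq₁⟩ := cell_full γ ψ h0 hL N hN
    exact ⟨q₁, fun q hq hψ n hn => by simpa using hq₁ q hq hψ n hn⟩
  · simp
  · intro q r hq hψq hψr hqr ht hmeet hex hcase u hz
    have h1 := hG q hψq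
    have h2 := LamB_pos (lev q)
    linarith
  · intro q r hq hψq hψr hqr ht hmeet hex hcase u hz
    have hq0 : 0 < q := by omega
    have hr0 : 0 < r := by omega
    have hr' : (0 : ℝ) < r := by exact_mod_cast hr0
    have hij := lev_mono hqr.le
    set i := lev q with hi
    set j := lev r with hj
    set l := ell ((r : ℝ) * ψ r) with hl
    have hps := pstar_pos i j l
    set ps := pstar i j l with hpsdef
    -- sizes
    have hLr : (r : ℝ) * ψ r ≤ 1 := hL r (by omega)
    have hLr0 : 0 < (r : ℝ) * ψ r := by positivity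
    obtain ⟨hA1, hA2⟩ := ell_spec _ hLr0 hLr
    rw [← hl] at hA1 hA2
    have hA0 := lam_pos l
    have hR0 := pw_pos j
    have hQ0 := pw_pos i
    obtain ⟨hr1, hr3⟩ := lev_spec r hr0
    rw [← hj] at hr1 hr3
    have hQR : pw i ≤ pw j := by
      unfold pw
      exact pow_le_pow_right₀ (by norm_num) hij
    have hψlo : lam l / (256 * pw j) ≤ ψ r := by
      rw [div_le_iff₀ (by positivity)]
      have h1 : lam l < 16 * ((r : ℝ) * ψ r) := by
        rw [div_lt_iff₀ (by norm_num)] at hA1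
        linarith
      have h2 : (r : ℝ) * ψ r ≤ 16 * pw j * ψ r := mul_le_mul_of_nonneg_right hr3.le hψr.le
      nlinarith
    have hpsup : ps ≤ lam l / pw j := by
      rw [hpsdef]
      unfold pstar
      rw [div_le_div_iff₀ (by positivity) hR0]
      have : pw i * lam l * pw j ≤ pw j * lam l * pw j := by
        apply mul_le_mul_of_nonneg_right _ hR0.le
        exact mul_le_mul_of_nonneg_right hQR hA0.le
      nlinarith
    have h256 : ps ≤ 256 * ψ r := by
      have : lam l / pw j = 256 * (lam l / (256 * pw j)) := by field_simp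
      rw [this] at hpsup
      linarith
    -- the norm
    have hmin := sv_min γ (ψ r) hψr (sv γ ps) (sv_ne_zero γ ps)
    have hsc := nrm_scale γ (ψ r) ps hψr hps h256 (sv γ ps)
    have hg := hG r hψr
    have hmono : LamB i ≤ LamB j := LamB_mono hij
    show LamB i / 256 ≤ nrm γ ps (sv γ ps)
    rw [div_le_iff₀ (by norm_num)]
    linarith

end Vale.Agent.Lib.P028F
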