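import Vale.Agent.Lib.P028F.BadPart
import Vale.Agent.Lib.P028F.GoodPart

/-! The theorem: every shift, weight `φ(q)/q`, truncated `ψ`. -/

open MeasureTheory Set Filter Topology
open Vale.Agent.Lib.P028 Vale.Agent.Lib.P028E

namespace Vale.Agent.Lib.P028F

/-- Dropped moduli: if `f⁴ q < 1` then the term `f(q)/q` is at most `q^(-5/4)`. -/
theorem summable_dropped (f : ℕ → ℝ) (hf : ∀ q, 0 ≤ f q) :
    Summable (fun q : ℕ => if f q ^ 4 * q < 1 then f q / q else 0) := by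
  have h := (Real.summable_one_div_nat_rpow (p := 5 / 4)).mpr (by norm_num)
  refine Summable.of_nonneg_of_le (fun q => ?_) (fun q => ?_) h
  · split_ifs
    · exact div_nonneg (hf q) (Nat.cast_nonneg q)
    · exact le_rfl
  · split_ifs with hc
    · rcases Nat.eq_zero_or_pos q with rfl | hq
      · simp
      · have hq' : (0 : ℝ) < q := by exact_mod_cast hq
        set g : ℝ := (q : ℝ) ^ (-(1 : ℝ) / 4) with hg
        have hg0 : 0 < g := Real.rpow_pos_of_pos hq' _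
        have hg4 : g ^ 4 * q = 1 := by
          have h1 : g ^ 4 = (q : ℝ) ^ (-(1 : ℝ)) := by
            rw [hg, ← Real.rpow_natCast, ← Real.rpow_mul hq'.le]
            norm_num
          rw [h1, Real.rpow_neg_one]
          field_simp
        have hfg : f q ≤ g := by
          by_contra hlt
          push Not at hlt
          have h2 : g ^ 4 ≤ f q ^ 4 := pow_le_pow_left₀ hg0.le hlt.le 4
          have h3 : g ^ 4 * q ≤ f q ^ 4 * q := mul_le_mul_of_nonneg_right h2 hq'.le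
          linarith
        have h5 : (q : ℝ) ^ ((5 : ℝ) / 4) = q / g := by
          rw [hg, Real.rpow_def_of_pos hq', Real.rpow_def_of_pos hq']
          have hqe : (q : ℝ) = Real.exp (Real.log q) := (Real.exp_log hq').symm
          rw [eq_div_iff (Real.exp_pos _).ne', ← Real.exp_add]
          have : Real.log q * (5 / 4) + Real.log q * (-1 / 4) = Real.log q := by ring
          rw [this, Real.exp_log hq']
        rw [h5]
        rw [one_div, inv_div]
        exact div_le_div_of_nonneg_right hfg hq'.le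
    · positivity

open scoped Classical in
/-- The theorem. -/
theorem main_T1 (γ : ℝ) (ψ : ℕ → ℝ) (h0 : ∀ q, 0 ≤ ψ q)
    (hdiv : ¬ Summable (fun q : ℕ => ((Nat.totient q : ℝ) / q) * min (ψ q) (1 / (q : ℝ)))) :
    ∀ᵐ x : ℝ, ∃ᶠ q : ℕ in atTop, ∃ a : ℤ, |(q : ℝ) * x - a - γ| < ψ q := by
  set ψ₁ : ℕ → ℝ := fun q => min (ψ q) (1 / (q : ℝ)) with hψ₁
  have h10 : ∀ q, 0 ≤ ψ₁ q := fun q => le_min (h0 q) (by positivity)
  have h1le : ∀ q, ψ₁ q ≤ ψ q := fun q => min_le_left _ _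
  have h1inv : ∀ q, ψ₁ q ≤ 1 / (q : ℝ) := fun q => min_le_right _ _
  have hL1 : ∀ q : ℕ, 1 ≤ q → (q : ℝ) * ψ₁ q ≤ 1 := by
    intro q hq
    have hq' : (0 : ℝ) < q := by exact_mod_cast hq
    calc (q : ℝ) * ψ₁ q ≤ q * (1 / (q : ℝ)) := mul_le_mul_of_nonneg_left (h1inv q) hq'.le
      _ = 1 := by field_simp
  set Gd : ℕ → Prop := fun q => LamB (lev q) ≤ nrm γ (ψ₁ q) (sv γ (ψ₁ q)) with hGd
  set ψG : ℕ → ℝ := fun q => if Gd q then ψ₁ q else 0 with hψG
  have hG0 : ∀ q, 0 ≤ ψG q := fun q => by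
    simp only [hψG]; split_ifs
    · exact h10 q
    · exact le_rfl
  have hGle : ∀ q, ψG q ≤ ψ₁ q := fun q => by
    simp only [hψG]; split_ifs
    · exact le_rfl
    · exact h10 q
  by_cases hGs : Summable ψG
  swap
  · have H := good_part γ ψG hG0
      (fun q hq => le_trans (mul_le_mul_of_nonneg_left (hGle q) (Nat.cast_nonneg q)) (hL1 q hq))
      (fun q hq => by
        have hc : Gd q := by
          by_contra hc
          simp only [hψG, if_neg hc] at hq
          exact lt_irrefl _ hq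
        have e : ψG q = ψ₁ q := by simp only [hψG, if_pos hc]
        rw [e]
        exact hc) hGs
    exact ae_mono (fun q => (hGle q).trans (h1le q)) H
  -- the second part
  set sel : ℕ → Prop := fun q => ¬ Gd q ∧ 1 ≤ ((q : ℝ) * ψ₁ q) ^ 4 * q ∧
    (q : ℝ) ^ 3 ≤ (Nat.totient q : ℝ) ^ 4 ∧ 16 ^ 8 ≤ q with hsel
  set ψ₂ : ℕ → ℝ := fun q => if sel q then ψ₁ q else 0 with hψ₂
  have h20 : ∀ q, 0 ≤ ψ₂ q := fun q => by
    simp only [hψ₂]; split_ifs
    · exact h10 q
    · exact le_rfl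
  have h2le : ∀ q, ψ₂ q ≤ ψ₁ q := fun q => by
    simp only [hψ₂]; split_ifs
    · exact le_rfl
    · exact h10 q
  have hsel' : ∀ q, 0 < ψ₂ q → sel q ∧ ψ₂ q = ψ₁ q := by
    intro q hq
    have hc : sel q := by
      by_contra hc
      simp only [hψ₂, if_neg hc] at hq
      exact lt_irrefl _ hq
    exact ⟨hc, by simp only [hψ₂, if_pos hc]⟩
  have hL2 : ∀ q : ℕ, 1 ≤ q → (q : ℝ) * ψ₂ q ≤ 1 := fun q hq =>
    le_trans (mul_le_mul_of_nonneg_left (h2le q) (Nat.cast_nonneg q)) (hL1 q hq)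
  have hsupp : ∀ q, 0 < ψ₂ q → BadOK γ ψ₂ q ∧ (q : ℝ) ^ 3 ≤ (Nat.totient q : ℝ) ^ 4 := by
    intro q hq
    obtain ⟨⟨hs1, hs2, hs3, hs4⟩, he⟩ := hsel' q hq
    have hq1 : 1 ≤ q := le_trans (by norm_num) hs4
    refine ⟨⟨hs4, hq, hL2 q hq1, ?_, ?_⟩, hs3⟩
    · rw [he]
      exact not_le.mp hs1
    · rw [he]
      exact hs2
  refine ae_mono (fun q => (h2le q).trans (h1le q)) (bad_part γ ψ₂ h20 hL2 hsupp ?_)
  intro hs
  apply hdiv
  -- domination
  set f1 : ℕ → ℝ := fun q => (q : ℝ) * ψ₁ q with hf1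
  set f2 : ℕ → ℝ := fun q => (Nat.totient q : ℝ) / q with hf2
  have hf10 : ∀ q, 0 ≤ f1 q := fun q => mul_nonneg (Nat.cast_nonneg q) (h10 q)
  have hf20 : ∀ q, 0 ≤ f2 q := fun q => div_nonneg (Nat.cast_nonneg _) (Nat.cast_nonneg q)
  have hD1 := summable_dropped f1 hf10
  have hD2 := summable_dropped f2 hf20
  have hfin : Summable (fun q : ℕ => if q < 16 ^ 8 then (1 : ℝ) else 0) := by
    apply summable_of_hasFiniteSupport
    apply (Set.finite_lt_nat (16 ^ 8)).subset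
    intro q hq
    simp only [Function.mem_support, ne_eq, ite_eq_right_iff, one_ne_zero, imp_false, not_not] at hq
    exact hq
  have hdens0 : ∀ s q, 0 ≤ dens γ s q := fun s q =>
    le_trans (div_nonneg cA_pos.le (Nat.cast_nonneg _)) (dens_ge γ s q)
  have hs0 : ∀ q, 0 ≤ ψ₂ q * dens γ (ψ₂ q) q := fun q => mul_nonneg (h20 q) (hdens0 _ _)
  have hf2le : ∀ q, f2 q ≤ 1 := by
    intro q
    rcases Nat.eq_zero_or_pos q with rfl | hq
    · simp [hf2]
    · have hq' : (0 : ℝ) < q := by exact_mod_cast hq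
      simp only [hf2]
      rw [div_le_one hq']
      exact_mod_cast Nat.totient_le q
  have hsum := ((((hGs.add hs).add hD1).add hD2).add hfin)
  refine Summable.of_nonneg_of_le (fun q => mul_nonneg (hf20 q) (h10 q)) (fun q => ?_) hsum
  show f2 q * ψ₁ q ≤ ψG q + ψ₂ q * dens γ (ψ₂ q) q
    + (if f1 q ^ 4 * q < 1 then f1 q / q else 0) + (if f2 q ^ 4 * q < 1 then f2 q / q else 0)
    + (if q < 16 ^ 8 then 1 else 0)
  have hT1 : 0 ≤ ψG q := hG0 q
  have hT2 : 0 ≤ ψ₂ q * dens γ (ψ₂ q) q := hs0 q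
  have hT3 : 0 ≤ (if f1 q ^ 4 * q < 1 then f1 q / q else 0) := by
    split_ifs
    · exact div_nonneg (hf10 q) (Nat.cast_nonneg q)
    · exact le_rfl
  have hT4 : 0 ≤ (if f2 q ^ 4 * q < 1 then f2 q / q else 0) := by
    split_ifs
    · exact div_nonneg (hf20 q) (Nat.cast_nonneg q)
    · exact le_rfl
  have hT5 : (0 : ℝ) ≤ (if q < 16 ^ 8 then 1 else 0) := by
    split_ifs <;> norm_num
  have hle1 : f2 q * ψ₁ q ≤ ψ₁ q := by
    have := mul_le_mul_of_nonneg_right (hf2le q) (h10 q)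
    linarith
  rcases Nat.eq_zero_or_pos q with rfl | hq
  · have hz : f2 0 * ψ₁ 0 = 0 := by simp [hf2]
    rw [hz]
    exact add_nonneg (add_nonneg (add_nonneg (add_nonneg hT1 hT2) hT3) hT4) hT5
  have hq' : (0 : ℝ) < q := by exact_mod_cast hq
  by_cases c1 : q < 16 ^ 8
  · rw [if_pos c1] at hT5 ⊢
    have : ψ₁ q ≤ 1 := by
      have h := h1inv q
      have h2 : (1 : ℝ) ≤ q := by exact_mod_cast hq
      have h3 : 1 / (q : ℝ) ≤ 1 := by
        rw [div_le_one hq']
        exact h2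
      linarith
    linarith
  by_cases c2 : Gd q
  · have : ψG q = ψ₁ q := by simp only [hψG, if_pos c2]
    rw [if_neg c1]
    linarith
  by_cases c3 : f1 q ^ 4 * q < 1
  · rw [if_pos c3] at hT3 ⊢
    have : f1 q / q = ψ₁ q := by
      simp only [hf1]
      field_simp
    rw [this] at hT3 ⊢
    rw [if_neg c1]
    linarith
  by_cases c4 : f2 q ^ 4 * q < 1
  · rw [if_pos c4] at hT4 ⊢
    have : f2 q * ψ₁ q ≤ f2 q / q := by
      have := mul_le_mul_of_nonneg_left (h1inv q) (hf20 q)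
      calc f2 q * ψ₁ q ≤ f2 q * (1 / (q : ℝ)) := this
        _ = f2 q / q := by ring
    rw [if_neg c1]
    linarith
  -- the selected moduli
  have hsq : sel q := by
    refine ⟨c2, not_lt.mp c3, ?_, not_lt.mp c1⟩
    have h1 : 1 ≤ f2 q ^ 4 * q := not_lt.mp c4
    simp only [hf2] at h1
    have e : ((Nat.totient q : ℝ) / q) ^ 4 * q = (Nat.totient q : ℝ) ^ 4 / (q : ℝ) ^ 3 := by
      field_simp
    rw [e, one_le_div (by positivity)] at h1
    exact h1
  have he : ψ₂ q = ψ₁ q := by simp only [hψ₂, if_pos hsq]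
  have h3 : f2 q ≤ dens γ (ψ₂ q) q := totient_le_dens γ (ψ₂ q) q hq
  have h4 : f2 q * ψ₁ q ≤ ψ₂ q * dens γ (ψ₂ q) q := by
    rw [he] at h3 ⊢
    rw [mul_comm]
    exact mul_le_mul_of_nonneg_left h3 (h10 q)
  rw [if_neg c1]
  linarith

end Vale.Agent.Lib.P028F
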