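import Vale.Agent.Lib.P028F.Defs

/-! The choice of the threshold for the gcd, and the arithmetic of the exponents. -/

open MeasureTheory Set Filter Topology
open Vale.Agent.Lib.P028 Vale.Agent.Lib.P028E

namespace Vale.Agent.Lib.P028F

/-- Choice of `D`: in the first case `D = W ρb / (A S)`, in the second case `D = W ρa / (A T)`. -/
theorem kernel_alg (K S T A B₄ W ρa ρb : ℝ) (hS : 0 < S) (hT : 0 < T) (hA : 0 < A) (hW : 0 < W)
    (hρa : 0 < ρa) (hρb : 0 < ρb) (Lg : ℝ → ℝ) (hLg0 : ∀ D, 0 < D → 0 ≤ Lg D)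
    (hsplit : ∀ D : ℝ, 0 < D → K ≤ A * D * S * T + Lg D)
    (hLg : ∀ D : ℝ, 0 < D → (Lg D) ^ 4 * D ^ 3 ≤ B₄ * S ^ 2)
    (hcond : (B₄ * A ^ 3 * S ≤ W ^ 7 * ρa ^ 4 * ρb ^ 3) ∨
      (B₄ * A ^ 3 * T ≤ 16 * W ^ 7 * ρa ^ 5 * ρb ^ 2)) :
    K ≤ 2 * W * (ρa * S + ρb * T) := by
  rcases hcond with h | h
  · set D := W * ρb / (A * S) with hD
    have hDpos : 0 < D := by positivity
    have hLgle : Lg D ≤ W * ρa * S := by
      by_contra hcon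
      push Not at hcon
      have h1 : (W * ρa * S) ^ 4 < (Lg D) ^ 4 := pow_lt_pow_left₀ hcon (by positivity) (by norm_num)
      have h2 := hLg D hDpos
      have hD3 : 0 < D ^ 3 := by positivity
      have h3 : (W * ρa * S) ^ 4 * D ^ 3 < B₄ * S ^ 2 :=
        lt_of_lt_of_le (mul_lt_mul_of_pos_right h1 hD3) h2
      have h4 : (W * ρa * S) ^ 4 * D ^ 3 = W ^ 7 * ρa ^ 4 * ρb ^ 3 * S / A ^ 3 := by
        rw [hD]; field_simp
      rw [h4, div_lt_iff₀ (by positivity)] at h3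
      have h5 := mul_le_mul_of_nonneg_right h hS.le
      nlinarith
    have hsp := hsplit D hDpos
    have h6 : A * D * S * T = W * ρb * T := by
      rw [hD]; field_simp
    rw [h6] at hsp
    have h7 : 0 ≤ W * ρa * S := by positivity
    have h8 : 0 ≤ W * ρb * T := by positivity
    nlinarith
  · set D := W * ρa / (A * T) with hD
    have hDpos : 0 < D := by positivity
    set U := ρa * S + ρb * T with hU
    have hUpos : 0 < U := by positivity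
    have hLgle : Lg D ≤ W * U := by
      by_contra hcon
      push Not at hcon
      have h1 : (W * U) ^ 4 < (Lg D) ^ 4 := pow_lt_pow_left₀ hcon (by positivity) (by norm_num)
      have h2 := hLg D hDpos
      have hD3 : 0 < D ^ 3 := by positivity
      have h3 : (W * U) ^ 4 * D ^ 3 < B₄ * S ^ 2 :=
        lt_of_lt_of_le (mul_lt_mul_of_pos_right h1 hD3) h2
      have hU4 : 16 * ρa ^ 2 * ρb ^ 2 * S ^ 2 * T ^ 2 ≤ U ^ 4 := by
        have hx : 0 ≤ ρa * S := by positivity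
        have hy : 0 ≤ ρb * T := by positivity
        have h5 : 4 * ((ρa * S) * (ρb * T)) ≤ U ^ 2 := by
          rw [hU]; nlinarith [sq_nonneg (ρa * S - ρb * T)]
        have h6 : 0 ≤ 4 * ((ρa * S) * (ρb * T)) := by positivity
        calc 16 * ρa ^ 2 * ρb ^ 2 * S ^ 2 * T ^ 2 = (4 * ((ρa * S) * (ρb * T))) ^ 2 := by ring
          _ ≤ (U ^ 2) ^ 2 := pow_le_pow_left₀ h6 h5 2
          _ = U ^ 4 := by ring
      have h4 : W ^ 4 * (16 * ρa ^ 2 * ρb ^ 2 * S ^ 2 * T ^ 2) * D ^ 3 =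
          16 * W ^ 7 * ρa ^ 5 * ρb ^ 2 * S ^ 2 / (A ^ 3 * T) := by
        rw [hD]; field_simp
      have h7 : W ^ 4 * (16 * ρa ^ 2 * ρb ^ 2 * S ^ 2 * T ^ 2) * D ^ 3 ≤ (W * U) ^ 4 * D ^ 3 := by
        rw [mul_pow]
        exact mul_le_mul_of_nonneg_right (mul_le_mul_of_nonneg_left hU4 (by positivity)) hD3.le
      have h8 : 16 * W ^ 7 * ρa ^ 5 * ρb ^ 2 * S ^ 2 / (A ^ 3 * T) < B₄ * S ^ 2 := by
        rw [← h4]; linarith
      rw [div_lt_iff₀ (by positivity)] at h8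
      have h9 := mul_le_mul_of_nonneg_right h (by positivity : (0 : ℝ) ≤ S ^ 2)
      nlinarith
    have hsp := hsplit D hDpos
    have h6 : A * D * S * T = W * ρa * S := by
      rw [hD]; field_simp
    rw [h6] at hsp
    have h7 : 0 ≤ W * ρb * T := by positivity
    have h8 : W * U = W * ρa * S + W * ρb * T := by rw [hU]; ring
    have h9 : 2 * W * (ρa * S + ρb * T) = 2 * (W * U) := by rw [hU]; ring
    rw [h9]
    nlinarith

/-- A base for the geometric decay of the weights. -/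
noncomputable def w₀ : ℝ := (1 / 2 : ℝ) ^ ((1 : ℝ) / 7)

theorem w₀_pos : 0 < w₀ := by
  unfold w₀; positivity

theorem w₀_lt_one : w₀ < 1 := by
  unfold w₀
  exact Real.rpow_lt_one (by norm_num) (by norm_num) (by norm_num)

theorem w₀_pow : w₀ ^ 7 = 1 / 2 := by
  unfold w₀
  rw [← Real.rpow_natCast, ← Real.rpow_mul (by norm_num)]
  norm_num

/-- The weight of a pair of classes. -/
noncomputable def Wt (C₁ : ℝ) (a b : ℕ × ℕ × ℕ) : ℝ :=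
  C₁ * w₀ ^ (a.2.1 + b.2.1 + (b.1 - a.1)) * (1 / 2 : ℝ) ^ (a.2.2 + b.2.2)

/-- `A₂ kap³ ≤ (1/2)^(l₁ + l₂ + Δ)`. -/
theorem kap_cube_one (i l₁ j l₂ : ℕ) :
    lam l₂ * kap i l₁ j l₂ ^ 3 ≤ (1 / 2 : ℝ) ^ (l₁ + l₂ + (j - i)) := by
  have h1 := kap_le i l₁ j l₂
  have h2 := kap_pos i l₁ j l₂
  have h3 : kap i l₁ j l₂ ^ 3 ≤ ((1 / 2 : ℝ) ^ (l₁ + 3 * l₂ + 2 * (j - i))) ^ 3 :=
    pow_le_pow_left₀ h2.le h1 3
  have h4 : ((1 / 2 : ℝ) ^ (l₁ + 3 * l₂ + 2 * (j - i))) ^ 3 ≤ (1 / 2 : ℝ) ^ (l₁ + l₂ + (j - i)) := by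
    rw [← pow_mul]
    exact pow_le_pow_of_le_one (by norm_num) (by norm_num) (by nlinarith)
  calc lam l₂ * kap i l₁ j l₂ ^ 3 ≤ 1 * kap i l₁ j l₂ ^ 3 :=
        mul_le_mul_of_nonneg_right (lam_le_one l₂) (by positivity)
    _ = kap i l₁ j l₂ ^ 3 := one_mul _
    _ ≤ _ := h3.trans h4

/-- `A₂² kap³ / A₁ ≤ (1/2)^(l₁ + l₂ + Δ)`. Write `kap¹² ≤ (x A₁)⁵ (A₂ / x)⁷`. -/
theorem kap_cube_two (i l₁ j l₂ : ℕ) :
    lam l₂ ^ 2 * kap i l₁ j l₂ ^ 3 / lam l₁ ≤ (1 / 2 : ℝ) ^ (l₁ + l₂ + (j - i)) := by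
  set Δ := j - i with hΔ
  set x := pw Δ with hx
  have hxpos : 0 < x := by rw [hx]; unfold pw; positivity
  have hA1 := lam_pos l₁
  have hA2 := lam_pos l₂
  have hκ := kap_pos i l₁ j l₂
  set κ := kap i l₁ j l₂ with hκdef
  have hκ1 : κ ≤ x * lam l₁ := min_le_left _ _
  have hκ2 : κ ≤ lam l₂ / x := min_le_right _ _
  have h12 : κ ^ 12 ≤ (x * lam l₁) ^ 5 * (lam l₂ / x) ^ 7 := by
    calc κ ^ 12 = κ ^ 5 * κ ^ 7 := by ring
      _ ≤ _ := mul_le_mul (pow_le_pow_left₀ hκ.le hκ1 5) (pow_le_pow_left₀ hκ.le hκ2 7)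
          (by positivity) (by positivity)
  have hfourth : (κ ^ 3 / lam l₁) ^ 4 ≤ ((1 / 2 : ℝ) ^ (l₁ + 7 * l₂ + 2 * Δ)) ^ 4 := by
    have h1 : (κ ^ 3 / lam l₁) ^ 4 = κ ^ 12 / lam l₁ ^ 4 := by
      rw [div_pow, ← pow_mul]
    have h2 : (x * lam l₁) ^ 5 * (lam l₂ / x) ^ 7 / lam l₁ ^ 4 = lam l₁ * lam l₂ ^ 7 / x ^ 2 := by
      field_simp
    have h3 : lam l₁ * lam l₂ ^ 7 / x ^ 2 = ((1 / 2 : ℝ) ^ (l₁ + 7 * l₂ + 2 * Δ)) ^ 4 := by
      rw [hx]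
      unfold lam pw
      have h16 : (1 / 16 : ℝ) = (1 / 2) ^ 4 := by norm_num
      rw [h16, ← pow_mul, ← pow_mul, ← pow_mul, ← pow_mul, div_eq_mul_inv, ← inv_pow]
      have h162 : ((16 : ℝ)⁻¹) = (1 / 2) ^ 4 := by norm_num
      rw [h162, ← pow_mul, ← pow_mul, ← pow_add, ← pow_add]
      congr 1
      ring
    rw [h1, ← h3, ← h2]
    exact div_le_div_of_nonneg_right h12 (by positivity)
  have hroot : κ ^ 3 / lam l₁ ≤ (1 / 2 : ℝ) ^ (l₁ + 7 * l₂ + 2 * Δ) :=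
    le_of_pow_le_pow_left₀ (by norm_num) (by positivity) hfourth
  have hlam2 : lam l₂ ^ 2 ≤ 1 := pow_le_one₀ hA2.le (lam_le_one l₂)
  calc lam l₂ ^ 2 * κ ^ 3 / lam l₁ = lam l₂ ^ 2 * (κ ^ 3 / lam l₁) := by ring
    _ ≤ 1 * (κ ^ 3 / lam l₁) := mul_le_mul_of_nonneg_right hlam2 (by positivity)
    _ = κ ^ 3 / lam l₁ := one_mul _
    _ ≤ (1 / 2 : ℝ) ^ (l₁ + 7 * l₂ + 2 * Δ) := hroot
    _ ≤ _ := pow_le_pow_of_le_one (by norm_num) (by norm_num) (by omega)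

/-- `y ≤ 2 ^ y`. -/
theorem nat_le_two_pow (y : ℕ) : (y : ℝ) ≤ (2 : ℝ) ^ y := by
  exact_mod_cast (Nat.lt_two_pow_self (n := y)).le

end Vale.Agent.Lib.P028F
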