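import Vale.Agent.Lib.P028F.Defs

/-! For moduli with a short shortest vector, no point of a pair with `t < 1/2` lies on a line of a
shortest vector: all such points are killed by the thinning on the side of `r`. -/

open MeasureTheory Set Filter Topology
open Vale.Agent.Lib.P028 Vale.Agent.Lib.P028E

namespace Vale.Agent.Lib.P028F

/-- A pair with `t < 1/2` has `r ≤ q ^ 3`, so `lev r ≤ 3 lev q + 2`. -/
theorem lev_le_of_small_t (γ : ℝ) (ψ : ℕ → ℝ) (q r : ℕ) (hq : BadOK γ ψ q) (hqr : q < r)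
    (ht : tt q r (ψ q) (ψ r) < 1 / 2) (hψr : 0 ≤ ψ r) : lev r ≤ 3 * lev q + 2 := by
  have hq16 := hq.large
  have hq0 : 0 < q := lt_of_lt_of_le (by norm_num) hq16
  have hr0 : 0 < r := by omega
  have hq' : (0 : ℝ) < q := by exact_mod_cast hq0
  have hr' : (0 : ℝ) < r := by exact_mod_cast hr0
  have hq1 : (1 : ℝ) ≤ q := by exact_mod_cast hq0
  have hψ := hq.pos
  have hqp : (0 : ℝ) ≤ qp q r := Nat.cast_nonneg _
  have h1 : (rp q r : ℝ) * ψ q < 1 / 2 := by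
    unfold tt at ht
    have := mul_nonneg hqp hψr
    linarith
  have hg : (Nat.gcd q r : ℝ) ≤ q := by exact_mod_cast Nat.gcd_le_left _ hq0
  have h2 : (r : ℝ) ≤ q * rp q r := by
    have e := real_r_eq q r
    calc (r : ℝ) = (Nat.gcd q r : ℝ) * (rp q r : ℝ) := e
      _ ≤ q * rp q r := mul_le_mul_of_nonneg_right hg (Nat.cast_nonneg _)
  -- the lower bound for `L q`
  have hLq : 1 ≤ (q : ℝ) * ψ q * q := by
    by_contra hn
    have hn' : (q : ℝ) * ψ q * q < 1 := not_le.mp hn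
    have h0 : 0 ≤ (q : ℝ) * ψ q * q := by positivity
    have h4 : ((q : ℝ) * ψ q * q) ^ 4 < 1 := pow_lt_one₀ h0 hn' (by norm_num)
    have h5 : ((q : ℝ) * ψ q * q) ^ 4 = (((q : ℝ) * ψ q) ^ 4 * q) * (q : ℝ) ^ 3 := by ring
    have h6 : (1 : ℝ) ≤ (q : ℝ) ^ 3 := one_le_pow₀ hq1
    have h7 := hq.thick
    have h8 : 1 * 1 ≤ (((q : ℝ) * ψ q) ^ 4 * q) * (q : ℝ) ^ 3 :=
      mul_le_mul h7 h6 (by norm_num) (by positivity)
    rw [← h5] at h8
    linarith
  -- `2 r < q ^ 3`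
  have h3 : (r : ℝ) * ψ q < q / 2 := by
    have h4 : (r : ℝ) * ψ q ≤ q * rp q r * ψ q := mul_le_mul_of_nonneg_right h2 hψ.le
    have h5 : (q : ℝ) * ((rp q r : ℝ) * ψ q) < q * (1 / 2) := mul_lt_mul_of_pos_left h1 hq'
    nlinarith
  have h4 : (r : ℝ) < (q : ℝ) ^ 3 := by
    have h5 : (r : ℝ) * 1 ≤ r * ((q : ℝ) * ψ q * q) := mul_le_mul_of_nonneg_left hLq hr'.le
    have h6 : (r : ℝ) * ψ q * ((q : ℝ) ^ 2) < q / 2 * ((q : ℝ) ^ 2) :=
      mul_lt_mul_of_pos_right h3 (by positivity)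
    have h7 : (0 : ℝ) < (q : ℝ) ^ 3 := by positivity
    nlinarith
  have h5 : r < q ^ 3 := by exact_mod_cast h4
  have h6 : q < 16 ^ (lev q + 1) := Nat.lt_pow_succ_log_self (by norm_num) q
  have h7 : q ^ 3 < 16 ^ (3 * lev q + 3) := by
    have := Nat.pow_lt_pow_left h6 (n := 3) (by norm_num)
    rwa [← pow_mul, show (lev q + 1) * 3 = 3 * lev q + 3 by ring] at this
  have h8 : lev r < 3 * lev q + 3 := Nat.log_lt_of_lt_pow hr0.ne' (lt_trans h5 h7)
  omega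

theorem four_LamB_aux (i : ℕ) (hi : 8 ≤ i) : 4 * (3 * (i : ℝ) + 3) ^ 6 ≤ (16 : ℝ) ^ i := by
  induction i, hi using Nat.le_induction with
  | base => norm_num
  | succ n hn ih =>
    have hn' : (8 : ℝ) ≤ n := by exact_mod_cast hn
    have h0 : (0 : ℝ) ≤ 3 * (n : ℝ) + 3 := by positivity
    have h1 : (3 * (n : ℝ) + 6) ^ 3 ≤ 4 * (3 * (n : ℝ) + 3) ^ 3 := by
      nlinarith [mul_nonneg h0 h0, mul_nonneg (mul_nonneg h0 h0) h0]
    have h2 : ((3 * (n : ℝ) + 6) ^ 3) ^ 2 ≤ (4 * (3 * (n : ℝ) + 3) ^ 3) ^ 2 :=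
      pow_le_pow_left₀ (by positivity) h1 2
    have h3 : (3 * ((n + 1 : ℕ) : ℝ) + 3) ^ 6 = ((3 * (n : ℝ) + 6) ^ 3) ^ 2 := by
      push_cast
      ring
    rw [h3, pow_succ (16 : ℝ) n]
    have h4 : (4 * (3 * (n : ℝ) + 3) ^ 3) ^ 2 = 16 * (3 * (n : ℝ) + 3) ^ 6 := by ring
    nlinarith

theorem four_LamB_le (i : ℕ) (hi : 8 ≤ i) : 4 * LamB (3 * i + 2) ^ 2 ≤ pw i := by
  have h := four_LamB_aux i hi
  unfold LamB pw
  have e : (((3 * i + 2 : ℕ) : ℝ) + 1) = 3 * (i : ℝ) + 3 := by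
    push_cast
    ring
  rw [e]
  calc 4 * ((3 * (i : ℝ) + 3) ^ 3) ^ 2 = 4 * (3 * (i : ℝ) + 3) ^ 6 := by ring
    _ ≤ _ := h

/-- If the point of the pair is a multiple of `sv γ (ψ r)`, the pair cannot meet. -/
theorem no_line_r (γ : ℝ) (ψ : ℕ → ℝ) (q r : ℕ) (hq : 0 < q) (hqr : q < r)
    (ht : tt q r (ψ q) (ψ r) < 1 / 2) (hmeet : (EE γ ψ q ∩ EE γ ψ r).Nonempty) (u : ℤ)
    (hz : pz γ q r = u • sv γ (ψ r)) : False := by
  obtain ⟨x, ⟨a, _, hax⟩, ⟨b, hb, hbx⟩⟩ := hmeet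
  have hr0 : 0 < r := by omega
  obtain ⟨hm, _⟩ := pair_round hq hr0 hax hbx ht.le
  have hco : IsCoprime ((sv γ (ψ r)).1 * b - (sv γ (ψ r)).2) (r : ℤ) := hb
  have hdvd := kill_right hq hr0 hm hz
  have hr'dvd : ((rp q r : ℕ) : ℤ) ∣ (r : ℤ) := by
    exact_mod_cast Nat.div_dvd_of_dvd (Nat.gcd_dvd_right q r)
  have hunit : IsUnit ((rp q r : ℕ) : ℤ) := hco.isUnit_of_dvd' hdvd hr'dvd
  have hone : rp q r = 1 := by
    have := Int.isUnit_iff_natAbs_eq.mp hunit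
    simpa using this
  have h1 : r / Nat.gcd q r = 1 := hone
  have h2 := Nat.div_mul_cancel (Nat.gcd_dvd_right q r)
  rw [h1, one_mul] at h2
  have h3 : Nat.gcd q r ≤ q := Nat.gcd_le_left _ hq
  omega

/-- The level of a modulus with the large property is at least `8`. -/
theorem lev_ge_eight {q : ℕ} (hq : 16 ^ 8 ≤ q) : 8 ≤ lev q := by
  unfold lev
  exact (Nat.le_log_iff_pow_le (by norm_num) (by
    have : 0 < 16 ^ 8 := by norm_num
    omega)).mpr hq

/-- First case: the line of `sv γ (ψ q)`. Here `sv γ (ψ q) = ± sv γ (ψ r)`, by `det_lower`. -/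
theorem no_line_N (γ : ℝ) (ψ : ℕ → ℝ) (q r : ℕ) (hq : BadOK γ ψ q) (hr : BadOK γ ψ r) (hqr : q < r)
    (ht : tt q r (ψ q) (ψ r) < 1 / 2) (hmeet : (EE γ ψ q ∩ EE γ ψ r).Nonempty) (u : ℤ)
    (hz : pz γ q r = u • sv γ (ψ q)) : False := by
  have hq0 : 0 < q := lt_of_lt_of_le (by norm_num) hq.large
  have hr0 : 0 < r := by omega
  have hψq := hq.pos
  have hψr := hr.pos
  have hne : sv γ (ψ r) ≠ sv γ (ψ q) := by
    intro h
    apply no_line_r γ ψ q r hq0 hqr ht hmeet u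
    rw [hz, h]
  have hne' : sv γ (ψ r) ≠ -sv γ (ψ q) := by
    intro h
    apply no_line_r γ ψ q r hq0 hqr ht hmeet (-u)
    rw [hz, h, smul_neg, neg_smul, neg_neg]
  have hdet := det_lower γ (ψ q) (ψ r) hψq hψr hne hne'
  have hi8 : 8 ≤ lev q := lev_ge_eight hq.large
  have hjle := lev_le_of_small_t γ ψ q r hq hqr ht hψr.le
  set i := lev q with hi
  set L := LamB (3 * i + 2) with hL
  have hL0 : 0 < L := LamB_pos _
  have hlq : nrm γ (ψ q) (sv γ (ψ q)) < L :=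
    lt_of_lt_of_le hq.short (LamB_mono (by omega))
  have hlr : nrm γ (ψ r) (sv γ (ψ r)) < L :=
    lt_of_lt_of_le hr.short (LamB_mono hjle)
  have hlq0 := nrm_nonneg γ (ψ q) (sv γ (ψ q))
  have hlr0 := nrm_nonneg γ (ψ r) (sv γ (ψ r))
  have hfour := four_LamB_le i hi8
  rw [← hL] at hfour
  have hQ : 0 < pw i := pw_pos i
  obtain ⟨hq1, _⟩ := lev_spec q hq0
  rw [← hi] at hq1
  have hrq : (q : ℝ) ≤ r := by exact_mod_cast hqr.le
  have hψq' : ψ q * pw i ≤ 1 := by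
    have h1 := hq.le
    have h2 : ψ q * pw i ≤ ψ q * q := mul_le_mul_of_nonneg_left hq1 hψq.le
    linarith [mul_comm (q : ℝ) (ψ q)]
  have hψr' : ψ r * pw i ≤ 1 := by
    have h1 := hr.le
    have h2 : ψ r * pw i ≤ ψ r * r := mul_le_mul_of_nonneg_left (le_trans hq1 hrq) hψr.le
    linarith [mul_comm (r : ℝ) (ψ r)]
  set a := nrm γ (ψ q) (sv γ (ψ q)) with ha
  set b := nrm γ (ψ r) (sv γ (ψ r)) with hb
  have hab : a * b < L * L := by
    calc a * b ≤ a * L := mul_le_mul_of_nonneg_left hlr.le hlq0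
      _ < L * L := mul_lt_mul_of_pos_right hlq hL0
  have hsum : 0 < ψ q + ψ r := by positivity
  have h1 : (1 : ℝ) * pw i ≤ 2 * a * b * (ψ q + ψ r) * pw i :=
    mul_le_mul_of_nonneg_right hdet hQ.le
  have h2 : 2 * a * b * (ψ q + ψ r) * pw i = 2 * (a * b) * (ψ q * pw i + ψ r * pw i) := by ring
  have h3 : 2 * (a * b) * (ψ q * pw i + ψ r * pw i) ≤ 2 * (a * b) * 2 := by
    apply mul_le_mul_of_nonneg_left _ (by positivity)
    linarith
  have h4 : 2 * (a * b) * 2 < 4 * L ^ 2 := by nlinarith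
  linarith

/-- Second case: the line of the shortest vector at scale `pstar`. -/
theorem no_line_T (γ : ℝ) (ψ : ℕ → ℝ) (q r : ℕ) (hq : BadOK γ ψ q) (hr : BadOK γ ψ r) (hqr : q < r)
    (ht : tt q r (ψ q) (ψ r) < 1 / 2) (hmeet : (EE γ ψ q ∩ EE γ ψ r).Nonempty) (u : ℤ)
    (hz : pz γ q r = u • sv γ (pstar (lev q) (lev r) (ell ((r : ℝ) * ψ r)))) : False := by
  have hq0 : 0 < q := lt_of_lt_of_le (by norm_num) hq.large
  have hr0 : 0 < r := by omega
  have hψq := hq.pos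
  have hψr := hr.pos
  have hi8 : 8 ≤ lev q := lev_ge_eight hq.large
  have hjle := lev_le_of_small_t γ ψ q r hq hqr ht hψr.le
  have hij : lev q ≤ lev r := lev_mono hqr.le
  set l := ell ((r : ℝ) * ψ r) with hl
  set i := lev q with hi
  set j := lev r with hj
  set ps := pstar i j l with hps
  have hps0 : 0 < ps := pstar_pos i j l
  have hne : sv γ (ψ r) ≠ sv γ ps := by
    intro h
    apply no_line_r γ ψ q r hq0 hqr ht hmeet u
    rw [hz, h]
  have hne' : sv γ (ψ r) ≠ -sv γ ps := by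
    intro h
    apply no_line_r γ ψ q r hq0 hqr ht hmeet (-u)
    rw [hz, h, smul_neg, neg_smul, neg_neg]
  have hdet := det_lower γ ps (ψ r) hps0 hψr hne hne'
  -- sizes
  have hr' : (0 : ℝ) < r := by exact_mod_cast hr0
  have hLr : (r : ℝ) * ψ r ≤ 1 := hr.le
  have hLr0 : 0 < (r : ℝ) * ψ r := by positivity
  obtain ⟨hA1, hA2⟩ := ell_spec _ hLr0 hLr
  rw [← hl] at hA1 hA2
  set A := lam l with hA
  have hA0 : 0 < A := lam_pos l
  have hA1' : A ≤ 1 := lam_le_one l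
  set R := pw j with hR
  have hR0 : 0 < R := pw_pos j
  set Q := pw i with hQdef
  have hQ0 : 0 < Q := pw_pos i
  obtain ⟨hr1, _⟩ := lev_spec r hr0
  rw [← hj, ← hR] at hr1
  have hψup : ψ r ≤ A / R := by
    rw [le_div_iff₀ hR0]
    nlinarith
  have hQR : Q ≤ R := by
    rw [hR, hQdef]; unfold pw
    exact pow_le_pow_right₀ (by norm_num) hij
  have hpse : ps = Q * A / R ^ 2 := rfl
  have hpsup : ps ≤ A / R := by
    rw [hpse, div_le_div_iff₀ (by positivity) hR0]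
    have : Q * A * R ≤ R * A * R := by
      apply mul_le_mul_of_nonneg_right _ hR0.le
      exact mul_le_mul_of_nonneg_right hQR hA0.le
    nlinarith
  set vr := sv γ (ψ r) with hvr
  set vs := sv γ ps with hvs
  set Lr := nrm γ (ψ r) vr with hLrdef
  set Ls := nrm γ ps vs with hLsdef
  have hLs0 : 0 ≤ Ls := nrm_nonneg _ _ _
  have hLr0' : 0 ≤ Lr := nrm_nonneg _ _ _
  -- the comparison of the two norms
  have hvr0 : vr ≠ 0 := sv_ne_zero _ _
  have hLsLr : Ls ≤ Lr * (R / Q) := by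
    refine le_trans (sv_min γ ps hps0 vr hvr0) ?_
    obtain ⟨h1, h2⟩ := (nrm_le_iff γ (ψ r) Lr hψr vr).mp le_rfl
    have hRQ1 : 1 ≤ R / Q := by rw [le_div_iff₀ hQ0]; linarith
    apply (nrm_le_iff γ ps _ hps0 vr).mpr
    constructor
    · calc |(vr.1 : ℝ)| ≤ Lr := h1
        _ = Lr * 1 := by ring
        _ ≤ Lr * (R / Q) := mul_le_mul_of_nonneg_left hRQ1 hLr0'
    · refine le_trans h2 ?_
      have e1 : 2 * ps * (Lr * (R / Q)) = 2 * Lr * (ps * (R / Q)) := by ring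
      have e2 : ps * (R / Q) = A / R := by
        rw [hpse]
        field_simp
      rw [e1, e2]
      have : 2 * ψ r * Lr = 2 * Lr * ψ r := by ring
      rw [this]
      exact mul_le_mul_of_nonneg_left hψup (by positivity)
  have hL := LamB_pos (3 * i + 2)
  have hlr : Lr < LamB (3 * i + 2) := lt_of_lt_of_le hr.short (LamB_mono hjle)
  have hfour := four_LamB_le i hi8
  rw [← hQdef] at hfour
  set L := LamB (3 * i + 2) with hLdef
  have hsum : ps + ψ r ≤ 2 * (A / R) := by linarith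
  have hsum' : ps + ψ r ≤ 2 / R := by
    refine le_trans hsum ?_
    rw [mul_div_assoc']
    apply div_le_div_of_nonneg_right _ hR0.le
    linarith
  have hsum0 : 0 < ps + ψ r := by positivity
  have h1 : (1 : ℝ) ≤ 2 * (Lr * (R / Q)) * Lr * (2 / R) := by
    calc (1 : ℝ) ≤ 2 * Ls * Lr * (ps + ψ r) := hdet
      _ ≤ 2 * (Lr * (R / Q)) * Lr * (ps + ψ r) := by
        apply mul_le_mul_of_nonneg_right _ hsum0.le
        apply mul_le_mul_of_nonneg_right _ hLr0'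
        linarith
      _ ≤ _ := mul_le_mul_of_nonneg_left hsum' (by positivity)
  have e : 2 * (Lr * (R / Q)) * Lr * (2 / R) = 4 * Lr ^ 2 / Q := by
    field_simp
    ring
  rw [e, le_div_iff₀ hQ0, one_mul] at h1
  have h2 : Lr ^ 2 < L ^ 2 := pow_lt_pow_left₀ hlr hLr0' (by norm_num)
  linarith

end Vale.Agent.Lib.P028F
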