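import Vale.Agent.Lib.P028F.Kernel

/-! Sums of the weights. -/

open MeasureTheory Set Filter Topology
open Vale.Agent.Lib.P028 Vale.Agent.Lib.P028E

namespace Vale.Agent.Lib.P028F

private lemma wt_geom_le {r : ℝ} (h0 : 0 ≤ r) (h1 : r < 1) (N : ℕ) :
    ∑ m ∈ Finset.range N, r ^ m ≤ (1 - r)⁻¹ := by
  rw [← tsum_geometric_of_lt_one h0 h1]
  exact (summable_geometric_of_lt_one h0 h1).sum_le_tsum _ (fun i _ => pow_nonneg h0 i)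

private lemma wt_sum_prod_le (S : Finset (ℕ × ℕ × ℕ)) {r t : ℝ} (hr0 : 0 ≤ r) (hr1 : r < 1)
    (ht0 : 0 ≤ t) (ht1 : t < 1) :
    ∑ x ∈ S, r ^ x.1 * r ^ x.2.1 * t ^ x.2.2 ≤ (1 - r)⁻¹ * (1 - r)⁻¹ * (1 - t)⁻¹ := by
  obtain ⟨N, hN⟩ : ∃ N, S ⊆ Finset.range N ×ˢ Finset.range N ×ˢ Finset.range N := by
    refine ⟨S.sup (fun x => x.1 + x.2.1 + x.2.2) + 1, ?_⟩
    intro x hx
    have h : x.1 + x.2.1 + x.2.2 ≤ S.sup (fun x => x.1 + x.2.1 + x.2.2) :=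
      Finset.le_sup (f := fun x : ℕ × ℕ × ℕ => x.1 + x.2.1 + x.2.2) hx
    simp only [Finset.mem_product, Finset.mem_range]
    omega
  have hexp : ∑ x ∈ Finset.range N ×ˢ Finset.range N ×ˢ Finset.range N,
      r ^ x.1 * r ^ x.2.1 * t ^ x.2.2 =
      (∑ m ∈ Finset.range N, r ^ m) * (∑ l ∈ Finset.range N, r ^ l) *
        (∑ y ∈ Finset.range N, t ^ y) := by
    rw [Finset.sum_mul_sum, Finset.sum_mul, Finset.sum_product]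
    refine Finset.sum_congr rfl fun m _ => ?_
    rw [Finset.sum_mul, Finset.sum_product]
    refine Finset.sum_congr rfl fun l _ => ?_
    rw [Finset.mul_sum]
  have h1r : 0 ≤ (1 - r)⁻¹ := inv_nonneg.mpr (by linarith)
  have hs0 : ∀ n, 0 ≤ ∑ m ∈ Finset.range n, r ^ m := fun n =>
    Finset.sum_nonneg (fun i _ => pow_nonneg hr0 i)
  have ht0' : ∀ n, 0 ≤ ∑ m ∈ Finset.range n, t ^ m := fun n =>
    Finset.sum_nonneg (fun i _ => pow_nonneg ht0 i)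
  calc ∑ x ∈ S, r ^ x.1 * r ^ x.2.1 * t ^ x.2.2
      ≤ ∑ x ∈ Finset.range N ×ˢ Finset.range N ×ˢ Finset.range N,
          r ^ x.1 * r ^ x.2.1 * t ^ x.2.2 :=
        Finset.sum_le_sum_of_subset_of_nonneg hN (fun x _ _ => by positivity)
    _ = _ := hexp
    _ ≤ (1 - r)⁻¹ * (1 - r)⁻¹ * (1 - t)⁻¹ :=
        mul_le_mul (mul_le_mul (wt_geom_le hr0 hr1 N) (wt_geom_le hr0 hr1 N) (hs0 N) h1r)
          (wt_geom_le ht0 ht1 N) (ht0' N) (mul_nonneg h1r h1r)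

private lemma Wt_le (C₁ : ℝ) (hC₁ : 0 < C₁) (l₁ l₂ m y₁ y₂ : ℕ) :
    C₁ * w₀ ^ (l₁ + l₂ + m) * (1 / 2 : ℝ) ^ (y₁ + y₂) ≤
      C₁ * (w₀ ^ m * w₀ ^ l₂ * (1 / 2 : ℝ) ^ y₂) := by
  have h1 : w₀ ^ (l₁ + l₂ + m) ≤ w₀ ^ (l₂ + m) :=
    pow_le_pow_of_le_one w₀_pos.le w₀_lt_one.le (by omega)
  have h2 : (1 / 2 : ℝ) ^ (y₁ + y₂) ≤ (1 / 2 : ℝ) ^ y₂ :=
    pow_le_pow_of_le_one (by norm_num) (by norm_num) (by omega)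
  have h3 : 0 ≤ w₀ ^ (l₂ + m) := pow_nonneg w₀_pos.le _
  calc C₁ * w₀ ^ (l₁ + l₂ + m) * (1 / 2 : ℝ) ^ (y₁ + y₂)
      ≤ C₁ * w₀ ^ (l₂ + m) * (1 / 2 : ℝ) ^ y₂ := by gcongr
    _ = C₁ * (w₀ ^ m * w₀ ^ l₂ * (1 / 2 : ℝ) ^ y₂) := by rw [pow_add]; ring

private lemma final_arith (C₁ : ℝ) :
    C₁ * ((1 - w₀)⁻¹ * (1 - w₀)⁻¹ * (1 - (1 / 2 : ℝ))⁻¹) = C₁ * (1 - w₀)⁻¹ ^ 2 * 2 := by
  have : (1 - (1 / 2 : ℝ))⁻¹ = 2 := by norm_num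
  rw [this]; ring

/-- Sum of the weights over the second class. -/
theorem Wt_sum_right (C₁ : ℝ) (hC₁ : 0 < C₁) (a : ℕ × ℕ × ℕ) (A : Finset (ℕ × ℕ × ℕ)) :
    ∑ b ∈ A.filter (fun b => a.1 ≤ b.1), Wt C₁ a b ≤ C₁ * (1 - w₀)⁻¹ ^ 2 * 2 := by
  set S := A.filter (fun b => a.1 ≤ b.1) with hS
  let φ : ℕ × ℕ × ℕ → ℕ × ℕ × ℕ := fun b => (b.1 - a.1, b.2.1, b.2.2)
  have hinj : Set.InjOn φ (S : Set (ℕ × ℕ × ℕ)) := by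
    rintro ⟨j, l, y⟩ hb ⟨j', l', y'⟩ hb' h
    have h1 := (Finset.mem_filter.mp (Finset.mem_coe.mp hb)).2
    have h2 := (Finset.mem_filter.mp (Finset.mem_coe.mp hb')).2
    simp only [φ, Prod.mk.injEq] at h
    simp only at h1 h2
    obtain ⟨h3, h4, h5⟩ := h
    have : j = j' := by omega
    subst this; subst h4; subst h5; rfl
  calc ∑ b ∈ S, Wt C₁ a b
      ≤ ∑ b ∈ S, C₁ * (w₀ ^ (φ b).1 * w₀ ^ (φ b).2.1 * (1 / 2 : ℝ) ^ (φ b).2.2) :=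
        Finset.sum_le_sum fun b _ => Wt_le C₁ hC₁ a.2.1 b.2.1 (b.1 - a.1) a.2.2 b.2.2
    _ = C₁ * ∑ x ∈ S.image φ, w₀ ^ x.1 * w₀ ^ x.2.1 * (1 / 2 : ℝ) ^ x.2.2 := by
        rw [Finset.sum_image hinj, Finset.mul_sum]
    _ ≤ C₁ * ((1 - w₀)⁻¹ * (1 - w₀)⁻¹ * (1 - (1 / 2 : ℝ))⁻¹) :=
        mul_le_mul_of_nonneg_left
          (wt_sum_prod_le _ w₀_pos.le w₀_lt_one (by norm_num) (by norm_num)) hC₁.le
    _ = _ := final_arith C₁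

/-- Sum of the weights over the first class. -/
theorem Wt_sum_left (C₁ : ℝ) (hC₁ : 0 < C₁) (b : ℕ × ℕ × ℕ) (A : Finset (ℕ × ℕ × ℕ)) :
    ∑ a ∈ A.filter (fun a => a.1 ≤ b.1), Wt C₁ a b ≤ C₁ * (1 - w₀)⁻¹ ^ 2 * 2 := by
  set S := A.filter (fun a => a.1 ≤ b.1) with hS
  let φ : ℕ × ℕ × ℕ → ℕ × ℕ × ℕ := fun a => (b.1 - a.1, a.2.1, a.2.2)
  have hinj : Set.InjOn φ (S : Set (ℕ × ℕ × ℕ)) := by
    rintro ⟨j, l, y⟩ hb ⟨j', l', y'⟩ hb' h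
    have h1 := (Finset.mem_filter.mp (Finset.mem_coe.mp hb)).2
    have h2 := (Finset.mem_filter.mp (Finset.mem_coe.mp hb')).2
    simp only [φ, Prod.mk.injEq] at h
    simp only at h1 h2
    obtain ⟨h3, h4, h5⟩ := h
    have : j = j' := by omega
    subst this; subst h4; subst h5; rfl
  calc ∑ a ∈ S, Wt C₁ a b
      ≤ ∑ a ∈ S, C₁ * (w₀ ^ (φ a).1 * w₀ ^ (φ a).2.1 * (1 / 2 : ℝ) ^ (φ a).2.2) := by
        refine Finset.sum_le_sum fun a _ => ?_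
        have h := Wt_le C₁ hC₁ b.2.1 a.2.1 (b.1 - a.1) b.2.2 a.2.2
        unfold Wt
        rw [add_comm a.2.1 b.2.1, add_comm a.2.2 b.2.2]
        exact h
    _ = C₁ * ∑ x ∈ S.image φ, w₀ ^ x.1 * w₀ ^ x.2.1 * (1 / 2 : ℝ) ^ x.2.2 := by
        rw [Finset.sum_image hinj, Finset.mul_sum]
    _ ≤ C₁ * ((1 - w₀)⁻¹ * (1 - w₀)⁻¹ * (1 - (1 / 2 : ℝ))⁻¹) :=
        mul_le_mul_of_nonneg_left
          (wt_sum_prod_le _ w₀_pos.le w₀_lt_one (by norm_num) (by norm_num)) hC₁.le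
    _ = _ := final_arith C₁

end Vale.Agent.Lib.P028F
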