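import Vale.Agent.Lib.P028F.ClassBound
import Vale.Agent.Lib.P028F.WtSum
import Vale.Agent.Lib.P028F.Rough

/-! The Schur test over all pairs of classes. -/

open MeasureTheory Set Filter Topology
open Vale.Agent.Lib.P028 Vale.Agent.Lib.P028E

namespace Vale.Agent.Lib.P028F

open scoped Classical in
/-- The total of the near overlaps, against the density weighted mass. -/
theorem near_total : ∃ C₆ : ℝ, 0 < C₆ ∧ ∀ (γ : ℝ) (ψ : ℕ → ℝ) (B : Finset ℕ), BlockOK ψ B →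
    (∀ q ∈ B, BadOK γ ψ q) →
    ∑ q ∈ B, ∑ r ∈ B.filter (fun r => q < r ∧ Near ψ q r), Ovl (EE γ ψ) q r
      ≤ C₆ * ∑ q ∈ B, ψ q * dens γ (ψ q) q := by
  obtain ⟨Cm, hCm0, hCm⟩ := moment2
  set C₁ : ℝ := max 1 ((61812 ^ 4 * 65536 * Cm) * 786432 ^ 3 * 240 * 2 ^ 33 / cA ^ 7) with hC₁def
  have hC₁1 : 1 ≤ C₁ := le_max_left _ _
  have hC₁2 : (61812 ^ 4 * 65536 * Cm) * 786432 ^ 3 * 240 * 2 ^ 33 / cA ^ 7 ≤ C₁ :=
    le_max_right _ _
  have hC₁0 : 0 < C₁ := by linarith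
  have hw : 0 < 1 - w₀ := by linarith [w₀_lt_one]
  set V : ℝ := C₁ * (1 - w₀)⁻¹ ^ 2 * 2 with hV
  have hV0 : 0 < V := by positivity
  refine ⟨4 * V, by positivity, ?_⟩
  intro γ ψ B hB hBad
  set A : Finset (ℕ × ℕ × ℕ) := B.image (cl3 ψ) with hA
  have hmaps : ∀ q ∈ B, cl3 ψ q ∈ A := fun q hq => Finset.mem_image_of_mem _ hq
  -- the decomposition of the left side
  have hLHS : ∑ q ∈ B, ∑ r ∈ B.filter (fun r => q < r ∧ Near ψ q r), Ovl (EE γ ψ) q r
      = ∑ a ∈ A, ∑ b ∈ A, Tc γ ψ B a b := by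
    have h1 : ∀ q, ∑ r ∈ B.filter (fun r => q < r ∧ Near ψ q r), Ovl (EE γ ψ) q r
        = ∑ b ∈ A, ∑ r ∈ B.filter (fun r => cl3 ψ r = b ∧ q < r ∧ Near ψ q r),
            Ovl (EE γ ψ) q r := by
      intro q
      have := Finset.sum_fiberwise_of_maps_to (s := B.filter (fun r => q < r ∧ Near ψ q r))
        (t := A) (g := cl3 ψ) (fun r hr => hmaps r (Finset.mem_filter.mp hr).1)
        (fun r => Ovl (EE γ ψ) q r)
      rw [← this]
      refine Finset.sum_congr rfl (fun b _ => ?_)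
      rw [Finset.filter_filter]
      refine Finset.sum_congr ?_ (fun _ _ => rfl)
      ext r
      simp only [Finset.mem_filter]
      tauto
    simp_rw [h1]
    have h2 := Finset.sum_fiberwise_of_maps_to (s := B) (t := A) (g := cl3 ψ) hmaps
      (fun q => ∑ b ∈ A, ∑ r ∈ B.filter (fun r => cl3 ψ r = b ∧ q < r ∧ Near ψ q r),
        Ovl (EE γ ψ) q r)
    rw [← h2]
    refine Finset.sum_congr rfl (fun a _ => ?_)
    unfold Tc Xc
    rw [Finset.sum_comm]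
  set G : ℕ × ℕ × ℕ → ℝ := fun a => (cA / (a.2.2 : ℝ)) * Sc ψ B a with hG
  have hSc0 : ∀ a, 0 ≤ Sc ψ B a := fun a =>
    Finset.sum_nonneg (fun q hq => (hB.psi_pos q (Finset.mem_filter.mp hq).1).le)
  have hG0 : ∀ a, 0 ≤ G a := fun a =>
    mul_nonneg (div_nonneg cA_pos.le (by positivity)) (hSc0 a)
  -- the bound for one pair of classes
  have hpair : ∀ a ∈ A, ∀ b ∈ A, Tc γ ψ B a b
      ≤ (if a.1 ≤ b.1 then 2 * Wt C₁ a b * G a else 0)
        + (if a.1 ≤ b.1 then 2 * Wt C₁ a b * G b else 0) := by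
    intro a ha b hb
    by_cases hab : a.1 ≤ b.1
    · have hne : ∀ c ∈ A, (Xc ψ B c).Nonempty := by
        intro c hc
        obtain ⟨r, hr, hrb⟩ := Finset.mem_image.mp hc
        exact ⟨r, Finset.mem_filter.mpr ⟨hr, hrb⟩⟩
      have := class_bound Cm hCm hCm0 C₁ hC₁1 hC₁2 γ ψ B hB hBad a b hab (hne a ha) (hne b hb)
      rw [if_pos hab, if_pos hab]
      calc Tc γ ψ B a b ≤ _ := this
        _ = _ := by simp only [hG]; ring
    · have h0 : Tc γ ψ B a b = 0 := by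
        refine Finset.sum_eq_zero (fun q hq => ?_)
        refine Finset.sum_eq_zero (fun r hr => ?_)
        exfalso
        obtain ⟨_, hqa⟩ := Finset.mem_filter.mp hq
        obtain ⟨_, hrb, hqr, _⟩ := Finset.mem_filter.mp hr
        apply hab
        have h1 : lev q = a.1 := congrArg Prod.fst hqa
        have h2 : lev r = b.1 := congrArg Prod.fst hrb
        rw [← h1, ← h2]
        exact lev_mono hqr.le
      rw [if_neg hab, if_neg hab, h0]
      simp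
  -- summing up
  have hfirst : ∑ a ∈ A, ∑ b ∈ A, (if a.1 ≤ b.1 then 2 * Wt C₁ a b * G a else 0)
      ≤ 2 * V * ∑ a ∈ A, G a := by
    rw [Finset.mul_sum]
    refine Finset.sum_le_sum (fun a _ => ?_)
    rw [← Finset.sum_filter]
    have h1 : ∑ b ∈ A.filter (fun b => a.1 ≤ b.1), 2 * Wt C₁ a b * G a
        = 2 * (∑ b ∈ A.filter (fun b => a.1 ≤ b.1), Wt C₁ a b) * G a := by
      rw [Finset.mul_sum, Finset.sum_mul]
    rw [h1]
    have h2 := Wt_sum_right C₁ hC₁0 a A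
    have h3 := hG0 a
    nlinarith
  have hsecond : ∑ a ∈ A, ∑ b ∈ A, (if a.1 ≤ b.1 then 2 * Wt C₁ a b * G b else 0)
      ≤ 2 * V * ∑ a ∈ A, G a := by
    rw [Finset.sum_comm, Finset.mul_sum]
    refine Finset.sum_le_sum (fun b _ => ?_)
    rw [← Finset.sum_filter]
    have h1 : ∑ a ∈ A.filter (fun a => a.1 ≤ b.1), 2 * Wt C₁ a b * G b
        = 2 * (∑ a ∈ A.filter (fun a => a.1 ≤ b.1), Wt C₁ a b) * G b := by
      rw [Finset.mul_sum, Finset.sum_mul]
    rw [h1]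
    have h2 := Wt_sum_left C₁ hC₁0 b A
    have h3 := hG0 b
    nlinarith
  -- the mass
  have hmass : ∑ a ∈ A, G a ≤ ∑ q ∈ B, ψ q * dens γ (ψ q) q := by
    have h2 := Finset.sum_fiberwise_of_maps_to (s := B) (t := A) (g := cl3 ψ) hmaps
      (fun q => ψ q * dens γ (ψ q) q)
    rw [← h2]
    refine Finset.sum_le_sum (fun a _ => ?_)
    simp only [hG, Sc, Xc]
    rw [Finset.mul_sum]
    refine Finset.sum_le_sum (fun q hq => ?_)
    obtain ⟨hqB, hqa⟩ := Finset.mem_filter.mp hq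
    have h3 : yc q = a.2.2 := congrArg (fun c => c.2.2) hqa
    rw [← h3, mul_comm]
    exact mul_le_mul_of_nonneg_left (dens_ge γ (ψ q) q) (hB.psi_pos q hqB).le
  rw [hLHS]
  have hfinal : ∑ a ∈ A, ∑ b ∈ A, Tc γ ψ B a b
      ≤ ∑ a ∈ A, ∑ b ∈ A, (if a.1 ≤ b.1 then 2 * Wt C₁ a b * G a else 0)
        + ∑ a ∈ A, ∑ b ∈ A, (if a.1 ≤ b.1 then 2 * Wt C₁ a b * G b else 0) := by
    rw [← Finset.sum_add_distrib]
    refine Finset.sum_le_sum (fun a ha => ?_)
    rw [← Finset.sum_add_distrib]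
    exact Finset.sum_le_sum (fun b hb => hpair a ha b hb)
  calc ∑ a ∈ A, ∑ b ∈ A, Tc γ ψ B a b ≤ 2 * V * ∑ a ∈ A, G a + 2 * V * ∑ a ∈ A, G a :=
        hfinal.trans (add_le_add hfirst hsecond)
    _ = 4 * V * ∑ a ∈ A, G a := by ring
    _ ≤ 4 * V * ∑ q ∈ B, ψ q * dens γ (ψ q) q :=
        mul_le_mul_of_nonneg_left hmass (by positivity)

end Vale.Agent.Lib.P028F
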