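import Vale.Agent.Lib.P028F.SchurT
import Vale.Agent.Lib.P028F.Far

/-! The second moment on a block. -/

open MeasureTheory Set Filter Topology
open Vale.Agent.Lib.P028 Vale.Agent.Lib.P028E

namespace Vale.Agent.Lib.P028F

/-- The second moment on a block of weighted mass at most two. -/
theorem block_second : ∃ K : ℝ, 0 < K ∧ ∀ (γ : ℝ) (ψ : ℕ → ℝ) (B : Finset ℕ), BlockOK ψ B →
    (∀ q ∈ B, BadOK γ ψ q) → ∑ q ∈ B, ψ q * dens γ (ψ q) q ≤ 2 →
    ∑ q ∈ B, ∑ r ∈ B, Ovl (EE γ ψ) q r ≤ K := by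
  classical
  obtain ⟨C₆, hC₆, hnear⟩ := near_total
  have hcA := cA_pos
  refine ⟨2 / cA * 2 + 2 * (C₆ * 2 + 8 / cA ^ 2 * 2 ^ 2) + 1, by positivity, ?_⟩
  intro γ ψ B hB hBad hm
  set E := EE γ ψ with hE
  set w : ℕ → ℝ := fun q => ψ q * dens γ (ψ q) q with hw
  have hdens0 : ∀ s q, 0 ≤ dens γ s q := fun s q =>
    le_trans (div_nonneg cA_pos.le (Nat.cast_nonneg _)) (dens_ge γ s q)
  have hw0 : ∀ q ∈ B, 0 ≤ w q := fun q hq => mul_nonneg (hB.psi_pos q hq).le (hdens0 _ _)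
  have hm0 : 0 ≤ ∑ q ∈ B, w q := Finset.sum_nonneg hw0
  rw [sum_square_symm B (Ovl E) (Ovl_comm E)]
  have hdiag : ∑ q ∈ B, Ovl E q q ≤ 2 / cA * ∑ q ∈ B, w q := by
    rw [Finset.mul_sum]
    apply Finset.sum_le_sum
    intro q hq
    exact diag_le γ ψ q (hB.q_pos hq) (hB.psi_pos q hq).le (hB.psi_le_half hq)
  have hN := hnear γ ψ B hB hBad
  have hpair : ∀ q ∈ B, ∑ r ∈ B.filter (fun r => q < r), Ovl E q r
      ≤ ∑ r ∈ B.filter (fun r => q < r ∧ Near ψ q r), Ovl E q r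
        + 8 / cA ^ 2 * (w q * ∑ r ∈ B, w r) := by
    intro q hq
    have hsplit : ∑ r ∈ B.filter (fun r => q < r), Ovl E q r
        = ∑ r ∈ (B.filter (fun r => q < r)).filter (fun r => Near ψ q r), Ovl E q r
          + ∑ r ∈ (B.filter (fun r => q < r)).filter (fun r => ¬ Near ψ q r), Ovl E q r :=
      (Finset.sum_filter_add_sum_filter_not _ _ _).symm
    rw [hsplit, Finset.filter_filter]
    apply add_le_add le_rfl
    rw [Finset.mul_sum, Finset.mul_sum]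
    calc ∑ r ∈ (B.filter (fun r => q < r)).filter (fun r => ¬ Near ψ q r), Ovl E q r
        ≤ ∑ r ∈ (B.filter (fun r => q < r)).filter (fun r => ¬ Near ψ q r),
            8 / cA ^ 2 * (w q * w r) := by
          apply Finset.sum_le_sum
          intro r hr
          obtain ⟨hr1, hr2⟩ := Finset.mem_filter.mp hr
          have hrB := (Finset.mem_filter.mp hr1).1
          exact far_pair γ ψ q r (hB.q_pos hq) (hB.q_pos hrB) (hB.psi_pos q hq).le
            (hB.psi_le_half hq) (hB.psi_pos r hrB).le (hB.psi_le_half hrB) hr2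
      _ ≤ ∑ r ∈ B, 8 / cA ^ 2 * (w q * w r) := by
          apply Finset.sum_le_sum_of_subset_of_nonneg
          · intro r hr
            exact (Finset.mem_filter.mp (Finset.mem_filter.mp hr).1).1
          · intro r hr _
            have := hw0 q hq
            have := hw0 r hr
            positivity
  have hoff : ∑ q ∈ B, ∑ r ∈ B.filter (fun r => q < r), Ovl E q r
      ≤ C₆ * ∑ q ∈ B, w q + 8 / cA ^ 2 * (∑ q ∈ B, w q) ^ 2 := by
    calc ∑ q ∈ B, ∑ r ∈ B.filter (fun r => q < r), Ovl E q r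
        ≤ ∑ q ∈ B, (∑ r ∈ B.filter (fun r => q < r ∧ Near ψ q r), Ovl E q r
            + 8 / cA ^ 2 * (w q * ∑ r ∈ B, w r)) := Finset.sum_le_sum hpair
      _ = ∑ q ∈ B, ∑ r ∈ B.filter (fun r => q < r ∧ Near ψ q r), Ovl E q r
            + 8 / cA ^ 2 * (∑ q ∈ B, w q) ^ 2 := by
          rw [Finset.sum_add_distrib, ← Finset.mul_sum, ← Finset.sum_mul]
          ring
      _ ≤ _ := by
          have h1 : ∑ q ∈ B, ∑ r ∈ B.filter (fun r => q < r ∧ Near ψ q r), Ovl E q r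
              ≤ C₆ * ∑ q ∈ B, w q := by
            convert hN
          linarith
  have h1 : 2 / cA * ∑ q ∈ B, w q ≤ 2 / cA * 2 :=
    mul_le_mul_of_nonneg_left hm (by positivity)
  have h2 : C₆ * ∑ q ∈ B, w q ≤ C₆ * 2 := mul_le_mul_of_nonneg_left hm hC₆.le
  have h3 : (∑ q ∈ B, w q) ^ 2 ≤ 2 ^ 2 := pow_le_pow_left₀ hm0 hm 2
  have h4 : 8 / cA ^ 2 * (∑ q ∈ B, w q) ^ 2 ≤ 8 / cA ^ 2 * 2 ^ 2 :=
    mul_le_mul_of_nonneg_left h3 (by positivity)
  linarith

end Vale.Agent.Lib.P028F
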