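import Vale.Agent.Lib.P028F.TwoSided

/-! Arcs whose centre avoids one residue class modulo each prime of a finite set: measure and
overlap, by inclusion and exclusion over the subsets of the set of primes. -/

open MeasureTheory Set Filter Topology
open Vale.Agent.Lib.P028 Vale.Agent.Lib.P028E

namespace Vale.Agent.Lib.P028F

/-- Arcs of modulus `q` with centre `a` such that no prime of `E` divides `k a - m`. -/
def sieveSet (q : ℕ) (γ s : ℝ) (k m : ℤ) (E : Finset ℕ) : Set ℝ :=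
  {x | ∃ a : ℤ, |(q : ℝ) * x - a - γ| < s ∧ ∀ p ∈ E, ¬ ((p : ℤ) ∣ k * a - m)}

theorem isOpen_sieveSet (q : ℕ) (γ s : ℝ) (k m : ℤ) (E : Finset ℕ) :
    IsOpen (sieveSet q γ s k m E) := by
  have : sieveSet q γ s k m E = ⋃ a ∈ {a : ℤ | ∀ p ∈ E, ¬ ((p : ℤ) ∣ k * a - m)},
      {x : ℝ | |(q : ℝ) * x - a - γ| < s} := by
    ext x
    simp only [sieveSet, mem_iUnion, Set.mem_ofPred_eq, exists_prop]
    constructor
    · rintro ⟨a, h1, h2⟩; exact ⟨a, h2, h1⟩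
    · rintro ⟨a, h2, h1⟩; exact ⟨a, h1, h2⟩
  rw [this]
  exact isOpen_biUnion (fun a _ => isOpen_lt (by fun_prop) continuous_const)

theorem sieveSet_subset (q : ℕ) (γ s : ℝ) (k m : ℤ) (E : Finset ℕ) :
    sieveSet q γ s k m E ⊆ arcSet q γ s := by
  rintro x ⟨a, h, -⟩
  exact ⟨a, h⟩

/-- Arcs of modulus `q` with centre `a` such that every prime of `T` divides `k a - m`. -/
def Aset (q : ℕ) (γ s : ℝ) (k m : ℤ) (T : Finset ℕ) : Set ℝ :=
  {x | ∃ a : ℤ, |(q : ℝ) * x - a - γ| < s ∧ ∀ p ∈ T, (p : ℤ) ∣ k * a - m}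

theorem exists_center (k m : ℤ) (T : Finset ℕ) (hT : ∀ p ∈ T, p.Prime ∧ ¬ ((p : ℤ) ∣ k)) :
    ∃ a0 : ℤ, ∀ a : ℤ, (∀ p ∈ T, (p : ℤ) ∣ k * a - m) ↔ ((∏ p ∈ T, p : ℕ) : ℤ) ∣ a - a0 := by
  classical
  have hcop : IsCoprime k ((∏ p ∈ T, p : ℕ) : ℤ) := by
    push_cast
    apply IsCoprime.prod_right
    intro p hp
    have h := hT p hp
    exact ((Nat.prime_iff_prime_int.mp h.1).coprime_iff_not_dvd.mpr h.2).symm
  obtain ⟨u, v, huv⟩ := hcop
  refine ⟨u * m, fun a => ?_⟩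
  constructor
  · intro h
    have he : ((∏ p ∈ T, p : ℕ) : ℤ) ∣ k * a - m := by
      push_cast
      apply Finset.prod_dvd_of_coprime
      · intro p hp r hr hne
        exact Nat.isCoprime_iff_coprime.mpr ((Nat.coprime_primes (hT p hp).1 (hT r hr).1).mpr hne)
      · exact h
    have heq : a - u * m = u * (k * a - m) + a * v * ((∏ p ∈ T, p : ℕ) : ℤ) := by
      linear_combination (-a) * huv
    rw [heq]
    exact dvd_add (Dvd.dvd.mul_left he u) (Dvd.intro_left _ rfl)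
  · intro h p hp
    have heq : k * a - m = k * (a - u * m) + (-(m * v)) * ((∏ p ∈ T, p : ℕ) : ℤ) := by
      linear_combination m * huv
    have he : ((∏ p ∈ T, p : ℕ) : ℤ) ∣ k * a - m := by
      rw [heq]
      exact dvd_add (Dvd.dvd.mul_left h k) (Dvd.intro_left _ rfl)
    exact dvd_trans (Int.natCast_dvd_natCast.mpr (Finset.dvd_prod_of_mem (fun p => p) hp)) he

theorem Aset_eq (q : ℕ) (hq : 0 < q) (γ s : ℝ) (k m : ℤ) (T : Finset ℕ)
    (hT : ∀ p ∈ T, p.Prime ∧ p ∣ q ∧ ¬ ((p : ℤ) ∣ k)) :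
    ∃ (q' : ℕ) (γ' : ℝ), 0 < (∏ p ∈ T, p : ℕ) ∧ 0 < q' ∧ q = (∏ p ∈ T, p : ℕ) * q' ∧
      Aset q γ s k m T = arcSet q' γ' (s / ((∏ p ∈ T, p : ℕ) : ℝ)) := by
  classical
  obtain ⟨a0, ha0⟩ := exists_center k m T (fun p hp => ⟨(hT p hp).1, (hT p hp).2.2⟩)
  have hepos : 0 < (∏ p ∈ T, p : ℕ) := Finset.prod_pos (fun p hp => (hT p hp).1.pos)
  have hdvd : (∏ p ∈ T, p : ℕ) ∣ q :=
    Finset.prod_primes_dvd q (fun p hp => (hT p hp).1.prime) (fun p hp => (hT p hp).2.1)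
  obtain ⟨q', hq'⟩ := hdvd
  have hq'pos : 0 < q' := by
    rcases Nat.eq_zero_or_pos q' with h | h
    · subst h; simp at hq'; omega
    · exact h
  refine ⟨q', ((a0 : ℝ) + γ) / ((∏ p ∈ T, p : ℕ) : ℝ), hepos, hq'pos, hq', ?_⟩
  set e : ℕ := ∏ p ∈ T, p with he
  have heR : (0 : ℝ) < e := by exact_mod_cast hepos
  have hqR : (q : ℝ) = e * q' := by rw [hq']; push_cast; ring
  ext x
  constructor
  · rintro ⟨a, h1, h2⟩
    obtain ⟨n, hn⟩ := (ha0 a).mp h2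
    refine ⟨n, ?_⟩
    have hlt : |(q' : ℝ) * x - n - ((a0 : ℝ) + γ) / e| = |(q : ℝ) * x - a - γ| / e := by
      have hane : (a : ℝ) = a0 + e * n := by
        have : a = a0 + (e : ℤ) * n := by linarith
        rw [this]; push_cast; ring
      rw [eq_div_iff heR.ne', ← abs_of_pos heR, ← abs_mul, abs_of_pos heR]
      congr 1
      rw [hane, hqR]
      field_simp
      ring
    rw [hlt]
    exact (div_lt_div_iff_of_pos_right heR).mpr h1
  · rintro ⟨n, hn⟩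
    refine ⟨a0 + (e : ℤ) * n, ?_, ?_⟩
    · have hlt : |(q : ℝ) * x - ((a0 + (e : ℤ) * n : ℤ) : ℝ) - γ|
          = |(q' : ℝ) * x - n - ((a0 : ℝ) + γ) / e| * e := by
        rw [← abs_of_pos heR, ← abs_mul, abs_of_pos heR]
        congr 1
        rw [hqR]
        push_cast
        field_simp
        ring
      rw [hlt]
      exact (lt_div_iff₀ heR).mp hn
    · apply (ha0 _).mpr
      refine ⟨n, by ring⟩

theorem prod_expand (E : Finset ℕ) (f : ℕ → ℝ) :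
    ∏ p ∈ E, (1 - f p) = ∑ T ∈ E.powerset, (-1 : ℝ) ^ T.card * ∏ p ∈ T, f p := by
  classical
  have := Finset.prod_one_add (f := fun p => - f p) (s := E)
  simp only [sub_eq_add_neg]
  rw [this]
  apply Finset.sum_congr rfl
  intro T _
  rw [Finset.prod_neg]

theorem eul_expand (E : Finset ℕ) :
    MoebiusAux.eul E = ∑ T ∈ E.powerset, (-1 : ℝ) ^ T.card * (1 / ((∏ p ∈ T, p : ℕ) : ℝ)) := by
  unfold MoebiusAux.eul
  rw [prod_expand]
  apply Finset.sum_congr rfl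
  intro T _
  congr 1
  push_cast
  rw [Finset.prod_inv_distrib, one_div]

/-- Inclusion and exclusion at a point. -/
theorem ind_sieve_expand (q : ℕ) (γ s : ℝ) (hs : s ≤ 1 / 2) (k m : ℤ) (E : Finset ℕ) (x : ℝ) :
    ind (sieveSet q γ s k m E) x
      = ∑ T ∈ E.powerset, (-1 : ℝ) ^ T.card * ind (Aset q γ s k m T) x := by
  classical
  by_cases h : ∃ a : ℤ, |(q : ℝ) * x - a - γ| < s
  · obtain ⟨a0, ha0⟩ := h
    have huniq : ∀ a : ℤ, |(q : ℝ) * x - a - γ| < s → a = a0 := by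
      intro a ha
      have h1 := abs_lt.mp ha
      have h2 := abs_lt.mp ha0
      have h3 : ((a - a0 : ℤ) : ℝ) < 1 := by push_cast; linarith [h1.1, h1.2, h2.1, h2.2]
      have h4 : (-1 : ℝ) < ((a - a0 : ℤ) : ℝ) := by push_cast; linarith [h1.1, h1.2, h2.1, h2.2]
      have h5 : a - a0 < 1 := by exact_mod_cast h3
      have h6 : -1 < a - a0 := by exact_mod_cast h4
      omega
    set χ : ℕ → ℝ := fun p => if (p : ℤ) ∣ k * a0 - m then 1 else 0 with hχ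
    have hA : ∀ T : Finset ℕ, ind (Aset q γ s k m T) x = ∏ p ∈ T, χ p := by
      intro T
      by_cases hT : ∀ p ∈ T, (p : ℤ) ∣ k * a0 - m
      · have hx : x ∈ Aset q γ s k m T := ⟨a0, ha0, hT⟩
        simp only [ind, Set.indicator_of_mem hx]
        symm
        apply Finset.prod_eq_one
        intro p hp
        simp [hχ, hT p hp]
      · have hx : x ∉ Aset q γ s k m T := by
          rintro ⟨a, h1, h2⟩
          rw [huniq a h1] at h2
          exact hT h2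
        simp only [ind, Set.indicator_of_notMem hx]
        push Not at hT
        obtain ⟨p, hp, hpn⟩ := hT
        symm
        apply Finset.prod_eq_zero hp
        simp [hχ, hpn]
    simp_rw [hA]
    rw [← prod_expand]
    by_cases hE : ∀ p ∈ E, ¬ ((p : ℤ) ∣ k * a0 - m)
    · have hx : x ∈ sieveSet q γ s k m E := ⟨a0, ha0, hE⟩
      simp only [ind, Set.indicator_of_mem hx]
      symm
      apply Finset.prod_eq_one
      intro p hp
      simp [hχ, hE p hp]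
    · have hx : x ∉ sieveSet q γ s k m E := by
        rintro ⟨a, h1, h2⟩
        rw [huniq a h1] at h2
        exact hE h2
      simp only [ind, Set.indicator_of_notMem hx]
      push Not at hE
      obtain ⟨p, hp, hpn⟩ := hE
      symm
      apply Finset.prod_eq_zero hp
      simp [hχ, hpn]
  · have hx : x ∉ sieveSet q γ s k m E := by
      rintro ⟨a, h1, -⟩
      exact h ⟨a, h1⟩
    have hA : ∀ T : Finset ℕ, ind (Aset q γ s k m T) x = 0 := by
      intro T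
      have : x ∉ Aset q γ s k m T := by
        rintro ⟨a, h1, -⟩
        exact h ⟨a, h1⟩
      simp only [ind, Set.indicator_of_notMem this]
    simp only [ind, Set.indicator_of_notMem hx]
    symm
    apply Finset.sum_eq_zero
    intro T _
    have := hA T
    simp only [ind] at this
    rw [this, mul_zero]

theorem measurable_ind_Aset (q : ℕ) (hq : 0 < q) (γ s : ℝ) (k m : ℤ) (T : Finset ℕ)
    (hT : ∀ p ∈ T, p.Prime ∧ p ∣ q ∧ ¬ ((p : ℤ) ∣ k)) : Measurable (ind (Aset q γ s k m T)) := by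
  obtain ⟨q', γ', -, -, -, h⟩ := Aset_eq q hq γ s k m T hT
  rw [h]
  exact measurable_ind (isOpen_arcSet _ _ _).measurableSet

theorem abs_ind_le (S : Set ℝ) (x : ℝ) : |ind S x| ≤ 1 := by
  rw [abs_of_nonneg (ind_nonneg S x)]
  exact ind_le_one S x

/-- The measure of a sieved arc set. -/
theorem sieve_measure (q : ℕ) (hq : 0 < q) (γ s : ℝ) (hs0 : 0 ≤ s) (hs : s ≤ 1 / 2) (k m : ℤ)
    (E : Finset ℕ) (hE : ∀ p ∈ E, p.Prime ∧ p ∣ q ∧ ¬ ((p : ℤ) ∣ k)) :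
    ∫ x in (0:ℝ)..1, ind (sieveSet q γ s k m E) x = 2 * s * MoebiusAux.eul E := by
  classical
  have hsub : ∀ T ∈ E.powerset, ∀ p ∈ T, p.Prime ∧ p ∣ q ∧ ¬ ((p : ℤ) ∣ k) :=
    fun T hT p hp => hE p (Finset.mem_powerset.mp hT hp)
  simp_rw [ind_sieve_expand q γ s hs k m E]
  rw [intervalIntegral.integral_finsetSum]
  · rw [eul_expand, Finset.mul_sum]
    apply Finset.sum_congr rfl
    intro T hT
    rw [intervalIntegral.integral_const_mul]
    obtain ⟨q', γ', hepos, hq'pos, -, h⟩ := Aset_eq q hq γ s k m T (hsub T hT)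
    have heR : (1 : ℝ) ≤ ((∏ p ∈ T, p : ℕ) : ℝ) := by exact_mod_cast hepos
    have heR0 : (0 : ℝ) < ((∏ p ∈ T, p : ℕ) : ℝ) := by linarith
    rw [h, integral_ind_arcSet q' hq'pos γ' _ (by positivity)
      (by rw [div_le_iff₀ heR0]; nlinarith)]
    ring
  · intro T hT
    apply IntervalIntegrable.const_mul
    exact intervalIntegrable_of_bdd (measurable_ind_Aset q hq γ s k m T (hsub T hT)) 1
      (fun x => abs_ind_le _ x) _ _

/-- The overlap of two sieved arc sets. -/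
theorem sieve_overlap (q r : ℕ) (hq : 0 < q) (hr : 0 < r) (γ s t : ℝ)
    (hs0 : 0 ≤ s) (hs : s ≤ 1 / 2) (ht0 : 0 ≤ t) (ht : t ≤ 1 / 2) (k₁ m₁ k₂ m₂ : ℤ)
    (E₁ E₂ : Finset ℕ) (hE₁ : ∀ p ∈ E₁, p.Prime ∧ p ∣ q ∧ ¬ ((p : ℤ) ∣ k₁))
    (hE₂ : ∀ p ∈ E₂, p.Prime ∧ p ∣ r ∧ ¬ ((p : ℤ) ∣ k₂)) :
    ∫ x in (0:ℝ)..1, ind (sieveSet q γ s k₁ m₁ E₁) x * ind (sieveSet r γ t k₂ m₂ E₂) x
      ≤ 4 * s * t * MoebiusAux.eul E₁ * MoebiusAux.eul E₂
        + (2 : ℝ) ^ E₁.card * (2 : ℝ) ^ E₂.card * (2 * (Nat.gcd q r : ℝ) * min (s / q) (t / r)) := by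
  classical
  have hsub₁ : ∀ T ∈ E₁.powerset, ∀ p ∈ T, p.Prime ∧ p ∣ q ∧ ¬ ((p : ℤ) ∣ k₁) :=
    fun T hT p hp => hE₁ p (Finset.mem_powerset.mp hT hp)
  have hsub₂ : ∀ T ∈ E₂.powerset, ∀ p ∈ T, p.Prime ∧ p ∣ r ∧ ¬ ((p : ℤ) ∣ k₂) :=
    fun T hT p hp => hE₂ p (Finset.mem_powerset.mp hT hp)
  set err : ℝ := 2 * (Nat.gcd q r : ℝ) * min (s / q) (t / r) with herr
  -- the four-fold expansion
  have hexp : ∀ x : ℝ, ind (sieveSet q γ s k₁ m₁ E₁) x * ind (sieveSet r γ t k₂ m₂ E₂) x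
      = ∑ T₁ ∈ E₁.powerset, ∑ T₂ ∈ E₂.powerset, ((-1 : ℝ) ^ T₁.card * (-1 : ℝ) ^ T₂.card) *
        (ind (Aset q γ s k₁ m₁ T₁) x * ind (Aset r γ t k₂ m₂ T₂) x) := by
    intro x
    rw [ind_sieve_expand q γ s hs k₁ m₁ E₁ x, ind_sieve_expand r γ t ht k₂ m₂ E₂ x,
      Finset.sum_mul_sum]
    apply Finset.sum_congr rfl
    intro T₁ _
    apply Finset.sum_congr rfl
    intro T₂ _
    ring
  simp_rw [hexp]
  have hint : ∀ T₁ ∈ E₁.powerset, ∀ T₂ ∈ E₂.powerset, IntervalIntegrable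
      (fun x => ind (Aset q γ s k₁ m₁ T₁) x * ind (Aset r γ t k₂ m₂ T₂) x) volume 0 1 := by
    intro T₁ h₁ T₂ h₂
    apply intervalIntegrable_of_bdd
      ((measurable_ind_Aset q hq γ s k₁ m₁ T₁ (hsub₁ T₁ h₁)).mul
        (measurable_ind_Aset r hr γ t k₂ m₂ T₂ (hsub₂ T₂ h₂))) 1
    intro x
    change |ind (Aset q γ s k₁ m₁ T₁) x * ind (Aset r γ t k₂ m₂ T₂) x| ≤ 1
    rw [abs_mul]
    exact mul_le_one₀ (abs_ind_le _ x) (abs_nonneg _) (abs_ind_le _ x)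
  rw [intervalIntegral.integral_finsetSum]
  · -- main term bound pairwise
    have hpair : ∀ T₁ ∈ E₁.powerset, ∀ T₂ ∈ E₂.powerset,
        ((-1 : ℝ) ^ T₁.card * (-1 : ℝ) ^ T₂.card) *
          (∫ x in (0:ℝ)..1, ind (Aset q γ s k₁ m₁ T₁) x * ind (Aset r γ t k₂ m₂ T₂) x)
        ≤ 4 * s * t * (((-1 : ℝ) ^ T₁.card * (1 / ((∏ p ∈ T₁, p : ℕ) : ℝ))) *
            ((-1 : ℝ) ^ T₂.card * (1 / ((∏ p ∈ T₂, p : ℕ) : ℝ)))) + err := by
      intro T₁ h₁ T₂ h₂
      obtain ⟨q', γ₁, he₁, hq', hqe, h1⟩ := Aset_eq q hq γ s k₁ m₁ T₁ (hsub₁ T₁ h₁)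
      obtain ⟨r', γ₂, he₂, hr', hre, h2⟩ := Aset_eq r hr γ t k₂ m₂ T₂ (hsub₂ T₂ h₂)
      set e₁ : ℕ := ∏ p ∈ T₁, p with he₁def
      set e₂ : ℕ := ∏ p ∈ T₂, p with he₂def
      have he₁R : (1 : ℝ) ≤ (e₁ : ℝ) := by exact_mod_cast he₁
      have he₂R : (1 : ℝ) ≤ (e₂ : ℝ) := by exact_mod_cast he₂
      have he₁0 : (0 : ℝ) < (e₁ : ℝ) := by linarith
      have he₂0 : (0 : ℝ) < (e₂ : ℝ) := by linarith
      have hs' : s / e₁ ≤ 1 / 2 := by rw [div_le_iff₀ he₁0]; nlinarith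
      have ht' : t / e₂ ≤ 1 / 2 := by rw [div_le_iff₀ he₂0]; nlinarith
      have hq'R : (0 : ℝ) < (q' : ℝ) := by exact_mod_cast hq'
      have hr'R : (0 : ℝ) < (r' : ℝ) := by exact_mod_cast hr'
      have hts := two_sided q' r' hq' hr' γ₁ (s / e₁) γ₂ (t / e₂) (by positivity) hs'
        (by positivity) ht'
      rw [← h1, ← h2] at hts
      have hsq : (s / e₁) / (q' : ℝ) = s / q := by
        rw [hqe]; push_cast; field_simp
      have htr : (t / e₂) / (r' : ℝ) = t / r := by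
        rw [hre]; push_cast; field_simp
      rw [hsq, htr] at hts
      have hgcd : (Nat.gcd q' r' : ℝ) ≤ (Nat.gcd q r : ℝ) := by
        have h3 : Nat.gcd q' r' ∣ Nat.gcd q r :=
          Nat.dvd_gcd ((Nat.gcd_dvd_left q' r').trans (hqe ▸ Dvd.intro_left e₁ rfl))
            ((Nat.gcd_dvd_right q' r').trans (hre ▸ Dvd.intro_left e₂ rfl))
        exact_mod_cast Nat.le_of_dvd (Nat.gcd_pos_of_pos_left _ hq) h3
      have hmin0 : 0 ≤ min (s / q) (t / r) := le_min (by positivity) (by positivity)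
      have hts2 : |(∫ x in (0:ℝ)..1, ind (Aset q γ s k₁ m₁ T₁) x * ind (Aset r γ t k₂ m₂ T₂) x)
          - 4 * (s / e₁) * (t / e₂)| ≤ err := by
        refine hts.trans ?_
        rw [herr]
        exact mul_le_mul_of_nonneg_right (by linarith) hmin0
      set J : ℝ := ∫ x in (0:ℝ)..1, ind (Aset q γ s k₁ m₁ T₁) x * ind (Aset r γ t k₂ m₂ T₂) x
      have hsign : |((-1 : ℝ) ^ T₁.card * (-1 : ℝ) ^ T₂.card)| = 1 := by
        rw [abs_mul, abs_pow, abs_pow]; simp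
      have hdiff : ((-1 : ℝ) ^ T₁.card * (-1 : ℝ) ^ T₂.card) * (J - 4 * (s / e₁) * (t / e₂)) ≤ err := by
        calc ((-1 : ℝ) ^ T₁.card * (-1 : ℝ) ^ T₂.card) * (J - 4 * (s / e₁) * (t / e₂))
            ≤ |((-1 : ℝ) ^ T₁.card * (-1 : ℝ) ^ T₂.card) * (J - 4 * (s / e₁) * (t / e₂))| :=
              le_abs_self _
          _ = |J - 4 * (s / e₁) * (t / e₂)| := by rw [abs_mul, hsign, one_mul]
          _ ≤ err := hts2
      have hmain : 4 * s * t * (((-1 : ℝ) ^ T₁.card * (1 / (e₁ : ℝ))) *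
            ((-1 : ℝ) ^ T₂.card * (1 / (e₂ : ℝ))))
          = ((-1 : ℝ) ^ T₁.card * (-1 : ℝ) ^ T₂.card) * (4 * (s / e₁) * (t / e₂)) := by
        field_simp
      rw [hmain]
      linarith
    calc ∑ T₁ ∈ E₁.powerset, ∫ x in (0:ℝ)..1, ∑ T₂ ∈ E₂.powerset,
            ((-1 : ℝ) ^ T₁.card * (-1 : ℝ) ^ T₂.card) *
              (ind (Aset q γ s k₁ m₁ T₁) x * ind (Aset r γ t k₂ m₂ T₂) x)
        = ∑ T₁ ∈ E₁.powerset, ∑ T₂ ∈ E₂.powerset,
            ((-1 : ℝ) ^ T₁.card * (-1 : ℝ) ^ T₂.card) *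
              (∫ x in (0:ℝ)..1, ind (Aset q γ s k₁ m₁ T₁) x * ind (Aset r γ t k₂ m₂ T₂) x) := by
          apply Finset.sum_congr rfl
          intro T₁ h₁
          rw [intervalIntegral.integral_finsetSum]
          · apply Finset.sum_congr rfl
            intro T₂ _
            rw [intervalIntegral.integral_const_mul]
          · intro T₂ h₂
            exact (hint T₁ h₁ T₂ h₂).const_mul _
      _ ≤ ∑ T₁ ∈ E₁.powerset, ∑ T₂ ∈ E₂.powerset,
            (4 * s * t * (((-1 : ℝ) ^ T₁.card * (1 / ((∏ p ∈ T₁, p : ℕ) : ℝ))) *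
              ((-1 : ℝ) ^ T₂.card * (1 / ((∏ p ∈ T₂, p : ℕ) : ℝ)))) + err) :=
          Finset.sum_le_sum (fun T₁ h₁ => Finset.sum_le_sum (fun T₂ h₂ => hpair T₁ h₁ T₂ h₂))
      _ = 4 * s * t * MoebiusAux.eul E₁ * MoebiusAux.eul E₂
            + (2 : ℝ) ^ E₁.card * (2 : ℝ) ^ E₂.card * err := by
          simp only [Finset.sum_add_distrib, Finset.sum_const, Finset.card_powerset, nsmul_eq_mul]
          rw [eul_expand E₁, eul_expand E₂, mul_assoc (4 * s * t), Finset.sum_mul_sum,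
            Finset.mul_sum]
          congr 1
          · apply Finset.sum_congr rfl
            intro T₁ _
            rw [Finset.mul_sum]
          · push_cast
            ring
  · intro T₁ h₁
    have hfun : (fun x : ℝ => ∑ T₂ ∈ E₂.powerset, ((-1 : ℝ) ^ T₁.card * (-1 : ℝ) ^ T₂.card) *
        (ind (Aset q γ s k₁ m₁ T₁) x * ind (Aset r γ t k₂ m₂ T₂) x))
        = ∑ T₂ ∈ E₂.powerset, (fun x : ℝ => ((-1 : ℝ) ^ T₁.card * (-1 : ℝ) ^ T₂.card) *
        (ind (Aset q γ s k₁ m₁ T₁) x * ind (Aset r γ t k₂ m₂ T₂) x)) := by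
      ext x
      simp only [Finset.sum_apply]
    rw [hfun]
    apply IntervalIntegrable.sum
    intro T₂ h₂
    exact (hint T₁ h₁ T₂ h₂).const_mul _

end Vale.Agent.Lib.P028F
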