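import Vale.Agent.Lib.P028F.Defs

/-! Lower bound for the overlap of two arc sets, and the two sided estimate. -/

open MeasureTheory Set Filter Topology
open Vale.Agent.Lib.P028 Vale.Agent.Lib.P028E

namespace Vale.Agent.Lib.P028F

open scoped Classical in
/-- Lower bound for the count in `card_filter_le`. Apply `card_filter_le` to the complement, which
lies in `arcSet q (γ + 1/2) (1/2 - ψ + ε)` for every `ε > 0`. -/
theorem card_filter_ge (q q' : ℕ) (hq : 0 < q) (hq' : 0 < q') (t γ ψ : ℝ) (hψ0 : 0 ≤ ψ)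
    (hψ : ψ ≤ 1 / 2) :
    2 * ψ * q' - (Nat.gcd q q' : ℝ)
      ≤ (((Finset.range q').filter (fun b : ℕ => (t + b) / q' ∈ arcSet q γ ψ)).card : ℝ) := by
  have hq'R : (0 : ℝ) < q' := by exact_mod_cast hq'
  set B := (Finset.range q').filter (fun b : ℕ => (t + b) / q' ∈ arcSet q γ ψ) with hB
  set B' := (Finset.range q').filter (fun b : ℕ => ¬ (t + b) / q' ∈ arcSet q γ ψ) with hB'
  have hsplit : (B.card : ℝ) + B'.card = q' := by
    have := Finset.card_filter_add_card_filter_not (s := Finset.range q')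
      (fun b : ℕ => (t + b) / q' ∈ arcSet q γ ψ)
    rw [Finset.card_range] at this
    exact_mod_cast this
  have key : ∀ ε : ℝ, 0 < ε → (B'.card : ℝ) ≤ 2 * (1 / 2 - ψ + ε) * q' + (Nat.gcd q q' : ℝ) := by
    intro ε hε
    refine card_filter_le q q' hq hq' t (γ + 1 / 2) (1 / 2 - ψ + ε) (by linarith) B'
      (Finset.filter_subset _ _) ?_
    intro b hb
    have hnot : ¬ (t + b) / q' ∈ arcSet q γ ψ := (Finset.mem_filter.mp hb).2
    simp only [arcSet, Set.mem_ofPred_eq, not_exists, not_lt] at hnot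
    set y : ℝ := (q : ℝ) * ((t + b) / q') - γ with hy
    have h1 := hnot ⌊y⌋
    have h2 := hnot (⌊y⌋ + 1)
    have hfl1 : (⌊y⌋ : ℝ) ≤ y := Int.floor_le y
    have hfl2 : y < ⌊y⌋ + 1 := Int.lt_floor_add_one y
    have e1 : (q : ℝ) * ((t + b) / q') - (⌊y⌋ : ℤ) - γ = y - ⌊y⌋ := by rw [hy]; ring
    have e2 : (q : ℝ) * ((t + b) / q') - ((⌊y⌋ + 1 : ℤ) : ℝ) - γ = y - ⌊y⌋ - 1 := by
      rw [hy]; push_cast; ring
    rw [e1, abs_of_nonneg (by linarith)] at h1
    rw [e2, abs_of_nonpos (by linarith)] at h2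
    refine ⟨⌊y⌋, ?_⟩
    have e3 : (q : ℝ) * ((t + b) / q') - (⌊y⌋ : ℤ) - (γ + 1 / 2) = y - ⌊y⌋ - 1 / 2 := by
      rw [hy]; ring
    rw [e3, abs_lt]
    constructor <;> linarith
  refine le_of_forall_pos_le_add fun δ hδ => ?_
  have := key (δ / (2 * q')) (by positivity)
  have h3 : 2 * (1 / 2 - ψ + δ / (2 * q')) * q' = (1 - 2 * ψ) * q' + δ := by
    field_simp
  rw [h3] at this
  nlinarith

/-- Lower bound for the overlap; same proof as `integral_ind_mul_le`, with `card_filter_ge`. -/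
theorem integral_ind_mul_ge (q q' : ℕ) (hq : 0 < q) (hq' : 0 < q') (γ ψ γ' ψ' : ℝ)
    (h0 : 0 ≤ ψ) (h1 : ψ ≤ 1 / 2) (h0' : 0 ≤ ψ') (h1' : ψ' ≤ 1 / 2) :
    (2 * ψ') * (2 * ψ - (Nat.gcd q q' : ℝ) / q')
      ≤ ∫ x in (0:ℝ)..1, ind (arcSet q γ ψ) x * ind (arcSet q' γ' ψ') x := by
  have hmq := measurable_ind (measurableSet_arcSet q γ ψ)
  have hmq' := measurable_ind (measurableSet_arcSet q' γ' ψ')
  have hqR : (0 : ℝ) < q' := by exact_mod_cast hq'
  have hbd1 : ∀ x, |ind (arcSet q γ ψ) x| ≤ 1 := fun x => by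
    rw [abs_of_nonneg (ind_nonneg _ x)]; exact ind_le_one _ x
  have hbd2 : ∀ x, |ind (arcSet q' γ' ψ') x| ≤ 1 := fun x => by
    rw [abs_of_nonneg (ind_nonneg _ x)]; exact ind_le_one _ x
  have hF : ∀ a b, IntervalIntegrable (fun x => ind (arcSet q γ ψ) x * ind (arcSet q' γ' ψ') x) volume a b :=
    fun a b => intervalIntegrable_of_bdd (hmq.mul hmq') 1 (fun x => by
      simp only [Pi.mul_apply]
      rw [abs_mul]
      calc |ind (arcSet q γ ψ) x| * |ind (arcSet q' γ' ψ') x| ≤ 1 * 1 :=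
            mul_le_mul (hbd1 x) (hbd2 x) (abs_nonneg _) zero_le_one
        _ = 1 := by norm_num) a b
  rw [integral_split _ hF q' hq']
  -- rewrite each term
  set A := arcSet 1 γ' ψ' with hA
  have hmA : Measurable (ind A) := measurable_ind (measurableSet_arcSet 1 γ' ψ')
  have key : ∀ b ∈ Finset.range q', (1 / (q' : ℝ)) *
      ∫ t in (0:ℝ)..1, ind (arcSet q γ ψ) ((t + b) / q') * ind (arcSet q' γ' ψ') ((t + b) / q')
      = (1 / (q' : ℝ)) * ∫ t in (0:ℝ)..1, ind A t * ind (arcSet q γ ψ) ((t + b) / q') := by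
    intro b _
    congr 1
    apply intervalIntegral.integral_congr
    intro t _
    have : ind (arcSet q' γ' ψ') ((t + b) / q') = ind A t := by
      simp only [ind, Set.indicator, hA]
      by_cases h : t ∈ arcSet 1 γ' ψ'
      · rw [if_pos ((arcSet_one_mem_iff q' hq' γ' ψ' t b).mpr h), if_pos h]
      · rw [if_neg (fun h' => h ((arcSet_one_mem_iff q' hq' γ' ψ' t b).mp h')), if_neg h]
    simp only
    rw [this]; ring
  rw [Finset.sum_congr rfl key, ← Finset.mul_sum]
  -- swap sum and integral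
  have hcont : ∀ b : ℕ, Measurable (fun t : ℝ => ind (arcSet q γ ψ) ((t + b) / q')) := fun b =>
    hmq.comp (by fun_prop)
  have hint : ∀ b ∈ Finset.range q', IntervalIntegrable
      (fun t => ind A t * ind (arcSet q γ ψ) ((t + b) / q')) volume 0 1 := by
    intro b _
    apply intervalIntegrable_of_bdd (hmA.mul (hcont b)) 1
    intro x
    simp only [Pi.mul_apply]
    rw [abs_mul]
    calc |ind A x| * |ind (arcSet q γ ψ) ((x + b) / q')| ≤ 1 * 1 := by
          apply mul_le_mul _ (hbd1 _) (abs_nonneg _) zero_le_one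
          rw [abs_of_nonneg (ind_nonneg _ x)]; exact ind_le_one _ x
      _ = 1 := by norm_num
  rw [← intervalIntegral.integral_finsetSum hint]
  -- pointwise bound
  set K : ℝ := 2 * ψ * q' - (Nat.gcd q q' : ℝ) with hK
  have hpt : ∀ t : ℝ, ind A t * K ≤ ∑ b ∈ Finset.range q', ind A t * ind (arcSet q γ ψ) ((t + b) / q') := by
    intro t
    rw [← Finset.mul_sum]
    apply mul_le_mul_of_nonneg_left _ (ind_nonneg _ _)
    classical
    set B := (Finset.range q').filter (fun b : ℕ => (t + b) / q' ∈ arcSet q γ ψ) with hB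
    have hsum : ∑ b ∈ Finset.range q', ind (arcSet q γ ψ) ((t + b) / q') = (B.card : ℝ) := by
      simp only [ind, Set.indicator]
      rw [Finset.sum_ite, Finset.sum_const_zero, add_zero, Finset.sum_const, nsmul_eq_mul, mul_one]
    rw [hsum]
    exact card_filter_ge q q' hq hq' t γ ψ h0 h1
  have hle : ∫ t in (0:ℝ)..1, ind A t * K
      ≤ ∫ t in (0:ℝ)..1, ∑ b ∈ Finset.range q', ind A t * ind (arcSet q γ ψ) ((t + b) / q') := by
    apply intervalIntegral.integral_mono_on (by norm_num)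
    · apply intervalIntegrable_of_bdd (hmA.mul measurable_const) |K|
      intro x
      simp only [Pi.mul_apply]
      rw [abs_mul]
      calc |ind A x| * |K| ≤ 1 * |K| := by
            apply mul_le_mul_of_nonneg_right _ (abs_nonneg _)
            rw [abs_of_nonneg (ind_nonneg _ x)]; exact ind_le_one _ x
        _ = |K| := one_mul _
    · exact (IntervalIntegrable.sum (Finset.range q') (fun b hb => hint b hb)).congr
        (fun t _ => by simp [Finset.sum_apply])
    · intro t _; exact hpt t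
  have hval : ∫ t in (0:ℝ)..1, ind A t * K = 2 * ψ' * K := by
    rw [intervalIntegral.integral_mul_const, integral_ind_arc γ' ψ' h0' h1']
  rw [hval] at hle
  calc (2 * ψ') * (2 * ψ - (Nat.gcd q q' : ℝ) / q') = (1 / (q' : ℝ)) * (2 * ψ' * K) := by
        rw [hK]; field_simp
    _ ≤ (1 / (q' : ℝ)) * ∫ t in (0:ℝ)..1, ∑ b ∈ Finset.range q', ind A t * ind (arcSet q γ ψ) ((t + b) / q') := by
        apply mul_le_mul_of_nonneg_left hle (by positivity)

/-- The two sided estimate. -/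
theorem two_sided (q r : ℕ) (hq : 0 < q) (hr : 0 < r) (γ s γ' t : ℝ)
    (hs0 : 0 ≤ s) (hs : s ≤ 1 / 2) (ht0 : 0 ≤ t) (ht : t ≤ 1 / 2) :
    |(∫ x in (0:ℝ)..1, ind (arcSet q γ s) x * ind (arcSet r γ' t) x) - 4 * s * t|
      ≤ 2 * (Nat.gcd q r : ℝ) * min (s / q) (t / r) := by
  set I := ∫ x in (0:ℝ)..1, ind (arcSet q γ s) x * ind (arcSet r γ' t) x with hI
  have hqR : (0 : ℝ) < q := by exact_mod_cast hq
  have hrR : (0 : ℝ) < r := by exact_mod_cast hr
  have hcomm : (∫ x in (0:ℝ)..1, ind (arcSet r γ' t) x * ind (arcSet q γ s) x) = I := by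
    rw [hI]
    apply intervalIntegral.integral_congr
    intro x _
    simp only [mul_comm]
  have u1 := integral_ind_mul_le q r hq hr γ s γ' t hs0 ht0 ht
  have u2 := integral_ind_mul_le r q hr hq γ' t γ s ht0 hs0 hs
  have l1 := integral_ind_mul_ge q r hq hr γ s γ' t hs0 hs ht0 ht
  have l2 := integral_ind_mul_ge r q hr hq γ' t γ s ht0 ht hs0 hs
  rw [hcomm, Nat.gcd_comm r q] at u2 l2
  have e1 : (2 * t) * (2 * s + (Nat.gcd q r : ℝ) / r) = 4 * s * t + 2 * (Nat.gcd q r : ℝ) * (t / r) := by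
    ring
  have e2 : (2 * s) * (2 * t + (Nat.gcd q r : ℝ) / q) = 4 * s * t + 2 * (Nat.gcd q r : ℝ) * (s / q) := by
    ring
  have e3 : (2 * t) * (2 * s - (Nat.gcd q r : ℝ) / r) = 4 * s * t - 2 * (Nat.gcd q r : ℝ) * (t / r) := by
    ring
  have e4 : (2 * s) * (2 * t - (Nat.gcd q r : ℝ) / q) = 4 * s * t - 2 * (Nat.gcd q r : ℝ) * (s / q) := by
    ring
  rw [e1] at u1
  rw [e2] at u2
  rw [e3] at l1
  rw [e4] at l2
  rw [abs_le]
  rcases min_cases (s / q) (t / r) with ⟨hm, _⟩ | ⟨hm, _⟩ <;> rw [hm] <;> constructor <;> linarith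

end Vale.Agent.Lib.P028F
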